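import Vale.Agent.Lib.P074.Semi

open MeasureTheory Set Filter Topology
open scoped ENNReal NNReal

set_option linter.unusedSectionVars false

namespace Vale.Agent.P074

namespace SD

variable {d : ℕ} {ι : Type*} [Fintype ι] [Nonempty ι] {K : Set (E d)}

theorem pot_le_add (z : ι → E d) {ψ ψ' : ι → ℝ} {c : ℝ} (h : ∀ i, ψ' i ≤ ψ i + c) (x : E d) :
    pot z ψ x ≤ pot z ψ' x + c := by
  obtain ⟨i, hi⟩ := exists_pot_eq z ψ x
  have h1 := le_pot z ψ' x i
  have h2 := h i
  linarith

theorem pot_sub_le (z : ι → E d) (ψ ψ' : ι → ℝ) (x : E d) :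
    pot z ψ x ≤ pot z ψ' x + ‖ψ - ψ'‖ := by
  refine pot_le_add z (fun i => ?_) x
  have h1 := norm_le_pi_norm (ψ - ψ') i
  rw [Real.norm_eq_abs, Pi.sub_apply] at h1
  have := (abs_le.1 h1).1
  linarith

theorem integrable_pot (hK : IsCompact K) (hKi : (interior K).Nonempty) (z : ι → E d)
    (ψ : ι → ℝ) : Integrable (pot z ψ) (unif K) := by
  have := unif_prob hK hKi
  obtain ⟨C, hC⟩ := hK.exists_bound_of_continuousOn (continuous_pot z ψ).continuousOn
  refine Integrable.of_bound (continuous_pot z ψ).aestronglyMeasurable C ?_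
  filter_upwards [ae_mem hK] with x hx
  exact hC x hx

theorem integral_le_add (hK : IsCompact K) (hKi : (interior K).Nonempty) (z : ι → E d)
    (ψ ψ' : ι → ℝ) :
    ∫ x, pot z ψ x ∂unif K ≤ ∫ x, pot z ψ' x ∂unif K + ‖ψ - ψ'‖ := by
  have := unif_prob hK hKi
  have h1 : ∫ x, pot z ψ x ∂unif K ≤ ∫ x, (pot z ψ' x + ‖ψ - ψ'‖) ∂unif K :=
    integral_mono (integrable_pot hK hKi z ψ)
      ((integrable_pot hK hKi z ψ').add (integrable_const _)) (fun x => pot_sub_le z ψ ψ' x)
  rw [integral_add (integrable_pot hK hKi z ψ') (integrable_const _)] at h1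
  simpa using h1

theorem continuous_integral_pot (hK : IsCompact K) (hKi : (interior K).Nonempty) (z : ι → E d) :
    Continuous (fun ψ : ι → ℝ => ∫ x, pot z ψ x ∂unif K) := by
  refine (LipschitzWith.of_dist_le_mul (K := 1) fun ψ ψ' => ?_).continuous
  rw [Real.dist_eq, NNReal.coe_one, one_mul, dist_eq_norm, abs_sub_le_iff]
  constructor
  · have := integral_le_add hK hKi z ψ ψ'
    linarith
  · have := integral_le_add hK hKi z ψ' ψ
    rw [norm_sub_rev] at this
    linarith

/-- The functional whose minimisers are the dual potentials. -/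
noncomputable def Jf (K : Set (E d)) (z : ι → E d) (m ψ : ι → ℝ) : ℝ :=
  ∫ x, pot z ψ x ∂unif K + ∑ i, m i * ψ i

theorem continuous_Jf (hK : IsCompact K) (hKi : (interior K).Nonempty) (z : ι → E d)
    (m : ι → ℝ) : Continuous (Jf K z m) := by
  unfold Jf
  exact (continuous_integral_pot hK hKi z).add (by fun_prop)

theorem pot_add_const (z : ι → E d) (ψ : ι → ℝ) (c : ℝ) (x : E d) :
    pot z (fun i => ψ i + c) x = pot z ψ x - c := by
  refine le_antisymm ?_ ?_
  · have := pot_le_add z (ψ := fun i => ψ i + c) (ψ' := ψ) (c := -c) (fun i => by linarith) x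
    linarith
  · have := pot_le_add z (ψ := ψ) (ψ' := fun i => ψ i + c) (c := c) (fun i => le_refl _) x
    linarith

theorem Jf_add_const (hK : IsCompact K) (hKi : (interior K).Nonempty) (z : ι → E d)
    {m : ι → ℝ} (hsum : ∑ i, m i = 1) (ψ : ι → ℝ) (c : ℝ) :
    Jf K z m (fun i => ψ i + c) = Jf K z m ψ := by
  have := unif_prob hK hKi
  unfold Jf
  simp_rw [pot_add_const, mul_add, Finset.sum_add_distrib]
  rw [integral_sub (integrable_pot hK hKi z ψ) (integrable_const _), ← Finset.sum_mul, hsum]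
  simp only [integral_const, probReal_univ, smul_eq_mul, one_mul]
  ring

/-- A bound for the scalar products. -/
theorem exists_bound (hK : IsCompact K) (z : ι → E d) :
    ∃ B : ℝ, 0 < B ∧ ∀ x ∈ K, ∀ i, |inner ℝ (z i) x| ≤ B := by
  obtain ⟨D, hD⟩ := hK.isBounded.exists_norm_le
  refine ⟨(∑ i, ‖z i‖) * |D| + 1, by positivity, fun x hx i => ?_⟩
  have h1 : ‖z i‖ ≤ ∑ i, ‖z i‖ :=
    Finset.single_le_sum (f := fun i => ‖z i‖) (fun j _ => norm_nonneg _) (Finset.mem_univ i)
  have h2 : ‖x‖ ≤ |D| := (hD x hx).trans (le_abs_self D)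
  have h3 : |inner ℝ (z i) x| ≤ ‖z i‖ * ‖x‖ := abs_real_inner_le_norm _ _
  have h4 : ‖z i‖ * ‖x‖ ≤ (∑ i, ‖z i‖) * |D| :=
    mul_le_mul h1 h2 (norm_nonneg _) (Finset.sum_nonneg fun j _ => norm_nonneg _)
  linarith

theorem exists_min (hK : IsCompact K) (hKi : (interior K).Nonempty) (z : ι → E d)
    {m : ι → ℝ} (hm : ∀ i, 0 < m i) (hsum : ∑ i, m i = 1) :
    ∃ ψ : ι → ℝ, ∀ ψ', Jf K z m ψ ≤ Jf K z m ψ' := by
  have := unif_prob hK hKi
  obtain ⟨B, hB0, hB⟩ := exists_bound hK z
  obtain ⟨i₁, -, hi₁⟩ := Finset.exists_min_image Finset.univ m Finset.univ_nonempty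
  have hμ := hm i₁
  set L : ℝ := 2 * B / m i₁ with hL
  have hL0 : 0 < L := by positivity
  have hQ : IsCompact (Set.Icc (fun _ : ι => (0 : ℝ)) (fun _ => L)) := isCompact_Icc
  obtain ⟨ψ, hψ, hmin⟩ := hQ.exists_isMinOn ⟨fun _ => 0, ⟨le_refl _, fun _ => hL0.le⟩⟩
    (continuous_Jf hK hKi z m).continuousOn
  refine ⟨ψ, fun ψ' => ?_⟩
  obtain ⟨i₀, -, hi₀⟩ := Finset.exists_min_image Finset.univ ψ' Finset.univ_nonempty
  set φ : ι → ℝ := fun i => ψ' i + (-ψ' i₀) with hφ
  have hφJ : Jf K z m φ = Jf K z m ψ' := Jf_add_const hK hKi z hsum ψ' _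
  rw [← hφJ]
  have hφ0 : ∀ i, 0 ≤ φ i := fun i => by
    have := hi₀ i (Finset.mem_univ i)
    simp only [hφ]; linarith
  have hφi₀ : φ i₀ = 0 := by simp [hφ]
  by_cases hcase : ∀ i, φ i ≤ L
  · exact hmin ⟨fun i => hφ0 i, fun i => hcase i⟩
  · push Not at hcase
    obtain ⟨i₂, hi₂⟩ := hcase
    have h0 : Jf K z m ψ ≤ Jf K z m (fun _ => 0) := hmin ⟨le_refl _, fun _ => hL0.le⟩
    have h1 : Jf K z m (fun _ => 0) ≤ B := by
      unfold Jf
      simp only [mul_zero, Finset.sum_const_zero, add_zero]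
      have : ∫ x, pot z (fun _ => 0) x ∂unif K ≤ ∫ _x, B ∂unif K := by
        refine integral_mono_ae (integrable_pot hK hKi z _) (integrable_const _) ?_
        filter_upwards [ae_mem hK] with x hx
        obtain ⟨i, hi⟩ := exists_pot_eq z (fun _ => 0) x
        rw [hi]
        have := (abs_le.1 (hB x hx i)).2
        linarith
      simpa using this
    have h2 : -B ≤ ∫ x, pot z φ x ∂unif K := by
      have : ∫ _x, (-B) ∂unif K ≤ ∫ x, pot z φ x ∂unif K := by
        refine integral_mono_ae (integrable_const _) (integrable_pot hK hKi z _) ?_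
        filter_upwards [ae_mem hK] with x hx
        have h3 := le_pot z φ x i₀
        have h4 := (abs_le.1 (hB x hx i₀)).1
        rw [hφi₀] at h3
        linarith
      simpa using this
    have h3 : m i₁ * φ i₂ ≤ ∑ i, m i * φ i := by
      have h4 : m i₂ * φ i₂ ≤ ∑ i, m i * φ i :=
        Finset.single_le_sum (f := fun i => m i * φ i)
          (fun i _ => mul_nonneg (hm i).le (hφ0 i)) (Finset.mem_univ i₂)
      have h5 : m i₁ * φ i₂ ≤ m i₂ * φ i₂ :=
        mul_le_mul_of_nonneg_right (hi₁ i₂ (Finset.mem_univ _)) (hφ0 i₂)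
      linarith
    have h6 : 2 * B < m i₁ * φ i₂ := by
      have : m i₁ * L = 2 * B := by rw [hL]; field_simp
      rw [← this]
      exact mul_lt_mul_of_pos_left hi₂ hμ
    have h7 : Jf K z m φ = ∫ x, pot z φ x ∂unif K + ∑ i, m i * φ i := rfl
    linarith

theorem first_order (hK : IsCompact K) (hKi : (interior K).Nonempty) {z : ι → E d}
    (hz : Function.Injective z) {m : ι → ℝ} (hsum : ∑ i, m i = 1)
    {ψ : ι → ℝ} (hmin : ∀ ψ', Jf K z m ψ ≤ Jf K z m ψ') (i : ι) :
    (unif K).real (cell K z ψ i) = m i := by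
  classical
  have hprob := unif_prob hK hKi
  have key : ∀ i, m i ≤ (unif K).real (cell K z ψ i) := by
    intro i
    -- near cells
    let S : ℕ → Set (E d) := fun n =>
      {x | x ∈ K ∧ pot z ψ x ≤ inner ℝ (z i) x - ψ i + 1 / ((n : ℝ) + 1)}
    have hSm : ∀ n, MeasurableSet (S n) := by
      intro n
      have : S n = K ∩ {x | pot z ψ x ≤ inner ℝ (z i) x - ψ i + 1 / ((n : ℝ) + 1)} := rfl
      rw [this]
      exact (hK.inter_right (isClosed_le (continuous_pot z ψ) (by fun_prop))).measurableSet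
    have hSanti : Antitone S := by
      intro a b hab x hx
      refine ⟨hx.1, hx.2.trans ?_⟩
      have : 1 / ((b : ℝ) + 1) ≤ 1 / ((a : ℝ) + 1) :=
        one_div_le_one_div_of_le (by positivity) (by exact_mod_cast Nat.add_le_add_right hab 1)
      linarith
    have hSinter : ⋂ n, S n = cell K z ψ i := by
      ext x
      rw [mem_iInter, mem_cell_iff]
      constructor
      · intro h
        refine ⟨(h 0).1, le_antisymm ?_ (le_pot z ψ x i)⟩
        have hlim : Tendsto (fun n : ℕ => inner ℝ (z i) x - ψ i + 1 / ((n : ℝ) + 1)) atTop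
            (𝓝 (inner ℝ (z i) x - ψ i + 0)) :=
          tendsto_const_nhds.add tendsto_one_div_add_atTop_nhds_zero_nat
        rw [add_zero] at hlim
        exact ge_of_tendsto' hlim fun n => (h n).2
      · rintro ⟨h1, h2⟩ n
        refine ⟨h1, ?_⟩
        rw [h2]
        have : (0 : ℝ) ≤ 1 / ((n : ℝ) + 1) := by positivity
        linarith
    have hlim : Tendsto (fun n => (unif K).real (S n)) atTop (𝓝 ((unif K).real (cell K z ψ i))) := by
      have h1 : Tendsto (fun n => unif K (S n)) atTop (𝓝 (unif K (⋂ n, S n))) :=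
        tendsto_measure_iInter_atTop (fun n => (hSm n).nullMeasurableSet) hSanti
          ⟨0, measure_ne_top _ _⟩
      rw [hSinter] at h1
      exact (ENNReal.tendsto_toReal (measure_ne_top _ _)).comp h1
    refine ge_of_tendsto' hlim fun n => ?_
    set ε : ℝ := 1 / ((n : ℝ) + 1) with hε
    have hε0 : 0 < ε := by positivity
    have h1 := hmin (Function.update ψ i (ψ i - ε))
    have hpt : ∀ x, x ∈ K → pot z (Function.update ψ i (ψ i - ε)) x ≤
        pot z ψ x + (S n).indicator (fun _ => ε) x := by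
      intro x hx
      obtain ⟨j, hj⟩ := exists_pot_eq z (Function.update ψ i (ψ i - ε)) x
      rw [hj]
      have hind : 0 ≤ (S n).indicator (fun _ => ε) x :=
        indicator_nonneg (fun _ _ => hε0.le) x
      by_cases hji : j = i
      · subst hji
        rw [Function.update_self]
        by_cases hxS : x ∈ S n
        · rw [indicator_of_mem hxS]
          have := le_pot z ψ x j
          linarith
        · have : ¬ (pot z ψ x ≤ inner ℝ (z j) x - ψ j + 1 / ((n : ℝ) + 1)) := fun h => hxS ⟨hx, h⟩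
          push Not at this
          rw [← hε] at this
          linarith
      · rw [Function.update_of_ne hji]
        have := le_pot z ψ x j
        linarith
    have h2 : ∫ x, pot z (Function.update ψ i (ψ i - ε)) x ∂unif K ≤
        ∫ x, pot z ψ x ∂unif K + ε * (unif K).real (S n) := by
      have hint : Integrable ((S n).indicator (fun _ => ε)) (unif K) :=
        (integrable_const ε).indicator (hSm n)
      have h3 : ∫ x, pot z (Function.update ψ i (ψ i - ε)) x ∂unif K ≤
          ∫ x, (pot z ψ x + (S n).indicator (fun _ => ε) x) ∂unif K := by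
        refine integral_mono_ae (integrable_pot hK hKi z _)
          ((integrable_pot hK hKi z ψ).add hint) ?_
        filter_upwards [ae_mem hK] with x hx
        exact hpt x hx
      rw [integral_add (integrable_pot hK hKi z ψ) hint, integral_indicator (hSm n),
        setIntegral_const, smul_eq_mul, mul_comm] at h3
      exact h3
    have h3 : ∑ j, m j * Function.update ψ i (ψ i - ε) j = ∑ j, m j * ψ j - m i * ε := by
      rw [← Finset.add_sum_erase _ _ (Finset.mem_univ i),
        ← Finset.add_sum_erase _ (fun j => m j * ψ j) (Finset.mem_univ i), Function.update_self]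
      have : ∑ x ∈ Finset.univ.erase i, m x * Function.update ψ i (ψ i - ε) x =
          ∑ x ∈ Finset.univ.erase i, m x * ψ x := by
        refine Finset.sum_congr rfl fun j hj => ?_
        rw [Function.update_of_ne (Finset.ne_of_mem_erase hj)]
      rw [this]
      ring
    unfold Jf at h1
    rw [h3] at h1
    have h4 : m i * ε ≤ (unif K).real (S n) * ε := by nlinarith
    exact le_of_mul_le_mul_right h4 hε0
  have hs := sum_mass hK hKi hz ψ
  by_contra hne
  have hlt : m i < (unif K).real (cell K z ψ i) := lt_of_le_of_ne (key i) (Ne.symm hne)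
  have : ∑ j, m j < ∑ j, (unif K).real (cell K z ψ j) :=
    Finset.sum_lt_sum (fun j _ => key j) ⟨i, Finset.mem_univ i, hlt⟩
  linarith

/-- Potentials whose cells have masses `m` minimise `Jf K z m`. -/
theorem min_of_mass (hK : IsCompact K) (hKi : (interior K).Nonempty) {z : ι → E d}
    (hz : Function.Injective z) {m : ι → ℝ} {ψ : ι → ℝ}
    (h : ∀ i, (unif K).real (cell K z ψ i) = m i) (ψ' : ι → ℝ) :
    Jf K z m ψ' - Jf K z m ψ =
      ∑ i, ∫ x in cell K z ψ i, (pot z ψ' x - (inner ℝ (z i) x - ψ' i)) ∂unif K := by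
  have hprob := unif_prob hK hKi
  have hI := integrable_pot hK hKi z ψ
  have hI' := integrable_pot hK hKi z ψ'
  have h1 := integral_cells hK hz ψ hI'
  have h2 := integral_cells hK hz ψ hI
  unfold Jf
  rw [h1, h2]
  have h3 : ∀ i, ∫ x in cell K z ψ i, (pot z ψ' x - (inner ℝ (z i) x - ψ' i)) ∂unif K =
      ∫ x in cell K z ψ i, pot z ψ' x ∂unif K - ∫ x in cell K z ψ i, pot z ψ x ∂unif K +
        (m i * ψ' i - m i * ψ i) := by
    intro i
    have e1 : ∫ x in cell K z ψ i, (pot z ψ' x - (inner ℝ (z i) x - ψ' i)) ∂unif K =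
        ∫ x in cell K z ψ i, ((pot z ψ' x - pot z ψ x) + (ψ' i - ψ i)) ∂unif K := by
      refine setIntegral_congr_fun (measurableSet_cell hK z ψ i) fun x hx => ?_
      have := pot_eq_of_cell hx
      rw [this]; ring
    have e2 : ∫ x in cell K z ψ i, ((pot z ψ' x - pot z ψ x) + (ψ' i - ψ i)) ∂unif K =
        ∫ x in cell K z ψ i, (pot z ψ' x - pot z ψ x) ∂unif K +
          ∫ _x in cell K z ψ i, (ψ' i - ψ i) ∂unif K :=
      integral_add ((hI'.sub hI).integrableOn) (integrable_const _)
    rw [e1, e2, integral_sub hI'.integrableOn hI.integrableOn, setIntegral_const, h i, smul_eq_mul]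
    ring
  simp_rw [h3]
  rw [Finset.sum_add_distrib, Finset.sum_sub_distrib, Finset.sum_sub_distrib]
  ring

theorem le_of_mass (hK : IsCompact K) (hKi : (interior K).Nonempty) {z : ι → E d}
    (hz : Function.Injective z) {m : ι → ℝ} {ψ : ι → ℝ}
    (h : ∀ i, (unif K).real (cell K z ψ i) = m i) (ψ' : ι → ℝ) :
    Jf K z m ψ ≤ Jf K z m ψ' := by
  have h1 := min_of_mass hK hKi hz h ψ'
  have h2 : 0 ≤ ∑ i, ∫ x in cell K z ψ i, (pot z ψ' x - (inner ℝ (z i) x - ψ' i)) ∂unif K := by
    refine Finset.sum_nonneg fun i _ => ?_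
    refine integral_nonneg fun x => ?_
    have := le_pot z ψ' x i
    simp only [Pi.zero_apply]
    linarith
  linarith

/-- Two potentials with the same masses: almost every point of a cell of the first is in the
corresponding cell of the second. -/
theorem ae_cell_of_mass (hK : IsCompact K) (hKi : (interior K).Nonempty) {z : ι → E d}
    (hz : Function.Injective z) {m : ι → ℝ} {ψ ψ' : ι → ℝ}
    (h : ∀ i, (unif K).real (cell K z ψ i) = m i)
    (h' : ∀ i, (unif K).real (cell K z ψ' i) = m i) (i : ι) :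
    ∀ᵐ x ∂unif K, x ∈ cell K z ψ i → x ∈ cell K z ψ' i := by
  have hprob := unif_prob hK hKi
  have h1 := min_of_mass hK hKi hz h ψ'
  have h2 := le_of_mass hK hKi hz h' ψ
  have hnn : ∀ i, 0 ≤ ∫ x in cell K z ψ i, (pot z ψ' x - (inner ℝ (z i) x - ψ' i)) ∂unif K := by
    intro i
    refine integral_nonneg fun x => ?_
    have := le_pot z ψ' x i
    simp only [Pi.zero_apply]
    linarith
  have h3 : ∑ i, ∫ x in cell K z ψ i, (pot z ψ' x - (inner ℝ (z i) x - ψ' i)) ∂unif K = 0 := by
    refine le_antisymm (by linarith) (Finset.sum_nonneg fun i _ => hnn i)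
  have h4 := (Finset.sum_eq_zero_iff_of_nonneg (fun i _ => hnn i)).1 h3 i (Finset.mem_univ i)
  have hint : Integrable (fun x => pot z ψ' x - (inner ℝ (z i) x - ψ' i)) (unif K) := by
    obtain ⟨C, hC⟩ := hK.exists_bound_of_continuousOn
      (f := fun x => pot z ψ' x - (inner ℝ (z i) x - ψ' i))
      ((continuous_pot z ψ').sub (by fun_prop)).continuousOn
    refine Integrable.of_bound
      ((continuous_pot z ψ').sub (by fun_prop)).aestronglyMeasurable C ?_
    filter_upwards [ae_mem hK] with x hx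
    exact hC x hx
  have h5 := (setIntegral_eq_zero_iff_of_nonneg_ae ?_ hint.integrableOn).1 h4
  · have h6 := (ae_restrict_iff' (measurableSet_cell hK z ψ i)).1 h5
    filter_upwards [h6, ae_mem hK] with x hx hxK hxi
    refine mem_cell_iff.2 ⟨hxK, ?_⟩
    have := hx hxi
    simp only [Pi.zero_apply] at this
    linarith
  · refine Filter.Eventually.of_forall fun x => ?_
    have := le_pot z ψ' x i
    simp only [Pi.zero_apply]
    linarith

theorem unif_frontier (hKc : Convex ℝ K) (hK : IsCompact K) : ∀ᵐ x ∂unif K, x ∈ interior K := by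
  have h1 : unif K (frontier K) = 0 := unif_ac (hKc.addHaar_frontier volume)
  filter_upwards [measure_eq_zero_iff_ae_notMem.1 h1, ae_mem hK] with x hx hxK
  by_contra hxi
  exact hx ⟨subset_closure hxK, hxi⟩

/-- An open subset of the interior which is null for `unif K` is empty. -/
theorem open_null {U : Set (E d)} (hK : IsCompact K) (hU : IsOpen U) (hUK : U ⊆ interior K)
    (h : unif K U = 0) : U = ∅ := by
  have h1 := unif_apply (K := K) hU.measurableSet (hUK.trans interior_subset)
  rw [h] at h1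
  have h2 : volume U = 0 := by
    rcases mul_eq_zero.1 h1.symm with h3 | h3
    · exact absurd (ENNReal.inv_eq_zero.1 h3) hK.measure_lt_top.ne
    · exact h3
  exact (hU.measure_eq_zero_iff volume).1 h2

end SD

section main

variable {d : ℕ} {ι : Type*} [Fintype ι] [Nonempty ι] {K : Set (E d)}

theorem exists_psi (hK : IsCompact K) (hKi : (interior K).Nonempty) {z : ι → E d}
    (hz : Function.Injective z) {m : ι → ℝ} (hm : ∀ i, 0 < m i) (hsum : ∑ i, m i = 1) :
    ∃ ψ : ι → ℝ, ∀ i, (unif K).real (cell K z ψ i) = m i := by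
  obtain ⟨ψ, hψ⟩ := SD.exists_min hK hKi z hm hsum
  exact ⟨ψ, fun i => SD.first_order hK hKi hz hsum hψ i⟩

theorem psi_unique (hKc : Convex ℝ K) (hK : IsCompact K) (hKi : (interior K).Nonempty)
    {z : ι → E d} (hz : Function.Injective z) {m : ι → ℝ} (hm : ∀ i, 0 < m i)
    (hsum : ∑ i, m i = 1) {ψ ψ' : ι → ℝ}
    (h : ∀ i, (unif K).real (cell K z ψ i) = m i)
    (h' : ∀ i, (unif K).real (cell K z ψ' i) = m i) :
    ∃ c, ∀ i, ψ' i = ψ i + c := by
  have hprob := unif_prob hK hKi
  have hae : ∀ᵐ x ∂unif K, ∀ i, x ∈ cell K z ψ i → x ∈ cell K z ψ' i :=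
    ae_all_iff.2 fun i => SD.ae_cell_of_mass hK hKi hz h h' i
  set F : Set ℝ := Set.range (fun i => ψ' i - ψ i) with hF
  have hFfin : F.Finite := Set.finite_range _
  set g : E d → ℝ := fun x => pot z ψ x - pot z ψ' x with hg
  have hgc : Continuous g := (continuous_pot z ψ).sub (continuous_pot z ψ')
  have hgcell : ∀ x i, x ∈ cell K z ψ i → x ∈ cell K z ψ' i → g x = ψ' i - ψ i := by
    intro x i h1 h2
    have e1 := pot_eq_of_cell h1
    have e2 := pot_eq_of_cell h2
    simp only [hg]
    rw [e1, e2]; ring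
  have hmaps : MapsTo g (interior K) F := by
    have hopen : IsOpen (interior K ∩ g ⁻¹' Fᶜ) :=
      isOpen_interior.inter (hFfin.isClosed.isOpen_compl.preimage hgc)
    have hnull : unif K (interior K ∩ g ⁻¹' Fᶜ) = 0 := by
      rw [measure_eq_zero_iff_ae_notMem]
      filter_upwards [hae, ae_mem hK] with x hx hxK hx2
      obtain ⟨i, hi⟩ := exists_mem_cell z ψ hxK
      exact hx2.2 ⟨i, (hgcell x i hi (hx i hi)).symm⟩
    have hempty := SD.open_null hK hopen inter_subset_left hnull
    intro x hx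
    by_contra hxF
    have : x ∈ interior K ∩ g ⁻¹' Fᶜ := ⟨hx, hxF⟩
    rw [hempty] at this
    exact this
  have hpre : IsPreconnected (interior K) := hKc.interior.isPreconnected
  obtain ⟨x₀, hx₀⟩ := hKi
  refine ⟨g x₀, fun i => ?_⟩
  -- a point of the interior in both cells
  have hex : ∃ x, x ∈ cell K z ψ i ∧ x ∈ cell K z ψ' i ∧ x ∈ interior K := by
    by_contra hcon
    push Not at hcon
    have : unif K (cell K z ψ i) = 0 := by
      rw [measure_eq_zero_iff_ae_notMem]
      filter_upwards [hae, SD.unif_frontier hKc hK] with x hx hxi hxc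
      exact hcon x hxc (hx i hxc) hxi
    have h1 := h i
    rw [Measure.real, this, ENNReal.toReal_zero] at h1
    exact (hm i).ne h1
  obtain ⟨x, hx1, hx2, hx3⟩ := hex
  have h1 := hpre.constant_of_mapsTo hFfin.isDiscrete hgc.continuousOn hmaps hx₀ hx3
  have h2 := hgcell x i hx1 hx2
  linarith

theorem psi_tendsto (hKc : Convex ℝ K) (hK : IsCompact K) (hKi : (interior K).Nonempty)
    {z : ι → E d} (hz : Function.Injective z) {m : ι → ℝ} (hm : ∀ i, 0 < m i)
    (hsum : ∑ i, m i = 1) {ψ : ι → ℝ}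
    (h : ∀ i, (unif K).real (cell K z ψ i) = m i)
    {α : Type*} {l : Filter α} {M : α → ι → ℝ} {Ψ : α → ι → ℝ}
    (hM : Tendsto M l (𝓝 m))
    (hΨ : ∀ᶠ a in l, ∀ i, (unif K).real (cell K z (Ψ a) i) = M a i) (i j : ι) :
    Tendsto (fun a => Ψ a i - Ψ a j) l (𝓝 (ψ i - ψ j)) := by
  have hprob := unif_prob hK hKi
  obtain ⟨B, hB0, hB⟩ := SD.exists_bound hK z
  have hMpos : ∀ᶠ a in l, ∀ k, 0 < M a k := by
    rw [eventually_all]
    intro k
    exact ((tendsto_pi_nhds.1 hM) k).eventually (lt_mem_nhds (hm k))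
  set φ : α → ι → ℝ := fun a k => Ψ a k + (-Ψ a j) with hφ
  have hlim : Tendsto φ l (𝓝 (fun k => ψ k + (-ψ j))) := by
    have hQ : IsCompact (Set.Icc (fun _ : ι => -(2 * B)) (fun _ => 2 * B)) := isCompact_Icc
    refine hQ.tendsto_nhds_of_unique_mapClusterPt ?_ ?_
    · filter_upwards [hMpos, hΨ] with a ha1 ha2
      have hne : ∀ k, ∃ x, x ∈ cell K z (Ψ a) k := by
        intro k
        by_contra hcon
        push Not at hcon
        have h1 : cell K z (Ψ a) k = ∅ := Set.eq_empty_of_forall_notMem hcon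
        have h2 := ha2 k
        rw [h1, measureReal_empty] at h2
        exact (ha1 k).ne h2
      have hle : ∀ k k', Ψ a k - Ψ a k' ≤ 2 * B := by
        intro k k'
        obtain ⟨x, hx⟩ := hne k
        have h1 := hx.2 k'
        have h2 := (abs_le.1 (hB x hx.1 k)).2
        have h3 := (abs_le.1 (hB x hx.1 k')).1
        linarith
      refine ⟨fun k => ?_, fun k => ?_⟩
      · have := hle j k
        simp only [hφ]; linarith
      · have := hle k j
        simp only [hφ]; linarith
    · intro ξ hξ hcl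
      obtain ⟨U, hUl, hU⟩ := mapClusterPt_iff_ultrafilter.1 hcl
      have hMU : Tendsto M U (𝓝 m) := hM.mono_left hUl
      have hmin : ∀ ψ', SD.Jf K z m ξ ≤ SD.Jf K z m ψ' := by
        intro ψ'
        have t1 : Tendsto (fun a => SD.Jf K z (M a) (φ a)) U (𝓝 (SD.Jf K z m ξ)) := by
          unfold SD.Jf
          refine (((SD.continuous_integral_pot hK hKi z).tendsto ξ).comp hU).add ?_
          refine tendsto_finsetSum _ fun k _ => ?_
          exact ((tendsto_pi_nhds.1 hMU) k).mul ((tendsto_pi_nhds.1 hU) k)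
        have t2 : Tendsto (fun a => SD.Jf K z (M a) ψ') U (𝓝 (SD.Jf K z m ψ')) := by
          unfold SD.Jf
          refine tendsto_const_nhds.add ?_
          refine tendsto_finsetSum _ fun k _ => ?_
          exact ((tendsto_pi_nhds.1 hMU) k).mul tendsto_const_nhds
        refine le_of_tendsto_of_tendsto t1 t2 ?_
        filter_upwards [hUl hΨ] with a ha
        have hs : ∑ k, M a k = 1 := by
          rw [← sum_mass hK hKi hz (Ψ a)]
          exact Finset.sum_congr rfl fun k _ => (ha k).symm
        have e1 : SD.Jf K z (M a) (φ a) = SD.Jf K z (M a) (Ψ a) :=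
          SD.Jf_add_const hK hKi z hs (Ψ a) _
        rw [e1]
        exact SD.le_of_mass hK hKi hz ha ψ'
      have hmass := fun k => SD.first_order hK hKi hz hsum hmin k
      obtain ⟨c, hc⟩ := psi_unique hKc hK hKi hz hm hsum h hmass
      have hξj : ξ j = 0 := by
        have t3 : Tendsto (fun a => φ a j) U (𝓝 (ξ j)) := (tendsto_pi_nhds.1 hU) j
        have t4 : (fun a => φ a j) = fun _ => (0 : ℝ) := by
          funext a; simp [hφ]
        rw [t4] at t3
        exact tendsto_nhds_unique t3 tendsto_const_nhds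
      funext k
      have h1 := hc k
      have h2 := hc j
      rw [h1]
      linarith
  have h1 := (tendsto_pi_nhds.1 hlim) i
  have e : (fun a => Ψ a i - Ψ a j) = fun a => φ a i := by
    funext a; simp only [hφ]; ring
  rw [e]
  simpa [sub_eq_add_neg] using h1

end main

end Vale.Agent.P074
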