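import Vale.Agent.Lib.P074.Semi
import Vale.Agent.Lib.P074.Semidiscrete

open MeasureTheory Set Filter Topology
open scoped ENNReal NNReal

set_option linter.unusedSectionVars false

namespace Vale.Agent.P074

variable {d : ℕ} {K : Set (E d)}

theorem exists_ball (hKi : (interior K).Nonempty) :
    ∃ (x₀ : E d) (r₀ : ℝ), 0 < r₀ ∧ Metric.closedBall x₀ r₀ ⊆ K := by
  obtain ⟨x₀, hx₀⟩ := hKi
  obtain ⟨r, hr, hball⟩ := Metric.isOpen_iff.1 isOpen_interior x₀ hx₀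
  refine ⟨x₀, r / 2, by positivity, ?_⟩
  exact (Metric.closedBall_subset_ball (by linarith)).trans (hball.trans interior_subset)

/-- Square-root form of the `L^1` estimate. -/
theorem l1_sqrt (hK : IsCompact K) (hKc : Convex ℝ K) (hKi : (interior K).Nonempty) {R : ℝ}
    (hR : 0 ≤ R) : ∃ C : ℝ, 0 < C ∧ ∀ (φ g : E d → ℝ) (T S : E d → E d),
    (∀ x y, |φ x - φ y| ≤ R * ‖x - y‖) → Measurable T → Measurable S →
    (∀ᵐ x ∂unif K, ‖T x‖ ≤ R) → (∀ᵐ x ∂unif K, ‖S x‖ ≤ R) →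
    (∀ᵐ x ∂unif K, ∀ y ∈ K, φ x + inner ℝ (S x) (y - x) ≤ φ y) →
    (∀ᵐ x ∂unif K, ∀ y ∈ K, inner ℝ y (T x) ≤ φ y + g (T x)) →
    Integrable (fun x => g (T x)) (unif K) → ∀ Γ : ℝ, 0 < Γ →
    (∫ x, (φ x + g (T x) - inner ℝ x (T x)) ∂unif K) ≤ Γ →
    ∫ x, ‖T x - S x‖ ∂unif K ≤ C * √Γ := by
  have := unif_prob hK hKi
  obtain ⟨x₀, r₀, hr₀, hball⟩ := exists_ball hKi
  refine ⟨d + (2 * R * d ^ 2 + 2 * R * d) / r₀ + 2 * R / r₀ + 1, by positivity, ?_⟩
  intro φ g T S hL hT hS hTR hSR hsub hg hgi Γ hΓ hgap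
  have hq : 0 < √Γ := Real.sqrt_pos.2 hΓ
  by_cases hc : √Γ ≤ r₀
  · have h1 := l1_bound hK hKc hKi hr₀ hball hR hL hT hS hTR hSR hsub hg hgi hq hc
    have h2 : d * (∫ x, (φ x + g (T x) - inner ℝ x (T x)) ∂unif K) / √Γ ≤ d * √Γ := by
      rw [div_le_iff₀ hq, mul_assoc, Real.mul_self_sqrt hΓ.le]
      exact mul_le_mul_of_nonneg_left hgap (Nat.cast_nonneg _)
    have h3 : 0 ≤ 2 * R / r₀ + 1 := by positivity
    calc ∫ x, ‖T x - S x‖ ∂unif K ≤ d * √Γ + (2 * R * d ^ 2 + 2 * R * d) * √Γ / r₀ :=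
          h1.trans (add_le_add h2 le_rfl)
      _ = (d + (2 * R * d ^ 2 + 2 * R * d) / r₀) * √Γ := by ring
      _ ≤ (d + (2 * R * d ^ 2 + 2 * R * d) / r₀ + 2 * R / r₀ + 1) * √Γ := by
          refine mul_le_mul_of_nonneg_right ?_ hq.le
          linarith
  · push Not at hc
    have h1 : ∫ x, ‖T x - S x‖ ∂unif K ≤ 2 * R := by
      calc ∫ x, ‖T x - S x‖ ∂unif K ≤ ∫ x, 2 * R ∂unif K := by
            refine integral_mono_ae ?_ (integrable_const _) ?_
            · refine Integrable.of_bound (hT.sub hS).norm.aestronglyMeasurable (R + R) ?_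
              filter_upwards [hTR, hSR] with x h1 h2
              rw [norm_norm]
              exact (norm_sub_le _ _).trans (add_le_add h1 h2)
            · filter_upwards [hTR, hSR] with x h1 h2
              exact (norm_sub_le _ _).trans (by linarith)
        _ = 2 * R := by simp
    have h2 : 2 * R ≤ 2 * R / r₀ * √Γ := by
      rw [div_mul_eq_mul_div, le_div_iff₀ hr₀]
      exact mul_le_mul_of_nonneg_left hc.le (by positivity)
    have h3 : 0 ≤ (d + (2 * R * d ^ 2 + 2 * R * d) / r₀ + 1) := by positivity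
    have h4 := mul_nonneg h3 hq.le
    calc ∫ x, ‖T x - S x‖ ∂unif K ≤ 2 * R / r₀ * √Γ := h1.trans h2
      _ ≤ _ := by linarith

/-- Interpolation form of the `L^2` estimate. -/
theorem l2_cbrt (hK : IsCompact K) (hKc : Convex ℝ K) (hKi : (interior K).Nonempty) {R : ℝ}
    (hR : 0 ≤ R) : ∃ C : ℝ, 0 < C ∧ ∀ (φ ψ : E d → ℝ) (T S : E d → E d) (c : ℝ),
    ConvexOn ℝ univ φ → (∀ x y, |φ x - φ y| ≤ R * ‖x - y‖) →
    (∀ x y, |ψ x - ψ y| ≤ R * ‖x - y‖) → Measurable T → Measurable S →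
    (∀ᵐ x ∂unif K, ‖T x‖ ≤ R) → (∀ᵐ x ∂unif K, ‖S x‖ ≤ R) →
    (∀ᵐ x ∂unif K, ∀ y ∈ K, φ x + inner ℝ (S x) (y - x) ≤ φ y) →
    (∀ᵐ x ∂unif K, ∀ y ∈ K, ψ x + inner ℝ (T x) (y - x) ≤ ψ y) → ∀ U : ℝ, 0 < U →
    (∫ x, (φ x - ψ x - c) ^ 2 ∂unif K) ≤ U →
    ∫ x, ‖T x - S x‖ ^ 2 ∂unif K ≤ C * U ^ (1 / 3 : ℝ) := by
  have := unif_prob hK hKi
  obtain ⟨x₀, r₀, hr₀, hball⟩ := exists_ball hKi
  refine ⟨12 * d + (16 * R ^ 2 * d ^ 2 + 4 * R ^ 2 * d) / r₀ + 4 * R ^ 2 / r₀ + 1,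
    by positivity, ?_⟩
  intro φ ψ T S c hφ hL hLψ hT hS hTR hSR hsub hsub' U hU hint
  set q := U ^ (1 / 3 : ℝ) with hq
  have hq0 : 0 < q := by positivity
  have hq3 : q ^ 3 = U := by
    rw [hq, ← Real.rpow_natCast, ← Real.rpow_mul hU.le]
    norm_num
  by_cases hc : q ≤ r₀
  · have h1 := l2_bound hK hKc hKi hr₀ hball hR hφ hL hLψ hT hS hTR hSR hsub hsub' c hq0 hc
    have h2 : 12 * d * (∫ x, (φ x - ψ x - c) ^ 2 ∂unif K) / q ^ 2 ≤ 12 * d * q := by
      rw [div_le_iff₀ (by positivity)]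
      calc 12 * d * (∫ x, (φ x - ψ x - c) ^ 2 ∂unif K) ≤ 12 * d * U :=
            mul_le_mul_of_nonneg_left hint (by positivity)
        _ = 12 * d * q * q ^ 2 := by rw [← hq3]; ring
    have h3 : 0 ≤ 4 * R ^ 2 / r₀ + 1 := by positivity
    calc ∫ x, ‖T x - S x‖ ^ 2 ∂unif K
        ≤ 12 * d * q + (16 * R ^ 2 * d ^ 2 + 4 * R ^ 2 * d) * q / r₀ :=
          h1.trans (add_le_add h2 le_rfl)
      _ = (12 * d + (16 * R ^ 2 * d ^ 2 + 4 * R ^ 2 * d) / r₀) * q := by ring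
      _ ≤ _ := by
          refine mul_le_mul_of_nonneg_right ?_ hq0.le
          linarith
  · push Not at hc
    have h1 : ∫ x, ‖T x - S x‖ ^ 2 ∂unif K ≤ 4 * R ^ 2 := by
      have hb : ∀ᵐ x ∂unif K, ‖T x - S x‖ ^ 2 ≤ 4 * R ^ 2 := by
        filter_upwards [hTR, hSR] with x h1 h2
        have h3 : ‖T x - S x‖ ≤ 2 * R := (norm_sub_le _ _).trans (by linarith)
        calc ‖T x - S x‖ ^ 2 ≤ (2 * R) ^ 2 := pow_le_pow_left₀ (norm_nonneg _) h3 2
          _ = 4 * R ^ 2 := by ring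
      calc ∫ x, ‖T x - S x‖ ^ 2 ∂unif K ≤ ∫ x, 4 * R ^ 2 ∂unif K := by
            refine integral_mono_ae ?_ (integrable_const _) hb
            refine Integrable.of_bound ((hT.sub hS).norm.pow_const 2).aestronglyMeasurable
              (4 * R ^ 2) ?_
            filter_upwards [hb] with x h1
            rw [Real.norm_of_nonneg (by positivity)]
            exact h1
        _ = 4 * R ^ 2 := by simp
    have h2 : 4 * R ^ 2 ≤ 4 * R ^ 2 / r₀ * q := by
      rw [div_mul_eq_mul_div, le_div_iff₀ hr₀]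
      exact mul_le_mul_of_nonneg_left hc.le (by positivity)
    have h3 : 0 ≤ (12 * d + (16 * R ^ 2 * d ^ 2 + 4 * R ^ 2 * d) / r₀ + 1) := by positivity
    have h4 := mul_nonneg h3 hq0.le
    calc ∫ x, ‖T x - S x‖ ^ 2 ∂unif K ≤ 4 * R ^ 2 / r₀ * q := h1.trans h2
      _ ≤ _ := by linarith

section Gap

variable {ι : Type*} [Fintype ι] [Nonempty ι]

theorem integrable_lip_comp (hK : IsCompact K) (hKi : (interior K).Nonempty) {T : E d → E d}
    (hT : Measurable T) {R : ℝ} (hR : ∀ᵐ x ∂unif K, ‖T x‖ ≤ R) {g : E d → ℝ} {L : ℝ} (hL : 0 ≤ L)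
    (hg : ∀ x y, |g x - g y| ≤ L * ‖x - y‖) : Integrable (fun x => g (T x)) (unif K) := by
  have := unif_prob hK hKi
  refine Integrable.of_bound ((continuous_of_lip hg).measurable.comp hT).aestronglyMeasurable
    (|g 0| + L * R) ?_
  filter_upwards [hR] with x hx
  have h1 := hg (T x) 0
  rw [sub_zero] at h1
  have h2 : |g (T x)| ≤ |g 0| + |g (T x) - g 0| := by
    have := abs_add_le (g 0) (g (T x) - g 0)
    rwa [add_sub_cancel] at this
  rw [Real.norm_eq_abs]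
  have h3 : L * ‖T x‖ ≤ L * R := mul_le_mul_of_nonneg_left hx hL
  linarith

theorem integrable_pot (hK : IsCompact K) (hKi : (interior K).Nonempty) (z : ι → E d) (ψ : ι → ℝ) :
    Integrable (pot z ψ) (unif K) := by
  have := unif_prob hK hKi
  obtain ⟨B, hB⟩ := hK.exists_bound_of_continuousOn (continuous_pot z ψ).continuousOn
  refine Integrable.of_bound (continuous_pot z ψ).aestronglyMeasurable B ?_
  filter_upwards [ae_mem hK] with x hx
  exact hB x hx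

/-- The duality gap of `T` in the potential of a semi-discrete map. -/
theorem gap_integral (hK : IsCompact K) (hKi : (interior K).Nonempty) {z : ι → E d}
    (hz : Function.Injective z) (ψ : ι → ℝ) {T : E d → E d} (hT : Measurable T) {R : ℝ}
    (hR : ∀ᵐ x ∂unif K, ‖T x‖ ≤ R) :
    ∫ x, (pot z ψ x + conj K (pot z ψ) (T x) - inner ℝ x (T x)) ∂unif K =
      ((∫ x, conj K (pot z ψ) (T x) ∂unif K) - ∫ x, conj K (pot z ψ) (smap K z ψ x) ∂unif K)
      + ((∫ x, inner ℝ x (smap K z ψ x) ∂unif K) - ∫ x, inner ℝ x (T x) ∂unif K) := by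
  have := unif_prob hK hKi
  obtain ⟨D, hD0, hD⟩ := exists_bound hK
  have hKn : K.Nonempty := hKi.mono interior_subset
  have hφc := continuous_pot z ψ
  have hSm := measurable_smap hK z ψ
  obtain ⟨R', hR'⟩ : ∃ R, ∀ i, ‖z i‖ ≤ R := by
    refine ⟨∑ i, ‖z i‖, fun i => ?_⟩
    exact Finset.single_le_sum (f := fun i => ‖z i‖) (fun j _ => norm_nonneg _) (Finset.mem_univ i)
  have hSR := ae_norm_smap hK hz ψ hR'
  have hg := conj_lip hK hKn hD hφc
  have i1 := integrable_pot (K := K) hK hKi z ψ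
  have i2 := integrable_lip_comp hK hKi hT hR hD0.le hg
  have i3 := integrable_inner hK hKi hT hR
  have i4 := integrable_lip_comp hK hKi hSm hSR hD0.le hg
  have i5 := integrable_inner hK hKi hSm hSR
  have e1 : ∫ x, (pot z ψ x + conj K (pot z ψ) (T x) - inner ℝ x (T x)) ∂unif K =
      (∫ x, pot z ψ x ∂unif K) + (∫ x, conj K (pot z ψ) (T x) ∂unif K)
        - ∫ x, inner ℝ x (T x) ∂unif K := by
    have i12 : Integrable (fun x => pot z ψ x + conj K (pot z ψ) (T x)) (unif K) := i1.add i2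
    rw [integral_sub i12 i3, integral_add i1 i2]
  have e2 : (∫ x, pot z ψ x ∂unif K) + (∫ x, conj K (pot z ψ) (smap K z ψ x) ∂unif K) =
      ∫ x, inner ℝ x (smap K z ψ x) ∂unif K := by
    rw [← integral_add i1 i4]
    refine integral_congr_ae ?_
    filter_upwards [smap_sub hK hz ψ, ae_mem hK] with x hx hxK
    exact conj_eq hK hφc hxK (fun y _ => hx y)
  rw [e1]
  linarith

theorem gap_nonneg (hK : IsCompact K) (z : ι → E d) (ψ : ι → ℝ) (T : E d → E d) :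
    0 ≤ ∫ x, (pot z ψ x + conj K (pot z ψ) (T x) - inner ℝ x (T x)) ∂unif K := by
  refine integral_nonneg_of_ae ?_
  filter_upwards [ae_mem hK] with x hx
  have := le_conj hK (continuous_pot z ψ) (y := T x) hx
  simp only [Pi.zero_apply]
  linarith

end Gap

/-- Stability of semi-discrete maps. -/
theorem semi_stab (hK : IsCompact K) (hKc : Convex ℝ K) (hKi : (interior K).Nonempty) {R : ℝ}
    (hR : 0 ≤ R) : ∃ C : ℝ, 0 < C ∧ ∀ (ι κ : Type) [Fintype ι] [Nonempty ι] [Fintype κ]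
    [Nonempty κ] (z : ι → E d) (ψ : ι → ℝ) (z' : κ → E d) (ψ' : κ → ℝ), Function.Injective z →
    Function.Injective z' → (∀ i, ‖z i‖ ≤ R) → (∀ i, ‖z' i‖ ≤ R) → ∀ δ : ℝ, 0 < δ →
    (∀ h : E d → ℝ, (∀ a b, |h a - h b| ≤ ‖a - b‖) →
      |(∫ x, h (smap K z ψ x) ∂unif K) - ∫ x, h (smap K z' ψ' x) ∂unif K| ≤ δ) →
    ∫ x, ‖smap K z' ψ' x - smap K z ψ x‖ ∂unif K ≤ C * √δ := by
  obtain ⟨C, hC0, hC⟩ := l1_sqrt hK hKc hKi hR
  obtain ⟨D, hD0, hD⟩ := exists_bound hK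
  have hKn : K.Nonempty := hKi.mono interior_subset
  refine ⟨C * √(2 * D), by positivity, ?_⟩
  intro ι κ _ _ _ _ z ψ z' ψ' hz hz' hzR hzR' δ hδ hclose
  have hSm := measurable_smap hK z ψ
  have hSm' := measurable_smap hK z' ψ'
  have hSR := ae_norm_smap hK hz ψ hzR
  have hSR' := ae_norm_smap hK hz' ψ' hzR'
  have hg := conj_lip hK hKn hD (continuous_pot z ψ)
  have hg' := conj_lip hK hKn hD (continuous_pot z' ψ')
  -- test functions
  have htest : ∀ g : E d → ℝ, (∀ x y, |g x - g y| ≤ D * ‖x - y‖) →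
      |(∫ x, g (smap K z ψ x) ∂unif K) - ∫ x, g (smap K z' ψ' x) ∂unif K| ≤ D * δ := by
    intro g hg
    have h1 := hclose (fun y => D⁻¹ * g y) (fun a b => by
      rw [← mul_sub, abs_mul, abs_of_pos (inv_pos.2 hD0), inv_mul_le_iff₀ hD0]
      exact hg a b)
    simp only [integral_const_mul] at h1
    rw [← mul_sub, abs_mul, abs_of_pos (inv_pos.2 hD0), inv_mul_le_iff₀ hD0] at h1
    exact h1
  have g1 := gap_integral hK hKi hz ψ hSm' hSR'
  have g2 := gap_integral hK hKi hz' ψ' hSm hSR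
  have n2 := gap_nonneg hK z' ψ' (smap K z ψ)
  have t1 := htest _ hg
  have t2 := htest _ hg'
  have hgap : ∫ x, (pot z ψ x + conj K (pot z ψ) (smap K z' ψ' x)
      - inner ℝ x (smap K z' ψ' x)) ∂unif K ≤ 2 * D * δ := by
    have a1 := (abs_le.1 t1).1
    have a2 := (abs_le.1 t2).2
    linarith
  have h1 := hC (pot z ψ) (conj K (pot z ψ)) (smap K z' ψ') (smap K z ψ) (pot_lip hzR ψ) hSm' hSm
    hSR' hSR ((smap_sub hK hz ψ).mono fun x hx y _ => hx y)
    (Filter.Eventually.of_forall fun x y hy => le_conj hK (continuous_pot z ψ) hy)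
    (integrable_lip_comp hK hKi hSm' hSR' hD0.le hg) (2 * D * δ) (by positivity) hgap
  rw [Real.sqrt_mul (by positivity)] at h1
  rw [mul_assoc]
  exact h1

end Vale.Agent.P074
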