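import Vale.Agent.Lib.P074.Approx

open MeasureTheory Set Filter Topology
open scoped ENNReal NNReal

set_option linter.unusedSectionVars false

namespace Vale.Agent.P074

variable {d : ℕ} {K : Set (E d)}

/-- Law of a simple function. -/
theorem simple_family {ρ : Measure (E d)} [IsProbabilityMeasure ρ] (F : SimpleFunc (E d) (E d))
    {R : ℝ} (hF : ∀ x, ‖F x‖ ≤ R) :
    ∃ (ι : Type) (_ : Fintype ι) (_ : Nonempty ι) (z : ι → E d) (m : ι → ℝ),
      Function.Injective z ∧ (∀ i, 0 < m i) ∧ ∑ i, m i = 1 ∧ (∀ i, ‖z i‖ ≤ R) ∧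
      ∀ g : E d → ℝ, ∫ x, g (F x) ∂ρ = ∑ i, m i * g (z i) := by
  classical
  set s : Finset (E d) := F.range.filter (fun y => 0 < ρ.real (F ⁻¹' {y})) with hs
  have hmeas : ∀ y, MeasurableSet (F ⁻¹' {y}) := fun y => F.measurableSet_fiber y
  have key : ∀ g : E d → ℝ, ∫ x, g (F x) ∂ρ = ∑ i : {y // y ∈ s}, ρ.real (F ⁻¹' {i.1}) * g i.1 := by
    intro g
    have h1 : ∀ x, g (F x) = ∑ y ∈ F.range, (F ⁻¹' {y}).indicator (fun _ => g y) x := by
      intro x
      rw [Finset.sum_eq_single (F x)]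
      · rw [indicator_of_mem (by simp)]
      · intro y _ hy
        exact indicator_of_notMem (fun h => hy (by simpa using h.symm)) _
      · intro h
        exact absurd (SimpleFunc.mem_range_self F x) h
    have h2 : ∫ x, g (F x) ∂ρ = ∑ y ∈ F.range, ρ.real (F ⁻¹' {y}) * g y := by
      simp_rw [h1]
      rw [integral_finsetSum _ fun y _ => (integrable_const _).indicator (hmeas y)]
      refine Finset.sum_congr rfl fun y _ => ?_
      rw [integral_indicator (hmeas y), setIntegral_const, smul_eq_mul]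
    rw [h2, Finset.sum_coe_sort s (fun y => ρ.real (F ⁻¹' {y}) * g y), hs, Finset.sum_filter]
    refine Finset.sum_congr rfl fun y _ => ?_
    split_ifs with h
    · rfl
    · have : ρ.real (F ⁻¹' {y}) = 0 := le_antisymm (not_lt.1 h) measureReal_nonneg
      rw [this, zero_mul]
  have hsum : ∑ i : {y // y ∈ s}, ρ.real (F ⁻¹' {i.1}) = 1 := by
    have := key (fun _ => 1)
    simp only [mul_one, integral_const, probReal_univ, smul_eq_mul] at this
    exact this.symm
  have hne : Nonempty {y // y ∈ s} := by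
    by_contra h
    rw [not_nonempty_iff] at h
    rw [Finset.univ_eq_empty, Finset.sum_empty] at hsum
    exact zero_ne_one hsum
  refine ⟨{y // y ∈ s}, inferInstance, hne, Subtype.val, fun i => ρ.real (F ⁻¹' {i.1}),
    Subtype.val_injective, ?_, hsum, ?_, key⟩
  · intro i
    exact (Finset.mem_filter.1 i.2).2
  · intro i
    have h1 := (Finset.mem_filter.1 i.2).1
    obtain ⟨x, hx⟩ := SimpleFunc.mem_range.1 h1
    rw [← hx]
    exact hF x

/-- Simple approximations of a bounded measurable map. -/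
theorem exists_simple_approx (hK : IsCompact K) (hKi : (interior K).Nonempty) {T : E d → E d}
    (hT : Measurable T) {R : ℝ} (hR0 : 0 ≤ R) (hR : ∀ᵐ x ∂unif K, ‖T x‖ ≤ R) :
    ∃ F : ℕ → SimpleFunc (E d) (E d), (∀ n x, ‖F n x‖ ≤ R) ∧
      (∀ᵐ x ∂unif K, Tendsto (fun n => F n x) atTop (𝓝 (T x))) ∧
      Tendsto (fun n => ∫ x, ‖F n x - T x‖ ∂unif K) atTop (𝓝 0) := by
  have := unif_prob hK hKi
  have h0 : (0 : E d) ∈ Metric.closedBall (0 : E d) R := by simpa using hR0
  set F : ℕ → SimpleFunc (E d) (E d) :=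
    fun n => SimpleFunc.approxOn T hT (Metric.closedBall 0 R) 0 h0 n with hF
  have hb : ∀ n x, ‖F n x‖ ≤ R := by
    intro n x
    have := SimpleFunc.approxOn_mem hT h0 n x
    simpa using this
  have ht : ∀ᵐ x ∂unif K, Tendsto (fun n => F n x) atTop (𝓝 (T x)) := by
    filter_upwards [hR] with x hx
    refine SimpleFunc.tendsto_approxOn hT h0 ?_
    refine subset_closure ?_
    simpa using hx
  refine ⟨F, hb, ht, ?_⟩
  have h1 : Tendsto (fun n => ∫ x, ‖F n x - T x‖ ∂unif K) atTop (𝓝 (∫ x, (0 : ℝ) ∂unif K)) := by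
    refine tendsto_integral_of_dominated_convergence (fun _ => R + R) ?_ (integrable_const _) ?_ ?_
    · intro n
      exact ((F n).measurable.sub hT).norm.aestronglyMeasurable
    · intro n
      filter_upwards [hR] with x hx
      rw [norm_norm]
      exact (norm_sub_le _ _).trans (add_le_add (hb n x) hx)
    · filter_upwards [ht] with x hx
      have := (hx.sub_const (T x)).norm
      simpa using this
  simpa using h1

theorem integral_norm_sub_triangle {ρ : Measure (E d)} {A B C : E d → E d}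
    (hAB : Integrable (fun x => ‖A x - B x‖) ρ) (hBC : Integrable (fun x => ‖B x - C x‖) ρ)
    (hAC : Integrable (fun x => ‖A x - C x‖) ρ) :
    ∫ x, ‖A x - C x‖ ∂ρ ≤ (∫ x, ‖A x - B x‖ ∂ρ) + ∫ x, ‖B x - C x‖ ∂ρ := by
  rw [← integral_add hAB hBC]
  exact integral_mono hAC (hAB.add hBC) fun x => norm_sub_le_norm_sub_add_norm_sub _ _ _

theorem integrable_norm_sub {ρ : Measure (E d)} [IsFiniteMeasure ρ] {A B : E d → E d}
    (hA : Measurable A) (hB : Measurable B) {R R' : ℝ} (hAR : ∀ᵐ x ∂ρ, ‖A x‖ ≤ R)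
    (hBR : ∀ᵐ x ∂ρ, ‖B x‖ ≤ R') : Integrable (fun x => ‖A x - B x‖) ρ := by
  refine Integrable.of_bound (hA.sub hB).norm.aestronglyMeasurable (R + R') ?_
  filter_upwards [hAR, hBR] with x h1 h2
  rw [norm_norm]
  exact (norm_sub_le _ _).trans (add_le_add h1 h2)

theorem integral_norm_sub_eq {ρ : Measure (E d)} {A B : E d → E d}
    (hA : Measurable A) (hB : Measurable B) :
    ∫ x, ‖A x - B x‖ ∂ρ = (eLpNorm (fun x => A x - B x) 1 ρ).toReal := by
  rw [eLpNorm_one_eq_lintegral_enorm,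
    integral_eq_lintegral_of_nonneg_ae (Filter.Eventually.of_forall fun x => norm_nonneg _)
    (show AEStronglyMeasurable (fun x => ‖A x - B x‖) ρ from
      (hA.sub hB).norm.aestronglyMeasurable)]
  congr 1
  refine lintegral_congr fun x => ?_
  rw [ofReal_norm]

/-- Completeness of `L^1`, for uniformly bounded maps. -/
theorem l1_limit {ρ : Measure (E d)} [IsProbabilityMeasure ρ] {S : ℕ → E d → E d} {R : ℝ}
    (hSm : ∀ n, Measurable (S n)) (hSR : ∀ n, ∀ᵐ x ∂ρ, ‖S n x‖ ≤ R)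
    (hC : ∀ η : ℝ, 0 < η → ∃ N, ∀ n ≥ N, ∀ k ≥ N, ∫ x, ‖S n x - S k x‖ ∂ρ < η) :
    ∃ S' : E d → E d, Measurable S' ∧ (∀ᵐ x ∂ρ, ‖S' x‖ ≤ R) ∧
      Tendsto (fun n => ∫ x, ‖S n x - S' x‖ ∂ρ) atTop (𝓝 0) ∧
      ∃ ns : ℕ → ℕ, StrictMono ns ∧ ∀ᵐ x ∂ρ, Tendsto (fun i => S (ns i) x) atTop (𝓝 (S' x)) := by
  have hSmem : ∀ n, MemLp (S n) 1 ρ := fun n =>
    MemLp.of_bound (hSm n).aestronglyMeasurable R (hSR n)
  set s : ℕ → Lp (E d) 1 ρ := fun n => (hSmem n).toLp (S n) with hs
  have hdist : ∀ n k, dist (s n) (s k) = ∫ x, ‖S n x - S k x‖ ∂ρ := by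
    intro n k
    rw [dist_eq_norm, hs]
    simp only
    rw [← MemLp.toLp_sub, Lp.norm_toLp, integral_norm_sub_eq (hSm n) (hSm k)]
    rfl
  have hcs : CauchySeq s := by
    rw [Metric.cauchySeq_iff]
    intro η hη
    obtain ⟨N, hN⟩ := hC η hη
    refine ⟨N, fun n hn k hk => ?_⟩
    rw [hdist]
    exact hN n hn k hk
  obtain ⟨Sl, hSl⟩ := cauchySeq_tendsto_of_complete hcs
  have hS'm : Measurable (Sl : E d → E d) := (Lp.stronglyMeasurable Sl).measurable
  have hconv : Tendsto (fun n => ∫ x, ‖S n x - Sl x‖ ∂ρ) atTop (𝓝 0) := by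
    have h1 : Tendsto (fun n => dist (s n) Sl) atTop (𝓝 0) := tendsto_iff_dist_tendsto_zero.1 hSl
    refine h1.congr fun n => ?_
    rw [dist_eq_norm, Lp.norm_def, integral_norm_sub_eq (hSm n) hS'm]
    congr 1
    refine eLpNorm_congr_ae ?_
    filter_upwards [Lp.coeFn_sub (s n) Sl, (hSmem n).coeFn_toLp] with x hx1 hx2
    rw [hx1, Pi.sub_apply, hx2]
  have hmeas : TendstoInMeasure ρ (fun n => S n) atTop (Sl : E d → E d) := by
    refine tendstoInMeasure_of_tendsto_eLpNorm (p := 1) one_ne_zero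
      (fun n => (hSm n).aestronglyMeasurable) hS'm.aestronglyMeasurable ?_
    have hfin : ∀ n, eLpNorm (S n - (Sl : E d → E d)) 1 ρ ≠ ∞ :=
      fun n => ((hSmem n).sub (Lp.memLp Sl)).eLpNorm_ne_top
    rw [← ENNReal.tendsto_toReal_iff hfin ENNReal.zero_ne_top]
    refine (hconv.congr fun n => ?_)
    rw [integral_norm_sub_eq (hSm n) hS'm]
    rfl
  obtain ⟨ns, hns, hae⟩ := hmeas.exists_seq_tendsto_ae
  refine ⟨Sl, hS'm, ?_, hconv, ns, hns, hae⟩
  have hall : ∀ᵐ x ∂ρ, ∀ n, ‖S n x‖ ≤ R := ae_all_iff.2 hSR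
  filter_upwards [hall, hae] with x hx1 hx2
  exact le_of_tendsto hx2.norm (Filter.Eventually.of_forall fun i => hx1 _)

/-- Two maps whose bounded continuous statistics agree have the same law. -/
theorem law_eq {ρ : Measure (E d)} [IsProbabilityMeasure ρ] {S T : E d → E d} (hS : Measurable S)
    (hT : Measurable T)
    (h : ∀ g : E d → ℝ, Continuous g → (∃ B, ∀ x, |g x| ≤ B) →
      ∫ x, g (S x) ∂ρ = ∫ x, g (T x) ∂ρ) : ρ.map S = ρ.map T := by
  have i1 : IsFiniteMeasure (ρ.map S) := inferInstance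
  have i2 : IsFiniteMeasure (ρ.map T) := inferInstance
  refine ext_of_forall_integral_eq_of_IsFiniteMeasure fun f => ?_
  rw [integral_map hS.aemeasurable f.continuous.aestronglyMeasurable,
    integral_map hT.aemeasurable f.continuous.aestronglyMeasurable]
  exact h f f.continuous ⟨‖f‖, fun x => f.norm_coe_le_norm x⟩

/-- Every optimal map is an `L^1` limit of semi-discrete optimal maps. -/
theorem approx_optimal (hK : IsCompact K) (hKc : Convex ℝ K) (hKi : (interior K).Nonempty)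
    {μ : Measure (E d)} {T : E d → E d} (hT : IsOptimalMap K μ T) {R : ℝ} (hR0 : 0 ≤ R)
    (hTR : ∀ᵐ x ∂unif K, ‖T x‖ ≤ R) {ε : ℝ} (hε : 0 < ε) :
    ∃ (ι : Type) (_ : Fintype ι) (_ : Nonempty ι) (z : ι → E d) (ψ : ι → ℝ),
      Function.Injective z ∧ (∀ i, ‖z i‖ ≤ R) ∧
      ∫ x, ‖T x - smap K z ψ x‖ ∂unif K ≤ ε := by
  have := unif_prob hK hKi
  obtain ⟨D, hD0, hD⟩ := exists_bound hK
  have hKn : K.Nonempty := hKi.mono interior_subset
  obtain ⟨hTm, hlaw, hopt⟩ := hT
  obtain ⟨F, hFR, hFt, hF1⟩ := exists_simple_approx hK hKi hTm hR0 hTR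
  -- the semi-discrete maps
  have hex : ∀ n, ∃ (ι : Type) (_ : Fintype ι) (_ : Nonempty ι) (z : ι → E d) (ψ : ι → ℝ),
      Function.Injective z ∧ (∀ i, ‖z i‖ ≤ R) ∧
      ∀ g : E d → ℝ, Continuous g →
        ∫ x, g (F n x) ∂unif K = ∫ x, g (smap K z ψ x) ∂unif K := by
    intro n
    obtain ⟨ι, i1, i2, z, m, hz, hm, hsum, hzR, hg⟩ := simple_family (ρ := unif K) (F n) (hFR n)
    obtain ⟨ψ, hψ⟩ := exists_psi hK hKi hz hm hsum
    refine ⟨ι, i1, i2, z, ψ, hz, hzR, fun g hgc => ?_⟩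
    rw [hg, integral_comp_smap hK hKi hz ψ hgc]
    simp only [hψ]
  choose ι i1 i2 z ψ hz hzR hFS using hex
  set S : ℕ → E d → E d := fun n => smap K (z n) (ψ n) with hSdef
  have hSm : ∀ n, Measurable (S n) := fun n => measurable_smap hK (z n) (ψ n)
  have hSR : ∀ n, ∀ᵐ x ∂unif K, ‖S n x‖ ≤ R := fun n => ae_norm_smap hK (hz n) (ψ n) (hzR n)
  have hFR' : ∀ n, ∀ᵐ x ∂unif K, ‖F n x‖ ≤ R := fun n => Filter.Eventually.of_forall (hFR n)
  set a : ℕ → ℝ := fun n => ∫ x, ‖F n x - T x‖ ∂unif K with ha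
  have ha0 : ∀ n, 0 ≤ a n := fun n => integral_nonneg fun x => norm_nonneg _
  -- closeness of laws
  have hclose : ∀ n k, ∀ h : E d → ℝ, (∀ a b, |h a - h b| ≤ ‖a - b‖) →
      |(∫ x, h (S n x) ∂unif K) - ∫ x, h (S k x) ∂unif K| ≤ a n + a k := by
    intro n k h hh
    have hh' : ∀ a b, |h a - h b| ≤ 1 * ‖a - b‖ := fun a b => by rw [one_mul]; exact hh a b
    have hc := continuous_of_lip hh'
    rw [← hFS n h hc, ← hFS k h hc]
    have j1 := integrable_lip_comp hK hKi (F n).measurable (hFR' n) zero_le_one hh'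
    have j2 := integrable_lip_comp hK hKi (F k).measurable (hFR' k) zero_le_one hh'
    rw [← integral_sub j1 j2]
    refine (abs_integral_le_integral_abs).trans ?_
    have t1 := integrable_norm_sub (F n).measurable hTm (hFR' n) hTR
    have t2 := integrable_norm_sub (F k).measurable hTm (hFR' k) hTR
    rw [ha]
    simp only
    rw [← integral_add t1 t2]
    refine integral_mono (j1.sub j2).abs (t1.add t2) fun x => ?_
    refine (hh _ _).trans ?_
    have := norm_sub_le_norm_sub_add_norm_sub (F n x) (T x) (F k x)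
    rwa [norm_sub_rev (T x)] at this
  -- Cauchy
  obtain ⟨C, hC0, hC⟩ := semi_stab hK hKc hKi hR0
  have hcauchy : ∀ n k, ∀ δ : ℝ, 0 < δ → a n + a k ≤ δ →
      ∫ x, ‖S k x - S n x‖ ∂unif K ≤ C * √δ := by
    intro n k δ hδ hle
    exact hC (ι n) (ι k) (z n) (ψ n) (z k) (ψ k) (hz n) (hz k) (hzR n) (hzR k) δ hδ
      (fun h hh => (hclose n k h hh).trans hle)
  -- Cauchy in L1
  have hcs : ∀ η : ℝ, 0 < η → ∃ N, ∀ n ≥ N, ∀ k ≥ N, ∫ x, ‖S n x - S k x‖ ∂unif K < η := by
    intro η hη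
    set δ := (η / (2 * C)) ^ 2 with hδ
    have hδ0 : 0 < δ := by positivity
    have hsq : C * √δ < η := by
      rw [hδ, Real.sqrt_sq (by positivity)]
      have : C * (η / (2 * C)) = η / 2 := by field_simp
      rw [this]
      linarith
    have hev : ∀ᶠ n in atTop, a n < δ / 2 :=
      hF1.eventually (gt_mem_nhds (by positivity))
    obtain ⟨N, hN⟩ := Filter.eventually_atTop.1 hev
    refine ⟨N, fun n hn k hk => ?_⟩
    refine lt_of_le_of_lt (hcauchy k n δ hδ0 ?_) hsq
    have h1 := hN n hn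
    have h2 := hN k hk
    linarith
  obtain ⟨S', hS'm, hS'R, hconv, ns, hns, hae⟩ := l1_limit hSm hSR hcs
  -- the law of the limit
  have hlaw' : (unif K).map S' = (unif K).map T := by
    refine law_eq hS'm hTm fun g hg ⟨B, hB⟩ => ?_
    have t1 : Tendsto (fun i => ∫ x, g (S (ns i) x) ∂unif K) atTop (𝓝 (∫ x, g (S' x) ∂unif K)) := by
      refine tendsto_integral_of_dominated_convergence (fun _ => B) ?_ (integrable_const _) ?_ ?_
      · intro n
        exact (hg.measurable.comp (hSm _)).aestronglyMeasurable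
      · intro n
        exact Filter.Eventually.of_forall fun x => hB _
      · filter_upwards [hae] with x hx
        exact (hg.tendsto _).comp hx
    have t2 : Tendsto (fun i => ∫ x, g (F (ns i) x) ∂unif K) atTop (𝓝 (∫ x, g (T x) ∂unif K)) := by
      refine tendsto_integral_of_dominated_convergence (fun _ => B) ?_ (integrable_const _) ?_ ?_
      · intro n
        exact (hg.measurable.comp (F _).measurable).aestronglyMeasurable
      · intro n
        exact Filter.Eventually.of_forall fun x => hB _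
      · filter_upwards [hFt] with x hx
        exact ((hg.tendsto _).comp hx).comp hns.tendsto_atTop
    refine tendsto_nhds_unique t1 (t2.congr fun i => ?_)
    exact hFS (ns i) g hg
  -- optimality
  have hcorr : ∫ x, inner ℝ x (S' x) ∂unif K ≤ ∫ x, inner ℝ x (T x) ∂unif K :=
    (opt_iff hK hKi hTm hS'm hlaw' hTR).1 (hopt S' hS'm (hlaw'.trans hlaw))
  have hinner : ∀ {A B : E d → E d}, Measurable A → Measurable B → (∀ᵐ x ∂unif K, ‖A x‖ ≤ R) →
      (∀ᵐ x ∂unif K, ‖B x‖ ≤ R) → |(∫ x, inner ℝ x (A x) ∂unif K) - ∫ x, inner ℝ x (B x) ∂unif K|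
        ≤ D * ∫ x, ‖A x - B x‖ ∂unif K := by
    intro A B hA hB hAR hBR
    rw [← integral_sub (integrable_inner hK hKi hA hAR) (integrable_inner hK hKi hB hBR),
      ← integral_const_mul]
    refine abs_integral_le_integral_abs.trans ?_
    refine integral_mono_ae ((integrable_inner hK hKi hA hAR).sub
      (integrable_inner hK hKi hB hBR)).abs ((integrable_norm_sub hA hB hAR hBR).const_mul D) ?_
    filter_upwards [ae_mem hK] with x hx
    rw [← inner_sub_right]
    exact (abs_real_inner_le_norm _ _).trans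
      (mul_le_mul_of_nonneg_right (hD x hx) (norm_nonneg _))
  set b : ℕ → ℝ := fun n => ∫ x, ‖S n x - S' x‖ ∂unif K with hb
  have hb0 : ∀ n, 0 ≤ b n := fun n => integral_nonneg fun x => norm_nonneg _
  have hgap : ∀ n, ∫ x, (pot (z n) (ψ n) x + conj K (pot (z n) (ψ n)) (F n x)
      - inner ℝ x (F n x)) ∂unif K ≤ D * (a n + b n) := by
    intro n
    rw [gap_integral hK hKi (hz n) (ψ n) (F n).measurable (hFR' n)]
    rw [hFS n _ (continuous_of_lip (conj_lip hK hKn hD (continuous_pot (z n) (ψ n))))]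
    rw [sub_self, zero_add]
    have h1 := hinner (hSm n) hS'm (hSR n) hS'R
    have h2 := hinner (F n).measurable hTm (hFR' n) hTR
    have h3 := (abs_le.1 h1).2
    have h4 := (abs_le.1 h2).1
    have h5 : D * (a n + b n) = D * a n + D * b n := by ring
    rw [h5]
    simp only [ha, hb, hSdef] at h1 h2 h3 h4 ⊢
    linarith
  obtain ⟨C', hC'0, hC'⟩ := l1_sqrt hK hKc hKi hR0
  have hfin : ∀ n, ∀ Γ : ℝ, 0 < Γ → D * (a n + b n) ≤ Γ →
      ∫ x, ‖T x - S n x‖ ∂unif K ≤ a n + C' * √Γ := by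
    intro n Γ hΓ hle
    have h1 := hC' (pot (z n) (ψ n)) (conj K (pot (z n) (ψ n))) (F n) (S n)
      (pot_lip (hzR n) (ψ n)) (F n).measurable (hSm n) (hFR' n) (hSR n)
      ((smap_sub hK (hz n) (ψ n)).mono fun x hx y _ => hx y)
      (Filter.Eventually.of_forall fun x y hy => le_conj hK (continuous_pot (z n) (ψ n)) hy)
      (integrable_lip_comp hK hKi (F n).measurable (hFR' n) hD0.le
        (conj_lip hK hKn hD (continuous_pot (z n) (ψ n)))) Γ hΓ ((hgap n).trans hle)
    have h2 := integral_norm_sub_triangle (ρ := unif K) (A := T) (B := F n) (C := S n)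
      (integrable_norm_sub hTm (F n).measurable hTR (hFR' n))
      (integrable_norm_sub (F n).measurable (hSm n) (hFR' n) (hSR n))
      (integrable_norm_sub hTm (hSm n) hTR (hSR n))
    have h3 : ∫ x, ‖T x - F n x‖ ∂unif K = a n := by
      simp only [ha]
      exact integral_congr_ae (Filter.Eventually.of_forall fun x => norm_sub_rev _ _)
    rw [h3] at h2
    linarith
  -- conclusion
  set Γ := (ε / (2 * C')) ^ 2 with hΓ
  have hΓ0 : 0 < Γ := by positivity
  have hsq : C' * √Γ = ε / 2 := by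
    rw [hΓ, Real.sqrt_sq (by positivity)]
    field_simp
  have hlim : Tendsto (fun n => D * (a n + b n)) atTop (𝓝 (D * (0 + 0))) :=
    (hF1.add hconv).const_mul D
  rw [add_zero, mul_zero] at hlim
  obtain ⟨n, hn1, hn2⟩ := ((hlim.eventually (gt_mem_nhds hΓ0)).and
    (hF1.eventually (gt_mem_nhds (show (0 : ℝ) < ε / 2 by positivity)))).exists
  refine ⟨ι n, i1 n, i2 n, z n, ψ n, hz n, hzR n, ?_⟩
  have h1 := hfin n Γ hΓ0 hn1.le
  rw [hsq] at h1
  have h2 : a n < ε / 2 := hn2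
  have h3 : ∫ x, ‖T x - smap K (z n) (ψ n) x‖ ∂unif K = ∫ x, ‖T x - S n x‖ ∂unif K := rfl
  rw [h3]
  linarith

end Vale.Agent.P074
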