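import Vale.Agent.Lib.P074.Defs

open MeasureTheory Set Filter Topology
open scoped ENNReal NNReal

namespace Vale.Agent.P074

variable {d : ℕ}

theorem volume_hyperplane {v : E d} (hv : v ≠ 0) (c : ℝ) :
    volume {x : E d | inner ℝ v x = c} = 0 := by
  by_cases h : ∃ p : E d, inner ℝ v p = c
  · obtain ⟨p, hp⟩ := h
    have h1 : {x : E d | inner ℝ v x = c} =
        (fun x => x - p) ⁻¹' ((LinearMap.ker (innerSL ℝ v).toLinearMap : Submodule ℝ (E d)) : Set (E d)) := by
      ext x
      simp only [mem_ofPred_eq, mem_preimage, SetLike.mem_coe, LinearMap.mem_ker]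
      constructor
      · intro h
        show inner ℝ v (x - p) = 0
        rw [inner_sub_right, h, hp, sub_self]
      · intro h
        have h' : inner ℝ v (x - p) = 0 := h
        rw [inner_sub_right, hp] at h'
        linarith
    have h2 : volume ((LinearMap.ker (innerSL ℝ v).toLinearMap : Submodule ℝ (E d)) : Set (E d)) = 0 := by
      apply Measure.addHaar_submodule
      intro htop
      have : v ∈ LinearMap.ker (innerSL ℝ v).toLinearMap := by rw [htop]; trivial
      have h3 : inner ℝ v v = 0 := by simpa using this
      exact hv (inner_self_eq_zero.mp h3)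
    rw [h1, (measurePreserving_sub_right volume p).measure_preimage
      (MeasurableSet.nullMeasurableSet (Submodule.closed_of_finiteDimensional _).measurableSet)]
    exact h2
  · push Not at h
    have : {x : E d | inner ℝ v x = c} = ∅ := by
      ext x
      simp [h x]
    rw [this]
    exact measure_empty

theorem volume_pos_of_interior {K : Set (E d)} (hKi : (interior K).Nonempty) : volume K ≠ 0 := by
  have h1 : 0 < volume (interior K) := isOpen_interior.measure_pos volume hKi
  exact (lt_of_lt_of_le h1 (measure_mono interior_subset)).ne'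

theorem unif_prob {K : Set (E d)} (hK : IsCompact K) (hKi : (interior K).Nonempty) :
    IsProbabilityMeasure (unif K) := by
  constructor
  unfold unif
  rw [Measure.smul_apply, Measure.restrict_apply_univ, smul_eq_mul]
  exact ENNReal.inv_mul_cancel (volume_pos_of_interior hKi) hK.measure_lt_top.ne

theorem unif_ac {K : Set (E d)} : unif K ≪ volume := by
  unfold unif
  exact (Measure.smul_absolutelyContinuous).trans Measure.restrict_le_self.absolutelyContinuous

theorem ae_mem {K : Set (E d)} (hK : IsCompact K) : ∀ᵐ x ∂unif K, x ∈ K := by
  unfold unif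
  exact Measure.ae_smul_measure (ae_restrict_mem hK.measurableSet) _

theorem unif_compl {K : Set (E d)} (hK : IsCompact K) : unif K Kᶜ = 0 := by
  have := ae_mem hK
  rwa [ae_iff] at this

theorem unif_apply {K A : Set (E d)} (hA : MeasurableSet A) (hAK : A ⊆ K) :
    unif K A = (volume K)⁻¹ * volume A := by
  unfold unif
  rw [Measure.smul_apply, Measure.restrict_apply hA, inter_eq_self_of_subset_left hAK, smul_eq_mul]

theorem unif_hyperplane {K : Set (E d)} {v : E d} (hv : v ≠ 0) (c : ℝ) :
    unif K {x : E d | inner ℝ v x = c} = 0 :=
  unif_ac (volume_hyperplane hv c)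

end Vale.Agent.P074
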