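import Vale.Agent.Lib.P074.Statement

open MeasureTheory Set
open scoped ENNReal NNReal

namespace Vale.Agent.P074

/-- The power cell (Laguerre cell) in `K` of the site `z i` with heights `ψ`. -/
def cell {d : ℕ} {ι : Type*} (K : Set (E d)) (z : ι → E d) (ψ : ι → ℝ) (i : ι) : Set (E d) :=
  {x | x ∈ K ∧ ∀ j, inner ℝ (z j) x - ψ j ≤ inner ℝ (z i) x - ψ i}

/-- The maximum of the affine functions `x ↦ inner (z i) x - ψ i`. -/
noncomputable def pot {d : ℕ} {ι : Type*} [Fintype ι] [Nonempty ι] (z : ι → E d) (ψ : ι → ℝ)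
    (x : E d) : ℝ :=
  Finset.univ.sup' Finset.univ_nonempty (fun i => inner ℝ (z i) x - ψ i)

end Vale.Agent.P074
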