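import Vale.Agent.Lib.P074.Statement

/-!
# Discretization of couplings
-/

open MeasureTheory Set Filter Topology
open scoped ENNReal NNReal

namespace Vale.Agent.P074

theorem exists_perturb {d : ℕ} (hd : 0 < d) {n : ℕ} (x : Fin n → E d) {δ : ℝ} (hδ : 0 < δ) :
    ∃ y : Fin n → E d, Function.Injective y ∧ ∀ i, ‖y i - x i‖ ≤ δ := by
  obtain ⟨u, hu⟩ : ∃ u : E d, ‖u‖ = 1 := ⟨EuclideanSpace.single ⟨0, hd⟩ (1 : ℝ), by simp⟩
  have hu0 : u ≠ 0 := by
    rintro rfl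
    simp at hu
  have hbad : {t : ℝ | ∃ i j : Fin n, i ≠ j ∧
      x i + (t * (i : ℕ)) • u = x j + (t * (j : ℕ)) • u}.Finite := by
    have : {t : ℝ | ∃ i j : Fin n, i ≠ j ∧
        x i + (t * (i : ℕ)) • u = x j + (t * (j : ℕ)) • u} ⊆
        ⋃ i : Fin n, ⋃ j : Fin n, {t : ℝ | i ≠ j ∧
          x i + (t * (i : ℕ)) • u = x j + (t * (j : ℕ)) • u} := by
      rintro t ⟨i, j, h⟩
      exact mem_iUnion.2 ⟨i, mem_iUnion.2 ⟨j, h⟩⟩
    refine Set.Finite.subset (Set.finite_iUnion fun i => Set.finite_iUnion fun j => ?_) this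
    apply Set.Subsingleton.finite
    rintro t ⟨hij, h1⟩ t' ⟨_, h2⟩
    have h3 : ((t - t') * ((i : ℕ) - (j : ℕ) : ℝ)) • u = 0 := by
      have e1 : (t * (i : ℕ)) • u - (t * (j : ℕ)) • u = x j - x i := by
        rw [sub_eq_sub_iff_add_eq_add, add_comm, h1, add_comm]
      have e2 : (t' * (i : ℕ)) • u - (t' * (j : ℕ)) • u = x j - x i := by
        rw [sub_eq_sub_iff_add_eq_add, add_comm, h2, add_comm]
      rw [← sub_smul] at e1 e2
      have : (t - t') * ((i : ℕ) - (j : ℕ) : ℝ) =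
        (t * (i : ℕ) - t * (j : ℕ)) - (t' * (i : ℕ) - t' * (j : ℕ)) := by ring
      rw [this, sub_smul, e1, e2, sub_self]
    rcases smul_eq_zero.1 h3 with h4 | h4
    · rcases mul_eq_zero.1 h4 with h5 | h5
      · linarith
      · exfalso
        apply hij
        have : ((i : ℕ) : ℝ) = (j : ℕ) := by linarith
        exact Fin.ext (by exact_mod_cast this)
    · exact absurd h4 hu0
  have hpos : 0 < δ / (n + 1) := by positivity
  obtain ⟨t, ht, htb⟩ := ((Set.Ioo_infinite hpos).sdiff hbad).nonempty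
  refine ⟨fun i => x i + (t * (i : ℕ)) • u, ?_, ?_⟩
  · intro i j hij
    by_contra hne
    exact htb ⟨i, j, hne, hij⟩
  · intro i
    have h1 : t * (n + 1) < δ := by
      have := ht.2
      rwa [lt_div_iff₀ (by positivity)] at this
    have h2 : ((i : ℕ) : ℝ) ≤ n + 1 := by
      have : (i : ℕ) ≤ n + 1 := by omega
      exact_mod_cast this
    have h0 : 0 ≤ t * ((i : ℕ) : ℝ) := mul_nonneg ht.1.le (Nat.cast_nonneg _)
    rw [add_sub_cancel_left, norm_smul, hu, mul_one, Real.norm_eq_abs, abs_of_nonneg h0]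
    nlinarith [ht.1]

theorem exists_net {d : ℕ} {Y : Set (E d)} (hY : IsCompact Y) (hne : Y.Nonempty) {δ : ℝ}
    (hδ : 0 < δ) : ∃ (N : ℕ) (e : ℕ → E d) (f : E d → ℕ), Measurable f ∧ (∀ a, f a ≤ N) ∧
      (∀ k, e k ∈ Y) ∧ ∀ a ∈ Y, ‖a - e (f a)‖ ≤ δ := by
  obtain ⟨t, htY, htf, hcov⟩ := hY.finite_cover_balls hδ
  have htne : t.Nonempty := by
    obtain ⟨a, ha⟩ := hne
    obtain ⟨x, hx, _⟩ := mem_iUnion₂.1 (hcov ha)
    exact ⟨x, hx⟩
  obtain ⟨e, he⟩ := htf.countable.exists_eq_range htne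
  have hk : ∀ x ∈ t, ∃ k, e k = x := by
    intro x hx
    rw [he] at hx
    exact hx
  choose! κ hκ using hk
  obtain ⟨N, hN⟩ : ∃ N, ∀ x ∈ t, κ x ≤ N := by
    obtain ⟨N, hN⟩ := (htf.image κ).bddAbove
    exact ⟨N, fun x hx => hN (mem_image_of_mem _ hx)⟩
  refine ⟨N, e, SimpleFunc.nearestPtInd e N, SimpleFunc.measurable _,
    fun a => SimpleFunc.nearestPtInd_le e N a, ?_, ?_⟩
  · intro k
    apply htY
    rw [he]
    exact mem_range_self k
  · intro a ha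
    obtain ⟨x, hx, hax⟩ := mem_iUnion₂.1 (hcov ha)
    have h1 := SimpleFunc.edist_nearestPt_le e a (hN x hx)
    rw [hκ x hx] at h1
    have h2 : dist (SimpleFunc.nearestPt e N a) a ≤ dist x a := by
      rw [edist_dist, edist_dist] at h1
      exact (ENNReal.ofReal_le_ofReal_iff dist_nonneg).1 h1
    rw [← dist_eq_norm, dist_comm]
    rw [Metric.mem_ball, dist_comm] at hax
    exact h2.trans hax.le

/-- A random index: the main step of the discretization. -/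
theorem exists_index {d : ℕ} (hd : 0 < d) {Y : Set (E d)} (hY : IsCompact Y)
    {π : Measure (E d × E d)} [IsProbabilityMeasure π] (h1 : ∀ᵐ z ∂π, z.1 ∈ Y)
    (h2 : ∀ᵐ z ∂π, z.2 ∈ Y) {δ : ℝ} (hδ : 0 < δ) :
    ∃ (n : ℕ) (y y' : Fin (n + 1) → E d) (Ψ : E d × E d → Fin (n + 1)), Measurable Ψ ∧
      Function.Injective y ∧ Function.Injective y' ∧ (∀ i, 0 < π.real (Ψ ⁻¹' {i})) ∧
      ∀ᵐ z ∂π, ‖z.1 - y (Ψ z)‖ ≤ δ ∧ ‖z.2 - y' (Ψ z)‖ ≤ δ := by
  have hne : Y.Nonempty := by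
    obtain ⟨z, hz⟩ := h1.exists
    exact ⟨z.1, hz⟩
  obtain ⟨N, e, f, hfm, hfN, heY, hf⟩ := exists_net hY hne (half_pos hδ)
  obtain ⟨g, hg⟩ : ∃ g : E d × E d → ℕ × ℕ, g = fun z => (f z.1, f z.2) := ⟨_, rfl⟩
  have hgm : Measurable g := by
    rw [hg]
    exact (hfm.comp measurable_fst).prodMk (hfm.comp measurable_snd)
  obtain ⟨T, hT⟩ : ∃ T : Finset (ℕ × ℕ), T = Finset.range (N + 1) ×ˢ Finset.range (N + 1) :=
    ⟨_, rfl⟩
  have hgT : ∀ z, g z ∈ T := by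
    intro z
    rw [hg, hT, Finset.mem_product, Finset.mem_range, Finset.mem_range]
    exact ⟨Nat.lt_succ_of_le (hfN _), Nat.lt_succ_of_le (hfN _)⟩
  classical
  obtain ⟨J, hJ⟩ : ∃ J : Finset (ℕ × ℕ), J = T.filter fun p => 0 < π.real (g ⁻¹' {p}) := ⟨_, rfl⟩
  have hJpos : ∀ p ∈ J, 0 < π.real (g ⁻¹' {p}) := by
    intro p hp
    rw [hJ, Finset.mem_filter] at hp
    exact hp.2
  have hJae : ∀ᵐ z ∂π, g z ∈ J := by
    have : ∀ p ∈ T, ∀ᵐ z ∂π, g z = p → p ∈ J := by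
      intro p hp
      by_cases hpJ : p ∈ J
      · exact Eventually.of_forall fun z _ => hpJ
      · have h3 : π.real (g ⁻¹' {p}) = 0 := by
          rw [hJ, Finset.mem_filter, not_and, not_lt] at hpJ
          exact le_antisymm (hpJ hp) measureReal_nonneg
        have h4 : π (g ⁻¹' {p}) = 0 := by
          rwa [measureReal_eq_zero_iff] at h3
        have h5 : ∀ᵐ z ∂π, z ∉ g ⁻¹' {p} := measure_eq_zero_iff_ae_notMem.1 h4
        filter_upwards [h5] with z hz hgz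
        exact absurd hgz hz
    have h6 : ∀ᵐ z ∂π, ∀ p ∈ T, g z = p → p ∈ J := by
      rw [Finset.eventually_all]
      exact this
    filter_upwards [h6] with z hz
    exact hz (g z) (hgT z) rfl
  have hJne : J.Nonempty := by
    obtain ⟨z, hz⟩ := hJae.exists
    exact ⟨g z, hz⟩
  obtain ⟨n, hn⟩ : ∃ n, J.card = n + 1 := ⟨J.card - 1, by
    have := hJne.card_pos
    omega⟩
  obtain ⟨φ⟩ : Nonempty (J ≃ Fin (n + 1)) := ⟨J.equivFinOfCardEq hn⟩
  obtain ⟨y, hyinj, hy⟩ := exists_perturb hd (fun i : Fin (n + 1) => e (φ.symm i).1.1)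
    (half_pos hδ)
  obtain ⟨y', hyinj', hy'⟩ := exists_perturb hd (fun i : Fin (n + 1) => e (φ.symm i).1.2)
    (half_pos hδ)
  obtain ⟨Φ, hΦ⟩ : ∃ Φ : ℕ × ℕ → Fin (n + 1), Φ = fun p => if h : p ∈ J then φ ⟨p, h⟩ else 0 :=
    ⟨_, rfl⟩
  have hΦJ : ∀ p (h : p ∈ J), Φ p = φ ⟨p, h⟩ := by
    intro p h
    rw [hΦ]
    simp only [h, dif_pos]
  refine ⟨n, y, y', Φ ∘ g, (Measurable.of_discrete (f := Φ)).comp hgm, hyinj, hyinj', ?_, ?_⟩
  · intro i
    have h3 : 0 < π.real (g ⁻¹' {(φ.symm i).1}) := hJpos _ (φ.symm i).2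
    refine h3.trans_le (measureReal_mono ?_ (measure_ne_top _ _))
    intro z hz
    have hz' : g z = (φ.symm i).1 := hz
    show Φ (g z) = i
    rw [hz', hΦJ _ (φ.symm i).2]
    simp
  · filter_upwards [h1, h2, hJae] with z hz1 hz2 hzJ
    have h3 : φ.symm ((Φ ∘ g) z) = ⟨g z, hzJ⟩ := by
      show φ.symm (Φ (g z)) = _
      rw [hΦJ _ hzJ]
      simp
    have h4 := hy ((Φ ∘ g) z)
    have h5 := hy' ((Φ ∘ g) z)
    rw [h3] at h4 h5
    have h6 := hf z.1 hz1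
    have h7 := hf z.2 hz2
    have h8 : (g z).1 = f z.1 := by rw [hg]
    have h9 : (g z).2 = f z.2 := by rw [hg]
    simp only [h8] at h4
    simp only [h9] at h5
    constructor
    · calc ‖z.1 - y ((Φ ∘ g) z)‖ = ‖(z.1 - e (f z.1)) - (y ((Φ ∘ g) z) - e (f z.1))‖ := by
            congr 1; abel
        _ ≤ ‖z.1 - e (f z.1)‖ + ‖y ((Φ ∘ g) z) - e (f z.1)‖ := norm_sub_le _ _
        _ ≤ δ / 2 + δ / 2 := add_le_add h6 h4
        _ = δ := by ring
    · calc ‖z.2 - y' ((Φ ∘ g) z)‖ = ‖(z.2 - e (f z.2)) - (y' ((Φ ∘ g) z) - e (f z.2))‖ := by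
            congr 1; abel
        _ ≤ ‖z.2 - e (f z.2)‖ + ‖y' ((Φ ∘ g) z) - e (f z.2)‖ := norm_sub_le _ _
        _ ≤ δ / 2 + δ / 2 := add_le_add h7 h5
        _ = δ := by ring

theorem sum_eq_integral {d : ℕ} {π : Measure (E d × E d)} [IsProbabilityMeasure π] {n : ℕ}
    {Ψ : E d × E d → Fin (n + 1)} (hΨ : Measurable Ψ) (F : Fin (n + 1) → ℝ) :
    ∑ i, π.real (Ψ ⁻¹' {i}) * F i = ∫ z, F (Ψ z) ∂π := by
  have hp : IsProbabilityMeasure (π.map Ψ) := Measure.isProbabilityMeasure_map hΨ.aemeasurable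
  rw [← integral_map (f := F) hΨ.aemeasurable
    (Measurable.of_discrete (f := F)).aestronglyMeasurable,
    integral_fintype (Integrable.of_finite)]
  apply Finset.sum_congr rfl
  intro i _
  rw [map_measureReal_apply hΨ (measurableSet_singleton i), smul_eq_mul]

theorem exists_discretization {d : ℕ} (hd : 0 < d) {Y : Set (E d)} (hY : IsCompact Y) {R : ℝ}
    (hYR : ∀ y ∈ Y, ‖y‖ ≤ R) {μ ν : Measure (E d)} (hμ : IsProbOn Y μ) (hν : IsProbOn Y ν)
    {π : Measure (E d × E d)} (hπ : IsCoupling μ ν π) {ε : ℝ} (hε : 0 < ε) :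
    ∃ (n : ℕ) (y y' : Fin (n + 1) → E d) (m : Fin (n + 1) → ℝ),
      Function.Injective y ∧ Function.Injective y' ∧ (∀ i, 0 < m i) ∧ ∑ i, m i = 1 ∧
      (∀ i, ‖y i‖ ≤ R + 1) ∧ (∀ i, ‖y' i‖ ≤ R + 1) ∧
      (∀ h : E d → ℝ, (∀ a b, |h a - h b| ≤ ‖a - b‖) → |∫ x, h x ∂μ - ∑ i, m i * h (y i)| ≤ ε) ∧
      (∀ h : E d → ℝ, (∀ a b, |h a - h b| ≤ ‖a - b‖) → |∫ x, h x ∂ν - ∑ i, m i * h (y' i)| ≤ ε) ∧
      ∑ i, m i * ‖y i - y' i‖ ^ 2 ≤ (∫ p, ‖p.1 - p.2‖ ^ 2 ∂π) + ε := by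
  have hμp : IsProbabilityMeasure μ := hμ.1
  have hνp : IsProbabilityMeasure ν := hν.1
  have hπp : IsProbabilityMeasure π := by
    constructor
    have h1 : μ univ = 1 := measure_univ
    rw [← hπ.1, Measure.map_apply measurable_fst MeasurableSet.univ] at h1
    simpa using h1
  have h1 : ∀ᵐ z ∂π, z.1 ∈ Y := by
    have h : ∀ᵐ a ∂μ, a ∈ Y := by
      rw [ae_iff]
      exact hμ.2
    rw [← hπ.1] at h
    exact ae_of_ae_map measurable_fst.aemeasurable h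
  have h2 : ∀ᵐ z ∂π, z.2 ∈ Y := by
    have h : ∀ᵐ a ∂ν, a ∈ Y := by
      rw [ae_iff]
      exact hν.2
    rw [← hπ.2] at h
    exact ae_of_ae_map measurable_snd.aemeasurable h
  have hR : 0 ≤ R := by
    obtain ⟨z, hz⟩ := h1.exists
    exact (norm_nonneg _).trans (hYR _ hz)
  obtain ⟨δ, hδ, hδε, hδ1, hδR⟩ : ∃ δ : ℝ, 0 < δ ∧ δ ≤ ε ∧ δ ≤ 1 ∧ δ * (8 * R + 4) ≤ ε := by
    refine ⟨min (min ε 1) (ε / (8 * R + 4)), by positivity, ?_, ?_, ?_⟩
    · exact (min_le_left _ _).trans (min_le_left _ _)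
    · exact (min_le_left _ _).trans (min_le_right _ _)
    · have : min (min ε 1) (ε / (8 * R + 4)) ≤ ε / (8 * R + 4) := min_le_right _ _
      rwa [le_div_iff₀ (by positivity)] at this
  obtain ⟨n, y, y', Ψ, hΨ, hy, hy', hm, hae⟩ := exists_index hd hY h1 h2 hδ
  have hYm : MeasurableSet Y := hY.measurableSet
  -- boundedness of functions on `Y`
  have hint : ∀ (h : E d → ℝ), Continuous h → ∀ (p : E d × E d → E d), Measurable p →
      (∀ᵐ z ∂π, p z ∈ Y) → Integrable (fun z => h (p z)) π := by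
    intro h hc p hp hpY
    obtain ⟨C, hC⟩ := hY.exists_bound_of_continuousOn hc.continuousOn
    apply Integrable.of_bound (hc.measurable.comp hp).aestronglyMeasurable C
    filter_upwards [hpY] with z hz
    exact hC _ hz
  have hcont : ∀ h : E d → ℝ, (∀ a b, |h a - h b| ≤ ‖a - b‖) → Continuous h := by
    intro h hh
    have : LipschitzWith 1 h := by
      apply LipschitzWith.of_dist_le_mul
      intro a b
      rw [Real.dist_eq, dist_eq_norm]
      simpa using hh a b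
    exact this.continuous
  have hfinint : ∀ F : Fin (n + 1) → ℝ, Integrable (fun z => F (Ψ z)) π := by
    intro F
    obtain ⟨C, hC⟩ : ∃ C, ∀ i, |F i| ≤ C := by
      obtain ⟨C, hC⟩ := (Set.finite_range fun i => |F i|).bddAbove
      exact ⟨C, fun i => hC (mem_range_self i)⟩
    apply Integrable.of_bound ((Measurable.of_discrete (f := F)).comp hΨ).aestronglyMeasurable C
    exact Eventually.of_forall fun z => hC _
  have hex : ∀ i, ∃ z ∈ Ψ ⁻¹' {i}, (z.1 ∈ Y ∧ z.2 ∈ Y) ∧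
      (‖z.1 - y (Ψ z)‖ ≤ δ ∧ ‖z.2 - y' (Ψ z)‖ ≤ δ) := by
    intro i
    have h3 : π (Ψ ⁻¹' {i}) ≠ 0 := by
      intro h0
      have := hm i
      rw [measureReal_def, h0] at this
      simp at this
    by_contra hcon
    push Not at hcon
    apply h3
    rw [measure_eq_zero_iff_ae_notMem]
    filter_upwards [h1, h2, hae] with z hz1 hz2 hz3 hz
    exact (hcon z hz ⟨hz1, hz2⟩ hz3.1).not_ge hz3.2
  refine ⟨n, y, y', fun i => π.real (Ψ ⁻¹' {i}), hy, hy', hm, ?_, ?_, ?_, ?_, ?_, ?_⟩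
  · have := sum_eq_integral (π := π) hΨ (fun _ => (1 : ℝ))
    simpa using this
  · intro i
    obtain ⟨z, hz, hz2, hz3⟩ := hex i
    rw [mem_preimage, mem_singleton_iff] at hz
    rw [hz] at hz3
    calc ‖y i‖ = ‖z.1 - (z.1 - y i)‖ := by congr 1; abel
      _ ≤ ‖z.1‖ + ‖z.1 - y i‖ := norm_sub_le _ _
      _ ≤ R + 1 := add_le_add (hYR _ hz2.1) (hz3.1.trans hδ1)
  · intro i
    obtain ⟨z, hz, hz2, hz3⟩ := hex i
    rw [mem_preimage, mem_singleton_iff] at hz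
    rw [hz] at hz3
    calc ‖y' i‖ = ‖z.2 - (z.2 - y' i)‖ := by congr 1; abel
      _ ≤ ‖z.2‖ + ‖z.2 - y' i‖ := norm_sub_le _ _
      _ ≤ R + 1 := add_le_add (hYR _ hz2.2) (hz3.2.trans hδ1)
  · intro h hh
    have e1 : ∫ x, h x ∂μ = ∫ z, h z.1 ∂π := by
      rw [← hπ.1, integral_map measurable_fst.aemeasurable
        (hcont h hh).measurable.aestronglyMeasurable]
    rw [e1, sum_eq_integral hΨ (fun i => h (y i)),
      ← integral_sub (hint h (hcont h hh) _ measurable_fst h1)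
        (hfinint fun i => h (y i))]
    have e2 : ∀ᵐ z ∂π, ‖h z.1 - h (y (Ψ z))‖ ≤ δ := by
      filter_upwards [hae] with z hz
      exact (hh _ _).trans hz.1
    have e3 := norm_integral_le_of_norm_le_const e2
    rw [Real.norm_eq_abs] at e3
    simp only [probReal_univ, mul_one] at e3
    exact e3.trans hδε
  · intro h hh
    have e1 : ∫ x, h x ∂ν = ∫ z, h z.2 ∂π := by
      rw [← hπ.2, integral_map measurable_snd.aemeasurable
        (hcont h hh).measurable.aestronglyMeasurable]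
    rw [e1, sum_eq_integral hΨ (fun i => h (y' i)),
      ← integral_sub (hint h (hcont h hh) _ measurable_snd h2)
        (hfinint fun i => h (y' i))]
    have e2 : ∀ᵐ z ∂π, ‖h z.2 - h (y' (Ψ z))‖ ≤ δ := by
      filter_upwards [hae] with z hz
      exact (hh _ _).trans hz.2
    have e3 := norm_integral_le_of_norm_le_const e2
    rw [Real.norm_eq_abs] at e3
    simp only [probReal_univ, mul_one] at e3
    exact e3.trans hδε
  · rw [sum_eq_integral hΨ (fun i => ‖y i - y' i‖ ^ 2)]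
    have i1 : Integrable (fun z : E d × E d => ‖z.1 - z.2‖ ^ 2) π := by
      apply Integrable.of_bound (by fun_prop) ((2 * R) ^ 2)
      filter_upwards [h1, h2] with z hz1 hz2
      rw [Real.norm_eq_abs, abs_of_nonneg (by positivity)]
      have : ‖z.1 - z.2‖ ≤ 2 * R := (norm_sub_le _ _).trans (by linarith [hYR _ hz1, hYR _ hz2])
      gcongr
    calc ∫ z, ‖y (Ψ z) - y' (Ψ z)‖ ^ 2 ∂π ≤ ∫ z, (‖z.1 - z.2‖ ^ 2 + ε) ∂π := by
          apply integral_mono_ae (hfinint fun i => ‖y i - y' i‖ ^ 2) (i1.add (integrable_const ε))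
          filter_upwards [h1, h2, hae] with z hz1 hz2 hz
          have e1 : ‖z.1 - z.2‖ ≤ 2 * R :=
            (norm_sub_le _ _).trans (by linarith [hYR _ hz1, hYR _ hz2])
          have e2 : ‖y (Ψ z) - y' (Ψ z)‖ ≤ ‖z.1 - z.2‖ + 2 * δ := by
            calc ‖y (Ψ z) - y' (Ψ z)‖ =
                ‖(z.1 - z.2) + ((z.2 - y' (Ψ z)) - (z.1 - y (Ψ z)))‖ := by congr 1; abel
              _ ≤ ‖z.1 - z.2‖ + ‖(z.2 - y' (Ψ z)) - (z.1 - y (Ψ z))‖ := norm_add_le _ _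
              _ ≤ ‖z.1 - z.2‖ + (‖z.2 - y' (Ψ z)‖ + ‖z.1 - y (Ψ z)‖) := by
                gcongr
                exact norm_sub_le _ _
              _ ≤ ‖z.1 - z.2‖ + 2 * δ := by linarith [hz.1, hz.2]
          have e3 : 0 ≤ ‖z.1 - z.2‖ := norm_nonneg _
          have e4 : 0 ≤ ‖y (Ψ z) - y' (Ψ z)‖ := norm_nonneg _
          show ‖y (Ψ z) - y' (Ψ z)‖ ^ 2 ≤ ‖z.1 - z.2‖ ^ 2 + ε
          calc ‖y (Ψ z) - y' (Ψ z)‖ ^ 2 ≤ (‖z.1 - z.2‖ + 2 * δ) ^ 2 := by gcongr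
            _ = ‖z.1 - z.2‖ ^ 2 + δ * (4 * ‖z.1 - z.2‖ + 4 * δ) := by ring
            _ ≤ ‖z.1 - z.2‖ ^ 2 + δ * (8 * R + 4) := by
              have e5 : 4 * ‖z.1 - z.2‖ + 4 * δ ≤ 8 * R + 4 := by linarith
              have e6 := mul_le_mul_of_nonneg_left e5 hδ.le
              linarith
            _ ≤ ‖z.1 - z.2‖ ^ 2 + ε := by linarith
      _ = (∫ p, ‖p.1 - p.2‖ ^ 2 ∂π) + ε := by
        rw [integral_add i1 (integrable_const ε)]
        simp

end Vale.Agent.P074
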