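import Vale.Agent.Lib.P074.Defs
import Vale.Agent.Lib.P074.PrekopaLeindler

/-!
# Module M1: the Prekopa-Leindler inequality with parameter one half
-/

namespace Vale.Agent.P074

open MeasureTheory
open scoped ENNReal

/-- MODULE M1. -/
theorem prekopa_leindler_half {d : ℕ} (f g h : E d → ℝ≥0∞) (hf : Measurable f)
    (hg : Measurable g) (hh : Measurable h)
    (H : ∀ x y, f x * g y ≤ (h ((1 / 2 : ℝ) • (x + y))) ^ 2) :
    (∫⁻ x, f x) * (∫⁻ x, g x) ≤ (∫⁻ x, h x) ^ 2 :=
  prekopa_leindler_half_aux f g h hf hg hh H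

end Vale.Agent.P074
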