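import Vale.Agent.Lib.P074.TessMain
import Vale.Agent.Lib.P074.PL

/-!
The tessellation inequality.
-/

open MeasureTheory Set Filter Topology
open scoped ENNReal NNReal

namespace Vale.Agent.P074

variable {d : ℕ} {ι : Type*} [Fintype ι] [Nonempty ι] {K : Set (E d)}

set_option linter.unusedVariables false in
/-- First moments of the power cells are controlled by the masses. -/
theorem tessellation_ineq (hKc : Convex ℝ K) (hK : IsCompact K) (hKi : (interior K).Nonempty)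
    {D : ℝ} (hD : 0 < D) (hDK : ∀ x ∈ K, ‖x‖ ≤ D)
    {z : ι → E d} (hz : Function.Injective z) {m m' : ι → ℝ} (hm : ∀ i, 0 < m i)
    (hsum : ∑ i, m i = 1) (hsum' : ∑ i, m' i = 1)
    (hlo : ∀ i, m i / 2 ≤ m' i) (hhi : ∀ i, m' i ≤ 2 * m i)
    {ψ ψ' : ι → ℝ}
    (h : ∀ i, (unif K).real (cell K z ψ i) = m i)
    (h' : ∀ i, (unif K).real (cell K z ψ' i) = m' i) :
    ∑ i, ‖(∫ x in cell K z ψ' i, x ∂unif K) - ∫ x in cell K z ψ i, x ∂unif K‖ ^ 2 / m i
      ≤ 288000 * D ^ 2 * ∑ i, (m' i - m i) ^ 2 / m i :=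
  Tess.tessellation_of_pl (fun f g k hf hg hk H => prekopa_leindler_half f g k hf hg hk H)
    hKc hK hKi hD hDK hz hm hlo hhi h h'

end Vale.Agent.P074
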