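import Vale.Agent.Lib.P074.Semidiscrete
import Vale.Agent.Lib.P074.Tess

/-!
The main inequality, by interpolating the sites linearly.
-/

open MeasureTheory Set Filter Topology
open scoped ENNReal NNReal

set_option linter.unusedSectionVars false

namespace Vale.Agent.P074

namespace Path

section real

theorem exists_good {Bad : Set ℝ} (hB : Bad.Finite) {a b : ℝ} (hab : a < b) :
    ∃ c, c ∉ Bad ∧ a < c ∧ c < b ∧ c - a ≤ 2 / 3 * (b - a) ∧ b - c ≤ 2 / 3 * (b - a) := by
  have h1 : (Set.Ioo (a + (b - a) / 3) (a + 2 * (b - a) / 3)).Infinite :=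
    Set.Ioo_infinite (by linarith)
  obtain ⟨c, hc, hcB⟩ := h1.exists_notMem_finite hB
  have h2 := hc.1
  have h3 := hc.2
  exact ⟨c, hcB, by linarith, by linarith, by linarith, by linarith⟩

/-- Two functions with subgradients `p`, `r` outside a finite set, `p ≤ r + C`. -/
theorem riemann {Bad : Set ℝ} (hB : Bad.Finite) {f g p r : ℝ → ℝ} {C : ℝ}
    (hf : ∀ s s', s ∉ Bad → s' ∉ Bad → f s + (s' - s) * p s ≤ f s')
    (hg : ∀ s s', s ∉ Bad → s' ∉ Bad → g s + (s' - s) * r s ≤ g s')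
    (hC : ∀ s, s ∉ Bad → p s - r s ≤ C)
    (h0 : (0 : ℝ) ∉ Bad) (h1 : (1 : ℝ) ∉ Bad) : f 1 - f 0 - (g 1 - g 0) ≤ C := by
  have hmono : ∀ a b, a ∉ Bad → b ∉ Bad → a < b → 0 ≤ r b - r a := by
    intro a b ha hb hab
    have e1 := hg a b ha hb
    have e2 := hg b a hb ha
    have e3 : 0 ≤ (b - a) * (r b - r a) := by nlinarith
    exact nonneg_of_mul_nonneg_right e3 (by linarith)
  have key : ∀ n : ℕ, ∀ a b, a ∉ Bad → b ∉ Bad → a < b →
      f b - f a - (g b - g a) ≤ C * (b - a) + (2 / 3) ^ n * ((b - a) * (r b - r a)) := by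
    intro n
    induction n with
    | zero =>
      intro a b ha hb hab
      have e1 := hf b a hb ha
      have e2 := hg a b ha hb
      have e3 := hC b hb
      have e4 : 0 ≤ (b - a) * (C - (p b - r b)) := mul_nonneg (by linarith) (by linarith)
      nlinarith
    | succ n ih =>
      intro a b ha hb hab
      obtain ⟨c, hc, hac, hcb, h2, h3⟩ := exists_good hB hab
      have e1 := ih a c ha hc hac
      have e2 := ih c b hc hb hcb
      have m1 := hmono a c ha hc hac
      have m2 := hmono c b hc hb hcb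
      have q1 : (c - a) * (r c - r a) ≤ 2 / 3 * (b - a) * (r c - r a) :=
        mul_le_mul_of_nonneg_right h2 m1
      have q2 : (b - c) * (r b - r c) ≤ 2 / 3 * (b - a) * (r b - r c) :=
        mul_le_mul_of_nonneg_right h3 m2
      have hp : (0 : ℝ) ≤ (2 / 3) ^ n := by positivity
      have q3 := mul_le_mul_of_nonneg_left q1 hp
      have q4 := mul_le_mul_of_nonneg_left q2 hp
      have e5 : (2 / 3 : ℝ) ^ (n + 1) * ((b - a) * (r b - r a)) =
          (2 / 3) ^ n * (2 / 3 * (b - a) * (r c - r a)) +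
            (2 / 3) ^ n * (2 / 3 * (b - a) * (r b - r c)) := by ring
      rw [e5]
      nlinarith
  have hlim : Tendsto (fun n : ℕ => C * (1 - 0) + (2 / 3 : ℝ) ^ n * ((1 - 0) * (r 1 - r 0)))
      atTop (𝓝 (C * (1 - 0) + 0 * ((1 - 0) * (r 1 - r 0)))) :=
    tendsto_const_nhds.add ((tendsto_pow_atTop_nhds_zero_of_lt_one (by norm_num)
      (by norm_num)).mul_const _)
  have := ge_of_tendsto' hlim fun n => key n 0 1 h0 h1 zero_lt_one
  linarith

end real

section main

variable {d : ℕ} {ι : Type*} [Fintype ι] [Nonempty ι] {K : Set (E d)}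

/-- The interpolated sites. -/
def zs (y y' : ι → E d) (s : ℝ) (i : ι) : E d := y i + s • (y' i - y i)

theorem zs_zero (y y' : ι → E d) : zs y y' 0 = y := by
  funext i; simp [zs]

theorem zs_one (y y' : ι → E d) : zs y y' 1 = y' := by
  funext i; simp [zs]

theorem finite_bad {y y' : ι → E d} (hy : Function.Injective y) :
    {s : ℝ | ¬ Function.Injective (zs y y' s)}.Finite := by
  have h1 : {s : ℝ | ¬ Function.Injective (zs y y' s)} ⊆
      ⋃ i : ι, ⋃ j : ι, {s : ℝ | i ≠ j ∧ zs y y' s i = zs y y' s j} := by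
    intro s hs
    simp only [mem_ofPred_eq, Function.Injective, not_forall] at hs
    obtain ⟨i, j, hij, hne⟩ := hs
    simp only [mem_iUnion, mem_ofPred_eq]
    exact ⟨i, j, hne, hij⟩
  refine Set.Finite.subset (Set.finite_iUnion fun i => Set.finite_iUnion fun j => ?_) h1
  refine Set.Subsingleton.finite ?_
  rintro s ⟨hij, hs⟩ s' ⟨_, hs'⟩
  by_contra hne
  have e1 : (s - s') • ((y' i - y i) - (y' j - y j)) = 0 := by
    have e2 : (s - s') • ((y' i - y i) - (y' j - y j)) =
        (zs y y' s i - zs y y' s j) - (zs y y' s' i - zs y y' s' j) := by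
      unfold zs
      module
    rw [e2, hs, hs', sub_self, sub_self, sub_self]
  rcases smul_eq_zero.1 e1 with h | h
  · exact hne (sub_eq_zero.1 h)
  · apply hij
    apply hy
    have e3 : zs y y' s i - zs y y' s j = (y i - y j) + s • ((y' i - y i) - (y' j - y j)) := by
      unfold zs
      module
    rw [h, smul_zero, add_zero, hs, sub_self] at e3
    exact (sub_eq_zero.1 e3.symm)

theorem integrable_self (hK : IsCompact K) (hKi : (interior K).Nonempty) :
    Integrable (fun x : E d => x) (unif K) := by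
  have := unif_prob hK hKi
  obtain ⟨C, hC⟩ := hK.isBounded.exists_norm_le
  refine Integrable.of_bound continuous_id.aestronglyMeasurable C ?_
  filter_upwards [ae_mem hK] with x hx
  exact hC x hx

theorem Jf_cells (hK : IsCompact K) (hKi : (interior K).Nonempty) {z : ι → E d}
    (hz : Function.Injective z) {q ψ : ι → ℝ}
    (h : ∀ i, (unif K).real (cell K z ψ i) = q i) (z' : ι → E d) (ψ' : ι → ℝ) :
    SD.Jf K z' q ψ' = ∑ i, ∫ x in cell K z ψ i, (pot z' ψ' x + ψ' i) ∂unif K := by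
  have := unif_prob hK hKi
  have hI := SD.integrable_pot hK hKi z' ψ'
  unfold SD.Jf
  rw [integral_cells hK hz ψ hI, ← Finset.sum_add_distrib]
  refine Finset.sum_congr rfl fun i _ => ?_
  rw [integral_add hI.integrableOn (integrable_const _), setIntegral_const, h i, smul_eq_mul]

theorem Jf_lower (hK : IsCompact K) (hKi : (interior K).Nonempty) {z z' : ι → E d}
    (hz : Function.Injective z) {q ψ : ι → ℝ}
    (h : ∀ i, (unif K).real (cell K z ψ i) = q i) (ψ' : ι → ℝ) :
    SD.Jf K z q ψ + ∑ i, inner ℝ (z' i - z i) (∫ x in cell K z ψ i, x ∂unif K) ≤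
      SD.Jf K z' q ψ' := by
  have := unif_prob hK hKi
  rw [Jf_cells hK hKi hz h z ψ, Jf_cells hK hKi hz h z' ψ', ← Finset.sum_add_distrib]
  refine Finset.sum_le_sum fun i _ => ?_
  have hid := integrable_self hK hKi
  have hI : Integrable (fun x => pot z ψ x + ψ i) (unif K) :=
    (SD.integrable_pot hK hKi z ψ).add (integrable_const _)
  have hI' : Integrable (fun x => pot z' ψ' x + ψ' i) (unif K) :=
    (SD.integrable_pot hK hKi z' ψ').add (integrable_const _)
  have hin : Integrable (fun x : E d => inner ℝ (z' i - z i) x) (unif K) :=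
    hid.const_inner _
  rw [← integral_inner hid.integrableOn, ← integral_add hI.integrableOn hin.integrableOn]
  refine setIntegral_mono_on (hI.add hin).integrableOn hI'.integrableOn
    (measurableSet_cell hK z ψ i) fun x hx => ?_
  have e1 := pot_eq_of_cell hx
  have e2 := le_pot z' ψ' x i
  rw [e1, inner_sub_left]
  linarith

theorem Jf_mass (z : ι → E d) (q q' ψ : ι → ℝ) :
    SD.Jf K z q' ψ = SD.Jf K z q ψ + ∑ i, (q' i - q i) * ψ i := by
  unfold SD.Jf
  rw [add_assoc, ← Finset.sum_add_distrib]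
  congr 1
  exact Finset.sum_congr rfl fun i _ => by ring

/-- Cauchy-Schwarz for the difference of the slopes. -/
theorem slope_le {m : ι → ℝ} (hm : ∀ i, 0 < m i) (a b : ι → E d) :
    ∑ i, inner ℝ (a i) (b i) ≤
      √(∑ i, ‖b i‖ ^ 2 / m i) * √(∑ i, m i * ‖a i‖ ^ 2) := by
  have h1 : ∑ i, inner ℝ (a i) (b i) ≤ ∑ i, (‖b i‖ / √(m i)) * (√(m i) * ‖a i‖) := by
    refine Finset.sum_le_sum fun i _ => ?_
    have h2 : (‖b i‖ / √(m i)) * (√(m i) * ‖a i‖) = ‖a i‖ * ‖b i‖ := by
      have : √(m i) ≠ 0 := (Real.sqrt_pos.2 (hm i)).ne'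
      field_simp
    rw [h2]
    exact real_inner_le_norm _ _
  refine h1.trans ((Real.sum_mul_le_sqrt_mul_sqrt _ _ _).trans (le_of_eq ?_))
  congr 2
  · refine Finset.sum_congr rfl fun i _ => ?_
    rw [div_pow, Real.sq_sqrt (hm i).le]
  · refine Finset.sum_congr rfl fun i _ => ?_
    rw [mul_pow, Real.sq_sqrt (hm i).le]

theorem main_aux (hKc : Convex ℝ K) (hK : IsCompact K) (hKi : (interior K).Nonempty)
    {D : ℝ} (hD : 0 < D) (hDK : ∀ x ∈ K, ‖x‖ ≤ D)
    {y y' : ι → E d} (hy : Function.Injective y) (hy' : Function.Injective y') {m : ι → ℝ}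
    (hm : ∀ i, 0 < m i) (hsum : ∑ i, m i = 1) {ψ ψ' : ι → ℝ}
    (h : ∀ i, (unif K).real (cell K y ψ i) = m i)
    (h' : ∀ i, (unif K).real (cell K y' ψ' i) = m i)
    {p : ι → ℝ} (hp : ∑ i, m i * p i = 0) :
    ∑ i, m i * p i * (ψ' i - ψ i) ≤
      √(288000 * D ^ 2 * ∑ i, m i * p i ^ 2) * √(∑ i, m i * ‖y' i - y i‖ ^ 2) := by
  set B : ℝ := √(288000 * D ^ 2 * ∑ i, m i * p i ^ 2) * √(∑ i, m i * ‖y' i - y i‖ ^ 2) with hBdef
  -- perturbed masses
  let q : ℝ → ι → ℝ := fun t i => m i * (1 + t * p i)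
  have hq0 : q 0 = m := by funext i; simp [q]
  have hqsum : ∀ t, ∑ i, q t i = 1 := by
    intro t
    have : ∑ i, q t i = ∑ i, m i + t * ∑ i, m i * p i := by
      rw [Finset.mul_sum, ← Finset.sum_add_distrib]
      exact Finset.sum_congr rfl fun i _ => by simp only [q]; ring
    rw [this, hsum, hp]; ring
  -- potentials
  have hex : ∀ t s, ∃ φ : ι → ℝ, (∀ i, 0 < q t i) → Function.Injective (zs y y' s) →
      ∀ i, (unif K).real (cell K (zs y y' s) φ i) = q t i := by
    intro t s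
    by_cases h1 : (∀ i, 0 < q t i) ∧ Function.Injective (zs y y' s)
    · obtain ⟨φ, hφ⟩ := exists_psi hK hKi h1.2 h1.1 (hqsum t)
      exact ⟨φ, fun _ _ => hφ⟩
    · exact ⟨0, fun h2 h3 => absurd ⟨h2, h3⟩ h1⟩
  choose Φ hΦ using hex
  set Bad : Set ℝ := {s : ℝ | ¬ Function.Injective (zs y y' s)} with hBad
  have hBfin : Bad.Finite := finite_bad hy
  have hgood : ∀ s, s ∉ Bad → Function.Injective (zs y y' s) := fun s hs => by
    simpa [hBad] using hs
  have h0 : (0 : ℝ) ∉ Bad := by simpa [hBad, zs_zero] using hy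
  have h1 : (1 : ℝ) ∉ Bad := by simpa [hBad, zs_one] using hy'
  -- small times
  have hsmall : ∀ᶠ t in 𝓝[>] (0 : ℝ), ∀ i, |t * p i| ≤ 1 / 2 := by
    rw [eventually_all]
    intro i
    have : Tendsto (fun t : ℝ => |t * p i|) (𝓝[>] 0) (𝓝 |0 * p i|) :=
      ((continuous_id.mul continuous_const).abs.tendsto 0).mono_left nhdsWithin_le_nhds
    rw [zero_mul, abs_zero] at this
    exact (this.eventually (gt_mem_nhds (by norm_num : (0 : ℝ) < 1 / 2))).mono fun t ht => ht.le
  have hpos : ∀ t, (∀ i, |t * p i| ≤ 1 / 2) → ∀ i, 0 < q t i := by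
    intro t ht i
    have := (abs_le.1 (ht i)).1
    exact mul_pos (hm i) (by linarith)
  -- subgradients
  let Fv : ℝ → ℝ → ℝ := fun t s => SD.Jf K (zs y y' s) (q t) (Φ t s)
  let pv : ℝ → ℝ → ℝ := fun t s =>
    ∑ i, inner ℝ (y' i - y i) (∫ x in cell K (zs y y' s) (Φ t s) i, x ∂unif K)
  have hsub : ∀ t, (∀ i, 0 < q t i) → ∀ s s', s ∉ Bad → s' ∉ Bad →
      Fv t s + (s' - s) * pv t s ≤ Fv t s' := by
    intro t ht s s' hs hs'
    have e1 := Jf_lower hK hKi (z' := zs y y' s') (hgood s hs) (hΦ t s ht (hgood s hs)) (Φ t s')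
    refine le_trans (le_of_eq ?_) e1
    simp only [Fv, pv]
    rw [Finset.mul_sum]
    congr 1
    refine Finset.sum_congr rfl fun i _ => ?_
    have : zs y y' s' i - zs y y' s i = (s' - s) • (y' i - y i) := by
      unfold zs; module
    rw [this, real_inner_smul_left]
  have hq00 : ∀ i, 0 < q 0 i := by rw [hq0]; exact hm
  have hkey : ∀ᶠ t in 𝓝[>] (0 : ℝ), ∑ i, m i * p i * (Φ t 1 i - ψ i) ≤ B := by
    filter_upwards [hsmall, self_mem_nhdsWithin] with t ht ht0
    have ht0' : 0 < t := ht0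
    have hqt := hpos t ht
    have hC : ∀ s, s ∉ Bad → pv t s - pv 0 s ≤ t * B := by
      intro s hs
      have e1 : pv t s - pv 0 s = ∑ i, inner ℝ (y' i - y i)
          ((∫ x in cell K (zs y y' s) (Φ t s) i, x ∂unif K) -
            ∫ x in cell K (zs y y' s) (Φ 0 s) i, x ∂unif K) := by
        simp only [pv]
        rw [← Finset.sum_sub_distrib]
        refine Finset.sum_congr rfl fun i _ => ?_
        rw [inner_sub_right]
      rw [e1]
      have hΦ0 : ∀ i, (unif K).real (cell K (zs y y' s) (Φ 0 s) i) = m i := by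
        intro i
        rw [hΦ 0 s hq00 (hgood s hs) i, hq0]
      have e2 := tessellation_ineq hKc hK hKi hD hDK (hgood s hs) hm hsum (hqsum t)
        (fun i => by
          have := (abs_le.1 (ht i)).1
          have h3 := hm i
          simp only [q]
          nlinarith)
        (fun i => by
          have := (abs_le.1 (ht i)).2
          have h3 := hm i
          simp only [q]
          nlinarith) hΦ0 (hΦ t s hqt (hgood s hs))
      have e3 : ∑ i, (q t i - m i) ^ 2 / m i = t ^ 2 * ∑ i, m i * p i ^ 2 := by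
        rw [Finset.mul_sum]
        refine Finset.sum_congr rfl fun i _ => ?_
        have := (hm i).ne'
        simp only [q]
        field_simp
        ring
      rw [e3] at e2
      refine (slope_le hm _ _).trans ?_
      rw [hBdef, ← mul_assoc]
      refine mul_le_mul_of_nonneg_right ?_ (Real.sqrt_nonneg _)
      have e4 : t * √(288000 * D ^ 2 * ∑ i, m i * p i ^ 2) =
          √(t ^ 2 * (288000 * D ^ 2 * ∑ i, m i * p i ^ 2)) := by
        rw [Real.sqrt_mul (sq_nonneg t), Real.sqrt_sq ht0'.le]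
      rw [e4]
      refine Real.sqrt_le_sqrt (e2.trans (le_of_eq ?_))
      ring
    have e1 := riemann hBfin (hsub t hqt) (hsub 0 hq00) hC h0 h1
    -- values at the ends
    have e2 : Fv 0 1 ≤ Fv t 1 - t * ∑ i, m i * p i * Φ t 1 i := by
      have f1 := SD.le_of_mass hK hKi (hgood 1 h1) (hΦ 0 1 hq00 (hgood 1 h1)) (Φ t 1)
      rw [Jf_mass _ (q t) (q 0) (Φ t 1)] at f1
      simp only [Fv]
      refine f1.trans (le_of_eq ?_)
      rw [sub_eq_add_neg]
      congr 1
      rw [Finset.mul_sum, ← Finset.sum_neg_distrib]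
      refine Finset.sum_congr rfl fun i _ => ?_
      simp only [q]
      ring
    have e3 : Fv t 0 ≤ Fv 0 0 + t * ∑ i, m i * p i * ψ i := by
      have f1 := SD.le_of_mass hK hKi (hgood 0 h0) (hΦ t 0 hqt (hgood 0 h0)) ψ
      have f2 : SD.Jf K (zs y y' 0) (q 0) ψ ≤ Fv 0 0 := by
        rw [zs_zero, hq0]
        exact le_trans (SD.le_of_mass hK hKi hy h (Φ 0 0)) (le_of_eq (by
          simp only [Fv]; rw [zs_zero, hq0]))
      rw [Jf_mass _ (q 0) (q t) ψ] at f1
      have f3 : ∑ i, (q t i - q 0 i) * ψ i = t * ∑ i, m i * p i * ψ i := by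
        rw [Finset.mul_sum]
        refine Finset.sum_congr rfl fun i _ => ?_
        simp only [q]
        ring
      rw [f3] at f1
      simp only [Fv] at f2 ⊢
      linarith
    have e4 : t * ∑ i, m i * p i * (Φ t 1 i - ψ i) =
        t * ∑ i, m i * p i * Φ t 1 i - t * ∑ i, m i * p i * ψ i := by
      rw [← mul_sub, ← Finset.sum_sub_distrib]
      congr 1
      exact Finset.sum_congr rfl fun i _ => by ring
    have e5 : t * ∑ i, m i * p i * (Φ t 1 i - ψ i) ≤ t * B := by
      rw [e4]; linarith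
    exact le_of_mul_le_mul_left e5 ht0'
  -- limit
  obtain ⟨j⟩ : Nonempty ι := inferInstance
  have hrew : ∀ φ : ι → ℝ, ∑ i, m i * p i * (φ i - ψ i) =
      ∑ i, m i * p i * (φ i - φ j) - ∑ i, m i * p i * ψ i := by
    intro φ
    have e1 : ∑ i, m i * p i * (φ i - φ j) = ∑ i, m i * p i * φ i - (∑ i, m i * p i) * φ j := by
      rw [Finset.sum_mul, ← Finset.sum_sub_distrib]
      exact Finset.sum_congr rfl fun i _ => by ring
    rw [e1, hp, zero_mul, sub_zero, ← Finset.sum_sub_distrib]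
    exact Finset.sum_congr rfl fun i _ => by ring
  have hM : Tendsto q (𝓝[>] (0 : ℝ)) (𝓝 m) := by
    rw [tendsto_pi_nhds]
    intro i
    have : Tendsto (fun t : ℝ => m i * (1 + t * p i)) (𝓝[>] 0) (𝓝 (m i * (1 + 0 * p i))) :=
      ((continuous_const.mul (continuous_const.add
        (continuous_id.mul continuous_const))).tendsto 0).mono_left nhdsWithin_le_nhds
    simpa using this
  have hlim : ∀ i, Tendsto (fun t => Φ t 1 i - Φ t 1 j) (𝓝[>] (0 : ℝ)) (𝓝 (ψ' i - ψ' j)) := by
    intro i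
    refine psi_tendsto hKc hK hKi hy' hm hsum h' hM ?_ i j
    filter_upwards [hsmall] with t ht i
    have := hΦ t 1 (hpos t ht) (hgood 1 h1) i
    rwa [zs_one] at this
  have hlim2 : Tendsto (fun t => ∑ i, m i * p i * (Φ t 1 i - Φ t 1 j) - ∑ i, m i * p i * ψ i)
      (𝓝[>] (0 : ℝ)) (𝓝 (∑ i, m i * p i * (ψ' i - ψ' j) - ∑ i, m i * p i * ψ i)) :=
    (tendsto_finsetSum _ fun i _ => (hlim i).const_mul _).sub_const _
  rw [hrew ψ']
  refine le_of_tendsto hlim2 ?_
  filter_upwards [hkey] with t ht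
  rwa [hrew (Φ t 1)] at ht

end main

end Path

/-- The main inequality. -/
theorem main_ineq {d : ℕ} {ι : Type*} [Fintype ι] [Nonempty ι] {K : Set (E d)}
    (hKc : Convex ℝ K) (hK : IsCompact K) (hKi : (interior K).Nonempty)
    {D : ℝ} (hD : 0 < D) (hDK : ∀ x ∈ K, ‖x‖ ≤ D)
    {y y' : ι → E d} (hy : Function.Injective y) (hy' : Function.Injective y') {m : ι → ℝ}
    (hm : ∀ i, 0 < m i) (hsum : ∑ i, m i = 1) {ψ ψ' : ι → ℝ}
    (h : ∀ i, (unif K).real (cell K y ψ i) = m i)
    (h' : ∀ i, (unif K).real (cell K y' ψ' i) = m i) :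
    ∃ c : ℝ, ∑ i, m i * (ψ' i - ψ i - c) ^ 2 ≤ 288000 * D ^ 2 * ∑ i, m i * ‖y' i - y i‖ ^ 2 := by
  set c : ℝ := ∑ i, m i * (ψ' i - ψ i) with hc
  refine ⟨c, ?_⟩
  have hp : ∑ i, m i * (ψ' i - ψ i - c) = 0 := by
    have : ∑ i, m i * (ψ' i - ψ i - c) = ∑ i, m i * (ψ' i - ψ i) - (∑ i, m i) * c := by
      rw [Finset.sum_mul, ← Finset.sum_sub_distrib]
      exact Finset.sum_congr rfl fun i _ => by ring
    rw [this, hsum, one_mul, ← hc, sub_self]
  have h1 := Path.main_aux hKc hK hKi hD hDK hy hy' hm hsum h h' hp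
  set S : ℝ := ∑ i, m i * (ψ' i - ψ i - c) ^ 2 with hS
  set A : ℝ := ∑ i, m i * ‖y' i - y i‖ ^ 2 with hA
  have h2 : ∑ i, m i * (ψ' i - ψ i - c) * (ψ' i - ψ i) = S := by
    have : ∑ i, m i * (ψ' i - ψ i - c) * (ψ' i - ψ i) =
        S + (∑ i, m i * (ψ' i - ψ i - c)) * c := by
      rw [hS, Finset.sum_mul, ← Finset.sum_add_distrib]
      exact Finset.sum_congr rfl fun i _ => by ring
    rw [this, hp, zero_mul, add_zero]
  rw [h2] at h1
  have hS0 : 0 ≤ S := Finset.sum_nonneg fun i _ => mul_nonneg (hm i).le (sq_nonneg _)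
  have hA0 : 0 ≤ A := Finset.sum_nonneg fun i _ => mul_nonneg (hm i).le (sq_nonneg _)
  rw [← Real.sqrt_mul (by positivity)] at h1
  have h3 : S ^ 2 ≤ 288000 * D ^ 2 * S * A := by
    have := Real.sq_sqrt (show 0 ≤ 288000 * D ^ 2 * S * A by positivity)
    have h4 := mul_self_le_mul_self hS0 h1
    nlinarith
  rcases hS0.eq_or_lt with h0 | h0
  · rw [← h0]; positivity
  · have h5 : S * S ≤ S * (288000 * D ^ 2 * A) := by nlinarith
    exact le_of_mul_le_mul_left h5 h0

end Vale.Agent.P074
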