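import Vale.Agent.Lib.P074.Semi

open MeasureTheory Set Filter Topology
open scoped ENNReal NNReal

namespace Vale.Agent.P074

variable {d : ℕ} {ι : Type*} [Fintype ι] [Nonempty ι] {K : Set (E d)}

theorem integral_le_of_cells (hK : IsCompact K) (hKi : (interior K).Nonempty) {z : ι → E d}
    (hz : Function.Injective z) {ψ : ι → ℝ} {m : ι → ℝ}
    (h : ∀ i, (unif K).real (cell K z ψ i) = m i) {f : E d → ℝ} (hf : Continuous f) {a : ι → ℝ}
    (hfa : ∀ i, ∀ x ∈ cell K z ψ i, f x ≤ a i) :
    ∫ x, f x ∂unif K ≤ ∑ i, m i * a i := by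
  have := unif_prob hK hKi
  have hfi : Integrable f (unif K) := by
    obtain ⟨B, hB⟩ := hK.exists_bound_of_continuousOn hf.continuousOn
    refine Integrable.of_bound hf.aestronglyMeasurable B ?_
    filter_upwards [ae_mem hK] with x hx
    exact hB x hx
  rw [integral_cells hK hz ψ hfi]
  refine Finset.sum_le_sum fun i _ => ?_
  calc ∫ x in cell K z ψ i, f x ∂unif K ≤ ∫ x in cell K z ψ i, a i ∂unif K :=
        setIntegral_mono_on hfi.integrableOn (integrable_const _).integrableOn
          (measurableSet_cell hK z ψ i) (hfa i)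
    _ = m i * a i := by rw [setIntegral_const, smul_eq_mul, h]

theorem primal_ineq (hK : IsCompact K) (hKi : (interior K).Nonempty) {D : ℝ}
    (hDK : ∀ x ∈ K, ‖x‖ ≤ D)
    {y y' : ι → E d} (hy : Function.Injective y) (hy' : Function.Injective y') {m : ι → ℝ}
    {ψ ψ' : ι → ℝ} (h : ∀ i, (unif K).real (cell K y ψ i) = m i)
    (h' : ∀ i, (unif K).real (cell K y' ψ' i) = m i) (c : ℝ) :
    ∫ x, (pot y ψ x - pot y' ψ' x - c) ^ 2 ∂unif K ≤
      4 * D ^ 2 * ∑ i, m i * ‖y' i - y i‖ ^ 2 + 4 * ∑ i, m i * (ψ' i - ψ i - c) ^ 2 := by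
  have := unif_prob hK hKi
  have hD0 : 0 ≤ D := by
    obtain ⟨x, hx⟩ := hKi
    exact (norm_nonneg _).trans (hDK x (interior_subset hx))
  have hc1 := continuous_pot y ψ
  have hc2 := continuous_pot y' ψ'
  set u : E d → ℝ := fun x => pot y ψ x - pot y' ψ' x - c with hu
  have huc : Continuous u := by fun_prop
  set a : ι → ℝ := fun i => D * ‖y' i - y i‖ + |ψ' i - ψ i - c| with ha
  have ha0 : ∀ i, 0 ≤ a i := fun i => by positivity
  have e1 : ∫ x, (max (u x) 0) ^ 2 ∂unif K ≤ ∑ i, m i * (a i) ^ 2 := by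
    refine integral_le_of_cells hK hKi hy h (by fun_prop) fun i x hx => ?_
    refine pow_le_pow_left₀ (le_max_right _ _) (max_le ?_ (ha0 i)) 2
    have h1 := pot_eq_of_cell hx
    have h2 := le_pot y' ψ' x i
    have h3 : inner ℝ (y i - y' i) x ≤ D * ‖y' i - y i‖ := by
      refine (real_inner_le_norm _ _).trans ?_
      rw [norm_sub_rev, mul_comm]
      exact mul_le_mul_of_nonneg_right (hDK x hx.1) (norm_nonneg _)
    rw [inner_sub_left] at h3
    have h4 := le_abs_self (ψ' i - ψ i - c)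
    simp only [hu, ha]
    linarith
  have e2 : ∫ x, (max (-u x) 0) ^ 2 ∂unif K ≤ ∑ i, m i * (a i) ^ 2 := by
    refine integral_le_of_cells hK hKi hy' h' (by fun_prop) fun i x hx => ?_
    refine pow_le_pow_left₀ (le_max_right _ _) (max_le ?_ (ha0 i)) 2
    have h1 := pot_eq_of_cell hx
    have h2 := le_pot y ψ x i
    have h3 : inner ℝ (y' i - y i) x ≤ D * ‖y' i - y i‖ := by
      refine (real_inner_le_norm _ _).trans ?_
      rw [mul_comm]
      exact mul_le_mul_of_nonneg_right (hDK x hx.1) (norm_nonneg _)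
    rw [inner_sub_left] at h3
    have h4 := neg_abs_le (ψ' i - ψ i - c)
    simp only [hu, ha]
    linarith
  have hci : ∀ f : E d → ℝ, Continuous f → Integrable f (unif K) := by
    intro f hf
    obtain ⟨B, hB⟩ := hK.exists_bound_of_continuousOn hf.continuousOn
    refine Integrable.of_bound hf.aestronglyMeasurable B ?_
    filter_upwards [ae_mem hK] with x hx
    exact hB x hx
  have e3 : ∫ x, u x ^ 2 ∂unif K =
      (∫ x, (max (u x) 0) ^ 2 ∂unif K) + ∫ x, (max (-u x) 0) ^ 2 ∂unif K := by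
    rw [← integral_add (hci _ (by fun_prop)) (hci _ (by fun_prop))]
    refine integral_congr_ae (Filter.Eventually.of_forall fun x => ?_)
    simp only
    rcases le_total 0 (u x) with h | h
    · rw [max_eq_left h, max_eq_right (by linarith)]
      ring
    · rw [max_eq_right h, max_eq_left (by linarith)]
      ring
  have hm0 : ∀ i, 0 ≤ m i := fun i => by rw [← h i]; exact measureReal_nonneg
  calc ∫ x, (pot y ψ x - pot y' ψ' x - c) ^ 2 ∂unif K = ∫ x, u x ^ 2 ∂unif K := rfl
    _ ≤ 2 * ∑ i, m i * (a i) ^ 2 := by rw [e3]; linarith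
    _ ≤ 2 * ∑ i, m i * (2 * D ^ 2 * ‖y' i - y i‖ ^ 2 + 2 * (ψ' i - ψ i - c) ^ 2) := by
        refine mul_le_mul_of_nonneg_left (Finset.sum_le_sum fun i _ => ?_) (by norm_num)
        refine mul_le_mul_of_nonneg_left ?_ (hm0 i)
        simp only [ha]
        have h1 := sq_nonneg (D * ‖y' i - y i‖ - |ψ' i - ψ i - c|)
        have h2 := sq_abs (ψ' i - ψ i - c)
        nlinarith
    _ = _ := by
        rw [Finset.mul_sum, Finset.mul_sum, Finset.mul_sum, ← Finset.sum_add_distrib]
        refine Finset.sum_congr rfl fun i _ => ?_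
        ring

end Vale.Agent.P074
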