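import Vale.Agent.Lib.P074.Opt

open MeasureTheory Set Filter Topology
open scoped ENNReal NNReal

namespace Vale.Agent.P074

variable {d : ℕ} {K : Set (E d)}

/-! ### Two-atom targets -/

/-- The set where the two-valued map takes the value `a`. -/
def low (a b : E d) (s : ℝ) : Set (E d) := {x | inner ℝ (b - a) x < s}

theorem measurableSet_low (a b : E d) (s : ℝ) : MeasurableSet (low a b s) :=
  measurableSet_lt (measurable_const.inner measurable_id) measurable_const

open Classical in
/-- The two-valued map. -/
noncomputable def two (a b : E d) (s : ℝ) (x : E d) : E d := if x ∈ low a b s then a else b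

theorem measurable_two (a b : E d) (s : ℝ) : Measurable (two a b s) :=
  Measurable.ite (measurableSet_low a b s) measurable_const measurable_const

theorem map_two (a b : E d) (s : ℝ) :
    (unif K).map (two a b s) = unif K (low a b s) • Measure.dirac a
      + unif K (low a b s)ᶜ • Measure.dirac b := by
  ext B hB
  rw [Measure.map_apply (measurable_two a b s) hB]
  simp only [Measure.coe_add, Measure.coe_smul, Pi.add_apply, Pi.smul_apply, smul_eq_mul,
    Measure.dirac_apply' _ hB]
  have hm := measurableSet_low a b s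
  rw [← measure_inter_add_sdiff (two a b s ⁻¹' B) hm]
  congr 1
  · by_cases h : a ∈ B
    · rw [indicator_of_mem h, Pi.one_apply, mul_one]
      congr 1
      ext x
      simp only [mem_inter_iff, mem_preimage, two]
      constructor
      · exact fun h => h.2
      · intro hx
        refine ⟨?_, hx⟩
        rw [if_pos hx]; exact h
    · rw [indicator_of_notMem h, mul_zero]
      convert measure_empty (μ := unif K)
      ext x
      simp only [mem_inter_iff, mem_preimage, two, mem_empty_iff_false, iff_false, not_and]
      intro h1 h2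
      rw [if_pos h2] at h1
      exact h h1
  · by_cases h : b ∈ B
    · rw [indicator_of_mem h, Pi.one_apply, mul_one]
      congr 1
      ext x
      simp only [Set.mem_sdiff, mem_preimage, two, mem_compl_iff]
      constructor
      · exact fun h => h.2
      · intro hx
        refine ⟨?_, hx⟩
        rw [if_neg hx]; exact h
    · rw [indicator_of_notMem h, mul_zero]
      convert measure_empty (μ := unif K)
      ext x
      simp only [Set.mem_sdiff, mem_preimage, two, mem_empty_iff_false, iff_false, not_and, not_not]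
      intro h1
      by_contra h2
      rw [if_neg h2] at h1
      exact h h1

theorem isOptimal_two (hK : IsCompact K) (hKi : (interior K).Nonempty) {a b : E d} (hab : a ≠ b)
    (s : ℝ) : IsOptimalMap K ((unif K).map (two a b s)) (two a b s) := by
  classical
  have := unif_prob hK hKi
  obtain ⟨D, hD0, hD⟩ := exists_bound hK
  have hfin : IsFiniteMeasure ((unif K).map (two a b s)) := by infer_instance
  refine isOptimal_of_potential (Y := {a, b}) (R := max ‖a‖ ‖b‖)
    (f := fun x => max (inner ℝ a x) (inner ℝ b x - s)) (g := fun y => if y = a then 0 else s)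
    hK hKi (measurable_two a b s) rfl ((Set.toFinite _).measurableSet) ?_ ?_ ?_ ?_ ?_ ?_
  · rw [Measure.map_apply (measurable_two a b s) (((Set.toFinite _).measurableSet).compl)]
    convert measure_empty (μ := unif K)
    ext x
    simp only [two, mem_preimage, mem_compl_iff, mem_insert_iff, mem_singleton_iff,
      mem_empty_iff_false, iff_false, not_not]
    split_ifs
    · left; rfl
    · right; rfl
  · rintro y (rfl | rfl)
    · exact le_max_left _ _
    · exact le_max_right _ _
  · refine Integrable.of_bound (((measurable_const.inner measurable_id).max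
      ((measurable_const.inner measurable_id).sub measurable_const))).aestronglyMeasurable
      (‖a‖ * D + (‖b‖ * D + |s|)) ?_
    filter_upwards [ae_mem hK] with x hx
    have h1 : |inner ℝ a x| ≤ ‖a‖ * D :=
      (abs_real_inner_le_norm a x).trans (mul_le_mul_of_nonneg_left (hD x hx) (norm_nonneg _))
    have h2 : |inner ℝ b x| ≤ ‖b‖ * D :=
      (abs_real_inner_le_norm b x).trans (mul_le_mul_of_nonneg_left (hD x hx) (norm_nonneg _))
    have h3 : |inner ℝ b x - s| ≤ ‖b‖ * D + |s| := (abs_sub _ _).trans (by linarith)
    rw [Real.norm_eq_abs]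
    refine (abs_max_le_max_abs_abs).trans ?_
    refine max_le ?_ ?_
    · have : 0 ≤ ‖b‖ * D + |s| := by positivity
      exact h1.trans (le_add_of_nonneg_right this)
    · have : 0 ≤ ‖a‖ * D := by positivity
      exact h3.trans (le_add_of_nonneg_left this)
  · refine Integrable.of_bound (Measurable.ite (measurableSet_eq) measurable_const
      measurable_const).aestronglyMeasurable (|s|) (Filter.Eventually.of_forall fun y => ?_)
    split_ifs <;> simp
  · refine Filter.Eventually.of_forall fun x => ?_
    by_cases hx : x ∈ low a b s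
    · have h1 : two a b s x = a := if_pos hx
      rw [h1, if_pos rfl, add_zero, real_inner_comm]
      unfold low at hx
      have hx' : inner ℝ (b - a) x < s := hx
      rw [inner_sub_left] at hx'
      rw [max_eq_left (by linarith)]
    · have h1 : two a b s x = b := if_neg hx
      rw [h1, if_neg hab.symm, real_inner_comm]
      have hx' : ¬ (inner ℝ (b - a) x < s) := hx
      rw [inner_sub_left] at hx'
      rw [max_eq_right (by linarith)]
      ring
  · rintro x hx y (rfl | rfl)
    · rw [if_pos rfl, add_zero, real_inner_comm]; exact le_max_left _ _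
    · rw [if_neg hab.symm, real_inner_comm]
      have := le_max_right (inner ℝ a x) (inner ℝ y x - s)
      linarith

theorem W2_two_le {a a' b : E d} (p q : ℝ≥0∞) :
    W2 (p • Measure.dirac a + q • Measure.dirac b) (p • Measure.dirac a' + q • Measure.dirac b)
      ≤ (p * ‖a - a'‖ₑ ^ 2) ^ (1 / 2 : ℝ) := by
  have hc : IsCoupling (p • Measure.dirac a + q • Measure.dirac b)
      (p • Measure.dirac a' + q • Measure.dirac b)
      (p • Measure.dirac (a, a') + q • Measure.dirac (b, b)) := by
    constructor
    · rw [Measure.map_add _ _ measurable_fst, Measure.map_smul, Measure.map_smul,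
        Measure.map_dirac' measurable_fst, Measure.map_dirac' measurable_fst]
    · rw [Measure.map_add _ _ measurable_snd, Measure.map_smul, Measure.map_smul,
        Measure.map_dirac' measurable_snd, Measure.map_dirac' measurable_snd]
  unfold W2
  refine (iInf₂_le _ hc).trans ?_
  refine ENNReal.rpow_le_rpow (le_of_eq ?_) (by norm_num)
  have hm : Measurable (fun p : E d × E d => ‖p.1 - p.2‖ₑ ^ 2) :=
    ((measurable_fst.sub measurable_snd).enorm.pow_const 2)
  rw [lintegral_add_measure, lintegral_smul_measure, lintegral_smul_measure,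
    lintegral_dirac' _ hm, lintegral_dirac' _ hm]
  simp

/-! ### Boxes -/

/-- The axis-parallel box with corners `a` and `b`. -/
def box (a b : Fin d → ℝ) : Set (E d) := {x | ∀ i, a i ≤ x i ∧ x i ≤ b i}

theorem box_eq (a b : Fin d → ℝ) : box a b = (@WithLp.ofLp 2 (Fin d → ℝ)) ⁻¹' (Icc a b) := by
  ext x
  simp only [box, mem_preimage, mem_Icc, Pi.le_def]
  constructor
  · intro h
    exact ⟨fun i => (h i).1, fun i => (h i).2⟩
  · intro h i
    exact ⟨h.1 i, h.2 i⟩

theorem volume_box (a b : Fin d → ℝ) : volume (box a b) = ∏ i, ENNReal.ofReal (b i - a i) := by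
  rw [box_eq, (PiLp.volume_preserving_ofLp (Fin d)).measure_preimage
    measurableSet_Icc.nullMeasurableSet, Real.volume_Icc_pi]

theorem isCompact_box (a b : Fin d → ℝ) : IsCompact (box a b) := by
  have h : box a b = (@WithLp.toLp 2 (Fin d → ℝ)) '' (Icc a b) := by
    rw [box_eq]
    ext x
    constructor
    · intro hx
      exact ⟨_, hx, rfl⟩
    · rintro ⟨y, hy, rfl⟩
      exact hy
  rw [h]
  exact isCompact_Icc.image (PiLp.continuous_toLp 2 _)

theorem convex_box (a b : Fin d → ℝ) : Convex ℝ (box a b) := by
  intro x hx y hy s t hs ht hst i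
  have h1 := hx i
  have h2 := hy i
  simp only [PiLp.add_apply, PiLp.smul_apply, smul_eq_mul]
  constructor
  · calc a i = s * a i + t * a i := by rw [← add_mul, hst, one_mul]
      _ ≤ s * x i + t * y i :=
        add_le_add (mul_le_mul_of_nonneg_left h1.1 hs) (mul_le_mul_of_nonneg_left h2.1 ht)
  · calc s * x i + t * y i ≤ s * b i + t * b i :=
        add_le_add (mul_le_mul_of_nonneg_left h1.2 hs) (mul_le_mul_of_nonneg_left h2.2 ht)
      _ = b i := by rw [← add_mul, hst, one_mul]

theorem interior_box {a b : Fin d → ℝ} (hb : ∀ i, a i < b i) : (interior (box a b)).Nonempty := by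
  have hopen : IsOpen {x : E d | ∀ i, a i < x i ∧ x i < b i} := by
    have : {x : E d | ∀ i, a i < x i ∧ x i < b i} = ⋂ i, {x : E d | a i < x i ∧ x i < b i} := by
      ext x; simp
    rw [this]
    refine isOpen_iInter_of_finite fun i => ?_
    exact (isOpen_lt continuous_const (PiLp.continuous_apply 2 _ i)).inter
      (isOpen_lt (PiLp.continuous_apply 2 _ i) continuous_const)
  have hsub : {x : E d | ∀ i, a i < x i ∧ x i < b i} ⊆ interior (box a b) :=
    interior_maximal (fun x hx i => ⟨(hx i).1.le, (hx i).2.le⟩) hopen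
  refine ⟨WithLp.toLp 2 (fun i => (a i + b i) / 2), hsub fun i => ?_⟩
  have := hb i
  simp only
  constructor <;> linarith

theorem half_measure {B : Set (E d)} (hB : MeasurableSet B) {c v : E d}
    (hv : v ≠ 0) (hsym : ∀ x, c - x ∈ B ↔ x ∈ B) :
    volume (B ∩ {x | inner ℝ v x < inner ℝ v c / 2}) = volume B / 2 := by
  set L := B ∩ {x | inner ℝ v x < inner ℝ v c / 2} with hL
  set G := B ∩ {x | inner ℝ v c / 2 < inner ℝ v x} with hG
  have hmL : MeasurableSet L :=
    hB.inter (measurableSet_lt (measurable_const.inner measurable_id) measurable_const)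
  have hmG : MeasurableSet G :=
    hB.inter (measurableSet_lt measurable_const (measurable_const.inner measurable_id))
  have h1 : volume L = volume G := by
    have h2 : G = (fun x => c - x) ⁻¹' L := by
      ext x
      simp only [hL, hG, mem_inter_iff, mem_preimage, hsym]
      constructor
      · rintro ⟨h1, h2⟩
        refine ⟨h1, ?_⟩
        have h2' : inner ℝ v c / 2 < inner ℝ v x := h2
        show inner ℝ v (c - x) < inner ℝ v c / 2
        rw [inner_sub_right]
        linarith
      · rintro ⟨h1, h2⟩
        refine ⟨h1, ?_⟩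
        have h2' : inner ℝ v (c - x) < inner ℝ v c / 2 := h2
        rw [inner_sub_right] at h2'
        show inner ℝ v c / 2 < inner ℝ v x
        linarith
    rw [h2, (Measure.measurePreserving_sub_left volume c).measure_preimage hmL.nullMeasurableSet]
  have h3 : volume B = volume L + volume G := by
    have hz : volume (B ∩ {x | inner ℝ v x = inner ℝ v c / 2}) = 0 :=
      measure_mono_null inter_subset_right (volume_hyperplane hv _)
    have hU : B = (L ∪ G) ∪ (B ∩ {x | inner ℝ v x = inner ℝ v c / 2}) := by
      ext x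
      simp only [hL, hG, mem_union, mem_inter_iff]
      constructor
      · intro hx
        rcases lt_trichotomy (inner ℝ v x) (inner ℝ v c / 2) with h | h | h
        · exact Or.inl (Or.inl ⟨hx, h⟩)
        · exact Or.inr ⟨hx, h⟩
        · exact Or.inl (Or.inr ⟨hx, h⟩)
      · rintro ((h | h) | h) <;> exact h.1
    have hd : Disjoint L G := by
      rw [Set.disjoint_left]
      rintro x ⟨_, h1⟩ ⟨_, h2⟩
      exact lt_asymm (show inner ℝ v x < inner ℝ v c / 2 from h1) h2
    calc volume B = volume (L ∪ G) := by
          refine le_antisymm ?_ (measure_mono (union_subset inter_subset_left inter_subset_left))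
          conv_lhs => rw [hU]
          exact (measure_union_le _ _).trans (by rw [hz, add_zero])
      _ = volume L + volume G := measure_union hd hmG
  rw [h3, ← h1]
  rw [← two_mul, mul_comm, ENNReal.mul_div_cancel_right (by norm_num) (by norm_num)]


/-! ### The example -/

section Example

variable {n : ℕ}

/-- The unit cube. -/
def cube (n : ℕ) : Set (E (n + 2)) := box 0 1

theorem volume_cube : volume (cube n) = 1 := by
  unfold cube
  rw [volume_box]
  simp

theorem unif_cube_apply {A : Set (E (n + 2))} (hA : MeasurableSet A) :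
    unif (cube n) A = volume (cube n ∩ A) := by
  unfold unif
  rw [volume_cube, inv_one, one_smul, Measure.restrict_apply hA, inter_comm]

/-- First two basis vectors. -/
noncomputable def e0 : E (n + 2) := EuclideanSpace.single 0 1
/-- The second basis vector. -/
noncomputable def e1 : E (n + 2) := EuclideanSpace.single 1 1

theorem inner_e0 (x : E (n + 2)) : inner ℝ e0 x = x 0 := by
  unfold e0
  rw [EuclideanSpace.inner_single_left]
  simp

theorem inner_e1 (x : E (n + 2)) : inner ℝ e1 x = x 1 := by
  unfold e1
  rw [EuclideanSpace.inner_single_left]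
  simp

theorem norm_e0 : ‖(e0 : E (n + 2))‖ = 1 := by
  unfold e0
  simp

theorem norm_e1 : ‖(e1 : E (n + 2))‖ = 1 := by
  unfold e1
  simp

/-- Upper corner of the thin box. -/
def bw (n : ℕ) (w : ℝ) : Fin (n + 2) → ℝ := fun i => if i = 1 then w else 1

theorem volume_thin {w : ℝ} : volume (box 0 (bw n w)) = ENNReal.ofReal w := by
  rw [volume_box]
  rw [Finset.prod_eq_single (1 : Fin (n + 2))]
  · simp [bw]
  · intro i _ hi
    simp [bw, hi]
  · simp

theorem thin_sub {w : ℝ} (hw : w ≤ 1) : box 0 (bw n w) ⊆ cube n := by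
  intro x hx i
  refine ⟨(hx i).1, (hx i).2.trans ?_⟩
  unfold bw
  split_ifs
  · exact hw
  · exact le_rfl

theorem thin_symm {w : ℝ} (x : E (n + 2)) :
    WithLp.toLp 2 (bw n w) - x ∈ box 0 (bw n w) ↔ x ∈ box 0 (bw n w) := by
  constructor
  · intro h i
    have := h i
    simp only [PiLp.sub_apply, Pi.zero_apply] at this ⊢
    constructor <;> linarith [this.1, this.2]
  · intro h i
    have := h i
    simp only [PiLp.sub_apply, Pi.zero_apply] at this ⊢
    constructor <;> linarith [this.1, this.2]

theorem bw_one (w : ℝ) : bw n w 1 = w := by simp [bw]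
theorem bw_zero (w : ℝ) : bw n w 0 = 1 := by simp [bw]

/-- mass of the lower atom, horizontal strip -/
theorem mass_S {w : ℝ} (hw0 : 0 < w) (hw1 : w ≤ 1) :
    unif (cube n) (low 0 e1 (w / 2)) = ENNReal.ofReal w / 2 := by
  rw [unif_cube_apply (measurableSet_low _ _ _)]
  have h1 : cube n ∩ low 0 e1 (w / 2) = box 0 (bw n w) ∩
      {x | inner ℝ e1 x < inner ℝ e1 (WithLp.toLp 2 (bw n w)) / 2} := by
    ext x
    simp only [mem_inter_iff]
    constructor
    · rintro ⟨h, h2⟩
      have h2' : inner ℝ (e1 - 0) x < w / 2 := h2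
      rw [sub_zero, inner_e1] at h2'
      refine ⟨fun i => ⟨(h i).1, ?_⟩, ?_⟩
      · unfold bw
        split_ifs with hi
        · rw [hi]; linarith
        · exact (h i).2
      · show inner ℝ e1 x < inner ℝ e1 (WithLp.toLp 2 (bw n w)) / 2
        rw [inner_e1, inner_e1]
        simpa [bw] using h2'
    · rintro ⟨h, h2⟩
      have h2' : inner ℝ e1 x < inner ℝ e1 (WithLp.toLp 2 (bw n w)) / 2 := h2
      rw [inner_e1, inner_e1] at h2'
      refine ⟨thin_sub hw1 h, ?_⟩
      show inner ℝ (e1 - 0) x < w / 2
      rw [sub_zero, inner_e1]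
      simpa [bw] using h2'
  rw [h1, half_measure (isCompact_box _ _).measurableSet ?_ thin_symm, volume_thin]
  intro h
  have := norm_e1 (n := n)
  rw [h, norm_zero] at this
  exact one_ne_zero this.symm

/-- mass of the lower atom, tilted strip -/
theorem mass_T {w : ℝ} (hw0 : 0 < w) (hw1 : w ≤ 1) :
    unif (cube n) (low (w • e0) e1 0) = ENNReal.ofReal w / 2 := by
  rw [unif_cube_apply (measurableSet_low _ _ _)]
  have h1 : cube n ∩ low (w • e0) e1 0 = box 0 (bw n w) ∩
      {x | inner ℝ (e1 - w • e0) x < inner ℝ (e1 - w • e0) (WithLp.toLp 2 (bw n w)) / 2} := by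
    have hc : inner ℝ (e1 - w • e0) (WithLp.toLp 2 (bw n w)) / 2 = 0 := by
      rw [inner_sub_left, inner_smul_left, inner_e1, inner_e0]
      simp [bw]
    ext x
    simp only [mem_inter_iff]
    constructor
    · rintro ⟨h, h2⟩
      have h2' : inner ℝ (e1 - w • e0) x < 0 := h2
      refine ⟨fun i => ⟨(h i).1, ?_⟩, ?_⟩
      · unfold bw
        split_ifs with hi
        · rw [hi]
          rw [inner_sub_left, inner_smul_left, inner_e1, inner_e0] at h2'
          have h3 := (h 0).2
          simp only [Pi.one_apply, conj_trivial] at h3 h2'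
          nlinarith
        · exact (h i).2
      · show inner ℝ (e1 - w • e0) x < inner ℝ (e1 - w • e0) (WithLp.toLp 2 (bw n w)) / 2
        rw [hc]; exact h2'
    · rintro ⟨h, h2⟩
      have h2' : inner ℝ (e1 - w • e0) x < inner ℝ (e1 - w • e0) (WithLp.toLp 2 (bw n w)) / 2 := h2
      rw [hc] at h2'
      exact ⟨thin_sub hw1 h, h2'⟩
  rw [h1, half_measure (isCompact_box _ _).measurableSet ?_ thin_symm, volume_thin]
  intro h
  have h2 : inner ℝ e1 (e1 - w • (e0 : E (n + 2))) = 0 := by rw [h, inner_zero_right]
  rw [inner_e1] at h2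
  simp [e0, e1] at h2

theorem e0_apply_zero : (e0 : E (n + 2)) 0 = 1 := by simp [e0]
theorem e0_apply_one : (e0 : E (n + 2)) 1 = 0 := by simp [e0]
theorem e1_apply_one : (e1 : E (n + 2)) 1 = 1 := by simp [e1]

theorem ne_T (w : ℝ) : (w • e0 : E (n + 2)) ≠ e1 := by
  intro h
  have := congrArg (fun x : E (n + 2) => x 1) h
  simp only [PiLp.smul_apply, e0_apply_one, e1_apply_one, smul_eq_mul, mul_zero] at this
  exact zero_ne_one this

theorem ne_S : (0 : E (n + 2)) ≠ e1 := by
  intro h
  have := congrArg (fun x : E (n + 2) => x 1) h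
  simp only [PiLp.zero_apply, e1_apply_one] at this
  exact zero_ne_one this

/-- The region where the two maps differ. -/
theorem diff_lower {w : ℝ} (hw0 : 0 < w) (hw1 : w ≤ 1) :
    ENNReal.ofReal (w / 32) ≤
      ∫⁻ x, ‖two (w • e0) e1 0 x - two 0 e1 (w / 2) x‖ₑ ^ 2 ∂unif (cube n) := by
  set a : Fin (n + 2) → ℝ := fun i => if i = 1 then w / 4 else 0 with ha
  set b : Fin (n + 2) → ℝ := fun i => if i = 1 then 3 * w / 8 else if i = 0 then 1 / 4 else 1 with hb
  have hQK : box a b ⊆ cube n := by
    intro x hx i
    have h := hx i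
    simp only [ha, hb] at h
    simp only [Pi.zero_apply, Pi.one_apply]
    split_ifs at h <;> constructor <;> linarith [h.1, h.2]
  have hvol : volume (box a b) = ENNReal.ofReal (w / 32) := by
    rw [volume_box, Fin.prod_univ_succ, Fin.prod_univ_succ]
    have h2 : ∀ i : Fin n, ENNReal.ofReal (b i.succ.succ - a i.succ.succ) = 1 := by
      intro i
      have h1 : (i.succ.succ : Fin (n + 2)) ≠ 1 := by
        intro h
        have := congrArg Fin.val h
        simp at this
      have h0 : (i.succ.succ : Fin (n + 2)) ≠ 0 := Fin.succ_ne_zero _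
      simp [ha, hb, h1, h0]
    rw [Finset.prod_congr rfl (fun i _ => h2 i)]
    have h01 : (0 : Fin (n + 2)) ≠ 1 := by simp
    have hs : (Fin.succ (0 : Fin (n + 1))) = (1 : Fin (n + 2)) := rfl
    rw [hs]
    simp only [ha, hb, if_true, h01, if_false, Finset.prod_const_one, mul_one]
    rw [← ENNReal.ofReal_mul (by norm_num)]
    congr 1
    ring
  calc ENNReal.ofReal (w / 32) = unif (cube n) (box a b) := by
        rw [unif_cube_apply (isCompact_box _ _).measurableSet, inter_eq_self_of_subset_right hQK, hvol]
    _ = ∫⁻ x in box a b, 1 ∂unif (cube n) := by simp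
    _ ≤ ∫⁻ x in box a b, ‖two (w • e0) e1 0 x - two 0 e1 (w / 2) x‖ₑ ^ 2 ∂unif (cube n) := by
        refine setLIntegral_mono' (isCompact_box _ _).measurableSet fun x hx => ?_
        have h0 := hx 0
        have h1 := hx 1
        have h01 : (0 : Fin (n + 2)) ≠ 1 := by simp
        simp only [ha, hb, if_true, h01, if_false] at h0 h1
        have hT : two (w • e0) e1 0 x = e1 := by
          refine if_neg ?_
          intro hlow
          have h2 : inner ℝ (e1 - w • e0) x < 0 := hlow
          rw [inner_sub_left, inner_smul_left, inner_e1, inner_e0] at h2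
          simp only [conj_trivial] at h2
          nlinarith [h0.1, h0.2, h1.1, h1.2]
        have hS : two 0 e1 (w / 2) x = 0 := by
          refine if_pos ?_
          show inner ℝ (e1 - 0) x < w / 2
          rw [sub_zero, inner_e1]
          linarith [h1.2]
        rw [hT, hS, sub_zero, ← ofReal_norm, norm_e1]
        simp
    _ ≤ _ := setLIntegral_le_lintegral _ _

theorem upper_bound {α : ℝ} (h : Admissible (n + 2) α) : α ≤ 1 / 3 := by
  by_contra hα
  push Not at hα
  obtain ⟨hα0, hα1, h⟩ := h
  have hK : IsCompact (cube n) := isCompact_box _ _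
  have hKc : Convex ℝ (cube n) := convex_box _ _
  have hKi : (interior (cube n)).Nonempty := interior_box (fun i => by simp)
  obtain ⟨C, hC⟩ := h (cube n) hK hKc hKi (Metric.closedBall 0 1) (isCompact_closedBall _ _)
    ⟨0, by simp⟩
  have hprob := unif_prob hK hKi
  -- the key inequality
  have key : ∀ w : ℝ, 0 < w → w ≤ 1 → (w / 32) ^ (1 / 2 : ℝ) ≤ C * w ^ (3 / 2 * α) := by
    intro w hw0 hw1
    set T : E (n + 2) → E (n + 2) := two (w • e0) e1 0 with hT
    set S : E (n + 2) → E (n + 2) := two 0 e1 (w / 2) with hS
    have hTm : Measurable T := measurable_two _ _ _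
    have hSm : Measurable S := measurable_two _ _ _
    have hpT : ((unif (cube n)).map T) (Metric.closedBall 0 1)ᶜ = 0 := by
      rw [Measure.map_apply hTm measurableSet_closedBall.compl]
      convert measure_empty (μ := unif (cube n))
      ext x
      simp only [mem_preimage, mem_compl_iff, Metric.mem_closedBall, dist_zero_right,
        mem_empty_iff_false, iff_false, not_not, hT, two]
      split_ifs
      · rw [norm_smul, norm_e0, mul_one, Real.norm_of_nonneg hw0.le]; exact hw1
      · exact norm_e1.le
    have hpS : ((unif (cube n)).map S) (Metric.closedBall 0 1)ᶜ = 0 := by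
      rw [Measure.map_apply hSm measurableSet_closedBall.compl]
      convert measure_empty (μ := unif (cube n))
      ext x
      simp only [mem_preimage, mem_compl_iff, Metric.mem_closedBall, dist_zero_right,
        mem_empty_iff_false, iff_false, not_not, hS, two]
      split_ifs
      · simp
      · exact norm_e1.le
    have hineq := hC ((unif (cube n)).map T) ((unif (cube n)).map S)
      ⟨Measure.isProbabilityMeasure_map hTm.aemeasurable, hpT⟩
      ⟨Measure.isProbabilityMeasure_map hSm.aemeasurable, hpS⟩ T S
      (isOptimal_two hK hKi (ne_T w) 0) (isOptimal_two hK hKi ne_S (w / 2))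
    -- lower bound
    have hlow : ENNReal.ofReal ((w / 32) ^ (1 / 2 : ℝ)) ≤
        eLpNorm (fun x => T x - S x) 2 (unif (cube n)) := by
      rw [eLpNorm_eq_lintegral_rpow_enorm_toReal (by norm_num) (by norm_num)]
      rw [← ENNReal.ofReal_rpow_of_nonneg (by positivity) (by norm_num)]
      have h2 : (2 : ℝ≥0∞).toReal = 2 := by norm_num
      rw [h2]
      refine ENNReal.rpow_le_rpow ?_ (by norm_num)
      simpa using diff_lower (n := n) hw0 hw1
    -- upper bound
    have hmT := mass_T (n := n) hw0 hw1
    have hmS := mass_S (n := n) hw0 hw1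
    have hW : W2 ((unif (cube n)).map T) ((unif (cube n)).map S) ≤
        ENNReal.ofReal (w ^ (3 / 2 : ℝ)) := by
      rw [hT, hS, map_two, map_two, prob_compl_eq_one_sub (measurableSet_low _ _ _),
        prob_compl_eq_one_sub (measurableSet_low _ _ _), hmT, hmS]
      refine (W2_two_le _ _).trans ?_
      rw [sub_zero]
      have h1 : ‖(w • e0 : E (n + 2))‖ₑ = ENNReal.ofReal w := by
        rw [← ofReal_norm, norm_smul, norm_e0, mul_one, Real.norm_of_nonneg hw0.le]
      rw [h1]
      have h2 : ENNReal.ofReal (w ^ (3 / 2 : ℝ)) = (ENNReal.ofReal (w ^ 3)) ^ (1 / 2 : ℝ) := by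
        rw [ENNReal.ofReal_rpow_of_nonneg (by positivity) (by norm_num)]
        congr 1
        rw [← Real.rpow_natCast w 3, ← Real.rpow_mul hw0.le]
        norm_num
      rw [h2]
      refine ENNReal.rpow_le_rpow ?_ (by norm_num)
      calc ENNReal.ofReal w / 2 * ENNReal.ofReal w ^ 2
          ≤ ENNReal.ofReal w * ENNReal.ofReal w ^ 2 := by
            gcongr
            exact ENNReal.half_le_self
        _ = ENNReal.ofReal (w ^ 3) := by
            rw [← ENNReal.ofReal_pow hw0.le, ← ENNReal.ofReal_mul hw0.le]
            congr 1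
            ring
    have hfin : ENNReal.ofReal ((w / 32) ^ (1 / 2 : ℝ)) ≤ ENNReal.ofReal (C * w ^ (3 / 2 * α)) := by
      calc ENNReal.ofReal ((w / 32) ^ (1 / 2 : ℝ)) ≤ _ := hlow
        _ ≤ _ := hineq
        _ ≤ C * (ENNReal.ofReal (w ^ (3 / 2 : ℝ))) ^ α := by
            gcongr
        _ = ENNReal.ofReal (C * w ^ (3 / 2 * α)) := by
            rw [ENNReal.ofReal_rpow_of_nonneg (by positivity) hα0.le, ← Real.rpow_mul hw0.le,
              ENNReal.ofReal_mul (NNReal.coe_nonneg C), ENNReal.ofReal_coe_nnreal]
    exact (ENNReal.ofReal_le_ofReal_iff (by positivity)).1 hfin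
  -- contradiction as w tends to zero
  have hlim : Tendsto (fun w : ℝ => (C : ℝ) * w ^ (3 / 2 * α - 1 / 2)) (𝓝[>] 0) (𝓝 (C * 0)) := by
    refine Tendsto.const_mul _ ?_
    have h1 : Tendsto (fun w : ℝ => w ^ (3 / 2 * α - 1 / 2)) (𝓝 0)
        (𝓝 (0 ^ (3 / 2 * α - 1 / 2))) :=
      (Real.continuousAt_rpow_const 0 _ (Or.inr (by linarith))).tendsto
    rw [Real.zero_rpow (by linarith)] at h1
    exact h1.mono_left nhdsWithin_le_nhds
  rw [mul_zero] at hlim
  have hev : ∀ᶠ w : ℝ in 𝓝[>] 0, (1 / 32 : ℝ) ^ (1 / 2 : ℝ) ≤ C * w ^ (3 / 2 * α - 1 / 2) := by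
    have h1 : ∀ᶠ w : ℝ in 𝓝[>] 0, w ≤ 1 :=
      (eventually_le_nhds (zero_lt_one)).filter_mono nhdsWithin_le_nhds
    filter_upwards [h1, self_mem_nhdsWithin] with w hw1 hw0
    have hw0' : (0 : ℝ) < w := hw0
    have h2 := key w hw0' hw1
    rw [show w / 32 = (1 / 32) * w by ring, Real.mul_rpow (by norm_num) hw0'.le] at h2
    rw [Real.rpow_sub hw0', ← mul_div_assoc, le_div_iff₀ (by positivity)]
    exact h2
  have hle := ge_of_tendsto hlim hev
  have hpos : (0 : ℝ) < (1 / 32 : ℝ) ^ (1 / 2 : ℝ) := by positivity
  linarith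

end Example

end Vale.Agent.P074
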