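import Vale.Agent.Lib.P074.ApproxOpt
import Vale.Agent.Lib.P074.Discrete
import Vale.Agent.Lib.P074.Primal
import Vale.Agent.Lib.P074.Path
import Vale.Agent.Lib.P074.Upper

open MeasureTheory Set Filter Topology
open scoped ENNReal NNReal

set_option linter.unusedSectionVars false

namespace Vale.Agent.P074

variable {d : ℕ} {K : Set (E d)}

theorem integral_map_lip {μ : Measure (E d)} {T : E d → E d} (hT : IsOptimalMap K μ T)
    {h : E d → ℝ} (hh : Continuous h) : ∫ x, h (T x) ∂unif K = ∫ y, h y ∂μ := by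
  rw [← hT.2.1, integral_map hT.1.aemeasurable hh.aestronglyMeasurable]

theorem ae_bound_of_optimal {μ : Measure (E d)} {T : E d → E d} (hT : IsOptimalMap K μ T)
    {Y : Set (E d)} (hY : IsCompact Y) (hμ : IsProbOn Y μ) {R : ℝ} (hYR : ∀ y ∈ Y, ‖y‖ ≤ R) :
    ∀ᵐ x ∂unif K, ‖T x‖ ≤ R := by
  have h1 : ∀ᵐ y ∂μ, y ∈ Y := by rw [ae_iff]; exact hμ.2
  rw [← hT.2.1] at h1
  have h2 := (ae_map_iff (p := fun y => y ∈ Y) hT.1.aemeasurable hY.measurableSet).1 h1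
  exact h2.mono fun x hx => hYR _ hx

/-- An optimal map is close to the semi-discrete map of any close discrete target. -/
theorem optimal_near (hK : IsCompact K) (hKc : Convex ℝ K) (hKi : (interior K).Nonempty) {R : ℝ}
    (hR : 0 ≤ R) : ∃ C : ℝ, 0 < C ∧ ∀ (μ : Measure (E d)) (T : E d → E d), IsOptimalMap K μ T →
    (∀ᵐ x ∂unif K, ‖T x‖ ≤ R) → ∀ (κ : Type) [Fintype κ] [Nonempty κ] (y : κ → E d) (ψ : κ → ℝ)
    (m : κ → ℝ), Function.Injective y → (∀ i, ‖y i‖ ≤ R) →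
    (∀ i, (unif K).real (cell K y ψ i) = m i) → ∀ ε : ℝ, 0 < ε →
    (∀ h : E d → ℝ, (∀ a b, |h a - h b| ≤ ‖a - b‖) → |∫ x, h x ∂μ - ∑ i, m i * h (y i)| ≤ ε) →
    ∫ x, ‖T x - smap K y ψ x‖ ∂unif K ≤ C * √(2 * ε) + ε := by
  have := unif_prob hK hKi
  obtain ⟨C, hC0, hC⟩ := semi_stab hK hKc hKi hR
  refine ⟨C, hC0, ?_⟩
  intro μ T hT hTR κ _ _ y ψ m hy hyR hmass ε hε hclose
  obtain ⟨ι, i1, i2, z, θ, hz, hzR, hzT⟩ := approx_optimal hK hKc hKi hT hR hTR hε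
  have hAm := measurable_smap hK z θ
  have hAR := ae_norm_smap hK hz θ hzR
  have hBm := measurable_smap hK y ψ
  have hBR := ae_norm_smap hK hy ψ hyR
  have key : ∫ x, ‖smap K z θ x - smap K y ψ x‖ ∂unif K ≤ C * √(2 * ε) := by
    refine hC κ ι y ψ z θ hy hz hyR hzR (2 * ε) (by positivity) fun h hh => ?_
    have hh' : ∀ a b, |h a - h b| ≤ 1 * ‖a - b‖ := fun a b => by rw [one_mul]; exact hh a b
    have hc := continuous_of_lip hh'
    have h1 := hclose h hh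
    rw [integral_comp_smap hK hKi hy ψ hc]
    simp only [hmass]
    have h2 : |(∫ x, h (T x) ∂unif K) - ∫ x, h (smap K z θ x) ∂unif K| ≤ ε := by
      rw [← integral_sub (integrable_lip_comp hK hKi hT.1 hTR zero_le_one hh')
        (integrable_lip_comp hK hKi hAm hAR zero_le_one hh')]
      refine abs_integral_le_integral_abs.trans (le_trans ?_ hzT)
      refine integral_mono ((integrable_lip_comp hK hKi hT.1 hTR zero_le_one hh').sub
        (integrable_lip_comp hK hKi hAm hAR zero_le_one hh')).abs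
        (integrable_norm_sub hT.1 hAm hTR hAR) fun x => hh _ _
    rw [integral_map_lip hT hc] at h2
    have h3 := abs_le.1 h1
    have h4 := abs_le.1 h2
    rw [abs_le]
    constructor <;> linarith [h3.1, h3.2, h4.1, h4.2]
  have tri := integral_norm_sub_triangle (ρ := unif K) (A := T) (B := smap K z θ)
    (C := smap K y ψ) (integrable_norm_sub hT.1 hAm hTR hAR) (integrable_norm_sub hAm hBm hAR hBR)
    (integrable_norm_sub hT.1 hBm hTR hBR)
  linarith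

theorem integral_sq_le {ρ : Measure (E d)} [IsProbabilityMeasure ρ] {A B : E d → E d}
    (hA : Measurable A) (hB : Measurable B) {R : ℝ} (hR : 0 ≤ R) (hAR : ∀ᵐ x ∂ρ, ‖A x‖ ≤ R)
    (hBR : ∀ᵐ x ∂ρ, ‖B x‖ ≤ R) :
    ∫ x, ‖A x - B x‖ ^ 2 ∂ρ ≤ 2 * R * ∫ x, ‖A x - B x‖ ∂ρ := by
  rw [← integral_const_mul]
  refine integral_mono_ae ?_ ((integrable_norm_sub hA hB hAR hBR).const_mul _) ?_
  · refine Integrable.of_bound ((hA.sub hB).norm.pow_const 2).aestronglyMeasurable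
      ((R + R) ^ 2) ?_
    filter_upwards [hAR, hBR] with x h1 h2
    rw [Real.norm_of_nonneg (by positivity)]
    exact pow_le_pow_left₀ (norm_nonneg _) ((norm_sub_le _ _).trans (add_le_add h1 h2)) 2
  · filter_upwards [hAR, hBR] with x h1 h2
    have h3 : ‖A x - B x‖ ≤ 2 * R := (norm_sub_le _ _).trans (by linarith)
    rw [sq]
    exact mul_le_mul_of_nonneg_right h3 (norm_nonneg _)

theorem integrable_sq_sub {ρ : Measure (E d)} [IsProbabilityMeasure ρ] {A B : E d → E d}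
    (hA : Measurable A) (hB : Measurable B) {R : ℝ} (hAR : ∀ᵐ x ∂ρ, ‖A x‖ ≤ R)
    (hBR : ∀ᵐ x ∂ρ, ‖B x‖ ≤ R) : Integrable (fun x => ‖A x - B x‖ ^ 2) ρ := by
  refine Integrable.of_bound ((hA.sub hB).norm.pow_const 2).aestronglyMeasurable
    ((R + R) ^ 2) ?_
  filter_upwards [hAR, hBR] with x h1 h2
  rw [Real.norm_of_nonneg (by positivity)]
  exact pow_le_pow_left₀ (norm_nonneg _) ((norm_sub_le _ _).trans (add_le_add h1 h2)) 2

/-- The stability estimate, for each coupling. -/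
theorem real_stability (hd : 0 < d) (hK : IsCompact K) (hKc : Convex ℝ K)
    (hKi : (interior K).Nonempty) {Y : Set (E d)} (hY : IsCompact Y) {R : ℝ} (hR : 0 ≤ R)
    (hYR : ∀ y ∈ Y, ‖y‖ ≤ R) :
    ∃ Q : ℝ, 0 < Q ∧ ∀ μ ν : Measure (E d), IsProbOn Y μ → IsProbOn Y ν →
      ∀ T S : E d → E d, IsOptimalMap K μ T → IsOptimalMap K ν S →
      ∀ π : Measure (E d × E d), IsCoupling μ ν π →
      ∫ x, ‖T x - S x‖ ^ 2 ∂unif K ≤ Q * (∫ p, ‖p.1 - p.2‖ ^ 2 ∂π) ^ (1 / 3 : ℝ) := by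
  have := unif_prob hK hKi
  obtain ⟨D, hD0, hD⟩ := exists_bound hK
  have hR1 : 0 ≤ R + 1 := by linarith
  obtain ⟨C₁, hC₁0, hC₁⟩ := optimal_near hK hKc hKi hR1
  obtain ⟨C₂, hC₂0, hC₂⟩ := l2_cbrt hK hKc hKi hR1
  set C₃ : ℝ := 4 * 288001 * D ^ 2 with hC₃
  have hC₃0 : 0 < C₃ := by positivity
  refine ⟨3 * C₂ * C₃ ^ (1 / 3 : ℝ), by positivity, ?_⟩
  intro μ ν hμ hν T S hT hS π hπ
  set J := ∫ p, ‖p.1 - p.2‖ ^ 2 ∂π with hJ
  have hJ0 : 0 ≤ J := integral_nonneg fun p => by positivity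
  have hTR := (ae_bound_of_optimal hT hY hμ hYR).mono fun x hx => hx.trans (by linarith : R ≤ R + 1)
  have hSR := (ae_bound_of_optimal hS hY hν hYR).mono fun x hx => hx.trans (by linarith : R ≤ R + 1)
  -- estimate for each ε
  have key : ∀ ε : ℝ, 0 < ε → ∫ x, ‖T x - S x‖ ^ 2 ∂unif K ≤
      3 * (2 * (2 * (R + 1) * (C₁ * √(2 * ε) + ε)) + C₂ * (C₃ * (J + ε)) ^ (1 / 3 : ℝ)) := by
    intro ε hε
    obtain ⟨n, y, y', m, hy, hy', hm, hsum, hyR, hyR', hh, hh', hW⟩ :=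
      exists_discretization hd hY hYR hμ hν hπ hε
    obtain ⟨ψ, hψ⟩ := exists_psi hK hKi hy hm hsum
    obtain ⟨ψ', hψ'⟩ := exists_psi hK hKi hy' hm hsum
    have hAm := measurable_smap hK y ψ
    have hAR := ae_norm_smap hK hy ψ hyR
    have hBm := measurable_smap hK y' ψ'
    have hBR := ae_norm_smap hK hy' ψ' hyR'
    have hTA := hC₁ μ T hT hTR (Fin (n + 1)) y ψ m hy hyR hψ ε hε hh
    have hSB := hC₁ ν S hS hSR (Fin (n + 1)) y' ψ' m hy' hyR' hψ' ε hε hh'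
    obtain ⟨c, hc⟩ := main_ineq hKc hK hKi hD0 hD hy hy' hm hsum hψ hψ'
    have hp := primal_ineq hK hKi hD hy hy' hψ hψ' c
    have hsymm : ∑ i, m i * ‖y' i - y i‖ ^ 2 = ∑ i, m i * ‖y i - y' i‖ ^ 2 :=
      Finset.sum_congr rfl fun i _ => by rw [norm_sub_rev]
    rw [hsymm] at hc hp
    have hU : ∫ x, (pot y ψ x - pot y' ψ' x - c) ^ 2 ∂unif K ≤ C₃ * (J + ε) := by
      have h1 : C₃ * ∑ i, m i * ‖y i - y' i‖ ^ 2 ≤ C₃ * (J + ε) :=
        mul_le_mul_of_nonneg_left hW hC₃0.le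
      rw [hC₃] at h1 ⊢
      linarith
    have hAB := hC₂ (pot y ψ) (pot y' ψ') (smap K y' ψ') (smap K y ψ) c (convexOn_pot y ψ)
      (pot_lip hyR ψ) (pot_lip hyR' ψ') hBm hAm hBR hAR
      ((smap_sub hK hy ψ).mono fun x hx y _ => hx y)
      ((smap_sub hK hy' ψ').mono fun x hx y _ => hx y) (C₃ * (J + ε)) (by positivity) hU
    have h1 := integral_sq_le hT.1 hAm hR1 hTR hAR
    have h2 := integral_sq_le hS.1 hBm hR1 hSR hBR
    have h1' : ∫ x, ‖T x - smap K y ψ x‖ ^ 2 ∂unif K ≤ 2 * (R + 1) * (C₁ * √(2 * ε) + ε) :=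
      h1.trans (mul_le_mul_of_nonneg_left hTA (by positivity))
    have h2' : ∫ x, ‖S x - smap K y' ψ' x‖ ^ 2 ∂unif K ≤ 2 * (R + 1) * (C₁ * √(2 * ε) + ε) :=
      h2.trans (mul_le_mul_of_nonneg_left hSB (by positivity))
    have k1 := integrable_sq_sub (ρ := unif K) hT.1 hAm hTR hAR
    have k2 := integrable_sq_sub (ρ := unif K) hS.1 hBm hSR hBR
    have k3 := integrable_sq_sub (ρ := unif K) hBm hAm hBR hAR
    have k4 := integrable_sq_sub (ρ := unif K) hT.1 hS.1 hTR hSR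
    calc ∫ x, ‖T x - S x‖ ^ 2 ∂unif K
        ≤ ∫ x, 3 * (‖T x - smap K y ψ x‖ ^ 2 + ‖S x - smap K y' ψ' x‖ ^ 2
            + ‖smap K y' ψ' x - smap K y ψ x‖ ^ 2) ∂unif K := by
          refine integral_mono k4 (((k1.add k2).add k3).const_mul 3) fun x => ?_
          have h3 : ‖T x - S x‖ ≤ ‖T x - smap K y ψ x‖ + ‖S x - smap K y' ψ' x‖
              + ‖smap K y' ψ' x - smap K y ψ x‖ := by
            have e : T x - S x = (T x - smap K y ψ x) + (-(S x - smap K y' ψ' x))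
                + (-(smap K y' ψ' x - smap K y ψ x)) := by abel
            rw [e]
            refine (norm_add_le _ _).trans ?_
            rw [norm_neg]
            refine add_le_add ((norm_add_le _ _).trans ?_) le_rfl
            rw [norm_neg]
          have h4 := pow_le_pow_left₀ (norm_nonneg _) h3 2
          refine h4.trans ?_
          have a1 := sq_nonneg (‖T x - smap K y ψ x‖ - ‖S x - smap K y' ψ' x‖)
          have a2 := sq_nonneg (‖T x - smap K y ψ x‖ - ‖smap K y' ψ' x - smap K y ψ x‖)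
          have a3 := sq_nonneg (‖S x - smap K y' ψ' x‖ - ‖smap K y' ψ' x - smap K y ψ x‖)
          nlinarith
      _ = 3 * ((∫ x, ‖T x - smap K y ψ x‖ ^ 2 ∂unif K) + (∫ x, ‖S x - smap K y' ψ' x‖ ^ 2 ∂unif K)
            + ∫ x, ‖smap K y' ψ' x - smap K y ψ x‖ ^ 2 ∂unif K) := by
          have k12 : Integrable (fun x => ‖T x - smap K y ψ x‖ ^ 2 + ‖S x - smap K y' ψ' x‖ ^ 2)
            (unif K) := k1.add k2
          rw [integral_const_mul, integral_add k12 k3, integral_add k1 k2]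
      _ ≤ _ := by
          refine mul_le_mul_of_nonneg_left ?_ (by norm_num)
          linarith
  -- let ε tend to zero
  have hlim : Tendsto (fun ε : ℝ => 3 * (2 * (2 * (R + 1) * (C₁ * √(2 * ε) + ε))
      + C₂ * (C₃ * (J + ε)) ^ (1 / 3 : ℝ))) (𝓝[>] 0)
      (𝓝 (3 * (2 * (2 * (R + 1) * (C₁ * √(2 * 0) + 0)) + C₂ * (C₃ * (J + 0)) ^ (1 / 3 : ℝ)))) := by
    refine Tendsto.mono_left ?_ nhdsWithin_le_nhds
    have hc1 : Continuous (fun ε : ℝ => 3 * (2 * (2 * (R + 1) * (C₁ * √(2 * ε) + ε))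
      + C₂ * (C₃ * (J + ε)) ^ (1 / 3 : ℝ))) := by
      have hc2 : Continuous (fun ε : ℝ => (C₃ * (J + ε)) ^ (1 / 3 : ℝ)) :=
        (Real.continuous_rpow_const (by norm_num)).comp (by fun_prop)
      fun_prop
    exact hc1.tendsto 0
  have hle := ge_of_tendsto hlim (by
    filter_upwards [self_mem_nhdsWithin] with ε hε
    exact key ε hε)
  simp only [mul_zero, Real.sqrt_zero, add_zero, zero_add] at hle
  rw [Real.mul_rpow hC₃0.le hJ0] at hle
  calc ∫ x, ‖T x - S x‖ ^ 2 ∂unif K ≤ _ := hle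
    _ = _ := by ring

theorem lower_bound (hd : 0 < d) : Admissible d (1 / 3) := by
  refine ⟨by norm_num, by norm_num, ?_⟩
  intro K hK hKc hKi Y hY hYn
  have := unif_prob hK hKi
  obtain ⟨R, hR0, hYR⟩ := exists_bound hY
  obtain ⟨Q, hQ0, hQ⟩ := real_stability hd hK hKc hKi hY hR0.le hYR
  refine ⟨(√Q).toNNReal, ?_⟩
  intro μ ν hμ hν T S hT hS
  have hTR := ae_bound_of_optimal hT hY hμ hYR
  have hSR := ae_bound_of_optimal hS hY hν hYR
  have hC : ((√Q).toNNReal : ℝ≥0∞) = ENNReal.ofReal (√Q) := rfl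
  rw [hC]
  set C : ℝ≥0∞ := ENNReal.ofReal (√Q) with hCdef
  have hC0 : C ≠ 0 := by
    rw [hCdef, Ne, ENNReal.ofReal_eq_zero, not_le]
    exact Real.sqrt_pos.2 hQ0
  have hCt : C ≠ ∞ := ENNReal.ofReal_ne_top
  set X := eLpNorm (fun x => T x - S x) 2 (unif K) with hX
  have hXeq : X = ENNReal.ofReal ((∫ x, ‖T x - S x‖ ^ 2 ∂unif K) ^ (1 / 2 : ℝ)) := by
    rw [hX, eLpNorm_eq_lintegral_rpow_enorm_toReal (by norm_num) (by norm_num),
      ← ENNReal.ofReal_rpow_of_nonneg (integral_nonneg fun x => by positivity) (by norm_num)]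
    have h2 : (2 : ℝ≥0∞).toReal = 2 := by norm_num
    rw [h2, integral_eq_lintegral_of_nonneg_ae (Filter.Eventually.of_forall fun x => by positivity)
      (show AEStronglyMeasurable (fun x => ‖T x - S x‖ ^ 2) (unif K) from
        ((hT.1.sub hS.1).norm.pow_const 2).aestronglyMeasurable), ENNReal.ofReal_toReal]
    · congr 1
      refine lintegral_congr fun x => ?_
      rw [ENNReal.ofReal_pow (norm_nonneg _), ofReal_norm]
      norm_num
    · exact (integrable_sq_sub hT.1 hS.1 hTR hSR).lintegral_lt_top.ne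
  have hone : ∀ π : Measure (E d × E d), IsCoupling μ ν π →
      X ≤ C * ((∫⁻ p, ‖p.1 - p.2‖ₑ ^ 2 ∂π) ^ (1 / 2 : ℝ)) ^ (1 / 3 : ℝ) := by
    intro π hπ
    have h1 := hQ μ ν hμ hν T S hT hS π hπ
    have hJ : ENNReal.ofReal (∫ p, ‖p.1 - p.2‖ ^ 2 ∂π) ≤ ∫⁻ p, ‖p.1 - p.2‖ₑ ^ 2 ∂π := by
      rw [integral_eq_lintegral_of_nonneg_ae (Filter.Eventually.of_forall fun x => by positivity)
        (show AEStronglyMeasurable (fun p : E d × E d => ‖p.1 - p.2‖ ^ 2) π from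
        ((measurable_fst.sub measurable_snd).norm.pow_const 2).aestronglyMeasurable)]
      refine ENNReal.ofReal_toReal_le.trans (le_of_eq ?_)
      refine lintegral_congr fun x => ?_
      rw [ENNReal.ofReal_pow (norm_nonneg _), ofReal_norm]
    set J := ∫ p, ‖p.1 - p.2‖ ^ 2 ∂π
    have hJ0 : 0 ≤ J := integral_nonneg fun p => by positivity
    have h2 : (∫ x, ‖T x - S x‖ ^ 2 ∂unif K) ^ (1 / 2 : ℝ) ≤ √Q * (J ^ (1 / 2 : ℝ)) ^ (1 / 3 : ℝ) := by
      calc (∫ x, ‖T x - S x‖ ^ 2 ∂unif K) ^ (1 / 2 : ℝ) ≤ (Q * J ^ (1 / 3 : ℝ)) ^ (1 / 2 : ℝ) :=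
            Real.rpow_le_rpow (integral_nonneg fun x => by positivity) h1 (by norm_num)
        _ = √Q * (J ^ (1 / 2 : ℝ)) ^ (1 / 3 : ℝ) := by
            rw [Real.mul_rpow hQ0.le (by positivity), ← Real.sqrt_eq_rpow, ← Real.rpow_mul hJ0,
              ← Real.rpow_mul hJ0]
            congr 2
            norm_num
    rw [hXeq]
    calc ENNReal.ofReal ((∫ x, ‖T x - S x‖ ^ 2 ∂unif K) ^ (1 / 2 : ℝ))
        ≤ ENNReal.ofReal (√Q * (J ^ (1 / 2 : ℝ)) ^ (1 / 3 : ℝ)) := ENNReal.ofReal_le_ofReal h2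
      _ = C * ((ENNReal.ofReal J) ^ (1 / 2 : ℝ)) ^ (1 / 3 : ℝ) := by
          rw [ENNReal.ofReal_mul (Real.sqrt_nonneg _), ENNReal.ofReal_rpow_of_nonneg hJ0 (by norm_num),
            ENNReal.ofReal_rpow_of_nonneg (by positivity) (by norm_num)]
      _ ≤ C * ((∫⁻ p, ‖p.1 - p.2‖ₑ ^ 2 ∂π) ^ (1 / 2 : ℝ)) ^ (1 / 3 : ℝ) := by
          gcongr
  -- infimum
  have hinf : (X / C) ^ (3 : ℝ) ≤ W2 μ ν := by
    unfold W2
    refine le_iInf₂ fun π hπ => ?_
    have h1 := hone π hπ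
    have h2 : X / C ≤ ((∫⁻ p, ‖p.1 - p.2‖ₑ ^ 2 ∂π) ^ (1 / 2 : ℝ)) ^ (1 / 3 : ℝ) := by
      rw [ENNReal.div_le_iff' hC0 hCt]
      exact h1
    calc (X / C) ^ (3 : ℝ) ≤ (((∫⁻ p, ‖p.1 - p.2‖ₑ ^ 2 ∂π) ^ (1 / 2 : ℝ)) ^ (1 / 3 : ℝ)) ^ (3 : ℝ) :=
          ENNReal.rpow_le_rpow h2 (by norm_num)
      _ = _ := by
          rw [← ENNReal.rpow_mul]
          norm_num
  calc X = C * (X / C) := (ENNReal.mul_div_cancel hC0 hCt).symm
    _ = C * ((X / C) ^ (3 : ℝ)) ^ (1 / 3 : ℝ) := by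
        rw [← ENNReal.rpow_mul]
        norm_num
    _ ≤ C * W2 μ ν ^ (1 / 3 : ℝ) := by
        gcongr

theorem stability_exponent {n : ℕ} : IsGreatest {α : ℝ | Admissible (n + 2) α} (1 / 3) :=
  ⟨lower_bound (by omega), fun _ h => upper_bound h⟩

end Vale.Agent.P074
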