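import Vale.Agent.Lib.P074.Opt

open MeasureTheory Set Filter Topology
open scoped ENNReal NNReal

namespace Vale.Agent.P074

variable {d : ℕ} {K : Set (E d)}

theorem restrict_unif {A : Set (E d)} (hA : MeasurableSet A) (hAK : A ⊆ K) :
    (unif K).restrict A = (volume K)⁻¹ • volume.restrict A := by
  unfold unif
  rw [Measure.restrict_smul, Measure.restrict_restrict hA, inter_eq_self_of_subset_left hAK]

theorem setIntegral_unif {A : Set (E d)} (hA : MeasurableSet A) (hAK : A ⊆ K) (f : E d → ℝ) :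
    ∫ x in A, f x ∂unif K = (volume K).toReal⁻¹ * ∫ x in A, f x := by
  rw [restrict_unif hA hAK, integral_smul_measure, ENNReal.toReal_inv, smul_eq_mul]

theorem integral_unif_eq (hK : IsCompact K) (f : E d → ℝ) :
    ∫ x, f x ∂unif K = ∫ x in K, f x ∂unif K := by
  rw [restrict_unif hK.measurableSet subset_rfl]
  rfl

/-- The inner body: the image of `K` under the homothety of centre `x₀` and ratio `1 - s`. -/
def inn (K : Set (E d)) (x₀ : E d) (s : ℝ) : Set (E d) := AffineMap.homothety x₀ (1 - s) '' K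

theorem isCompact_inn (hK : IsCompact K) (x₀ : E d) (s : ℝ) : IsCompact (inn K x₀ s) :=
  hK.image (AffineMap.homothety_continuous x₀ (1 - s))

theorem inn_subset (hKc : Convex ℝ K) {x₀ : E d} (hx₀ : x₀ ∈ K) {s : ℝ} (hs0 : 0 ≤ s)
    (hs1 : s ≤ 1) : inn K x₀ s ⊆ K := by
  rintro _ ⟨x, hx, rfl⟩
  rw [AffineMap.homothety_apply, vsub_eq_sub, vadd_eq_add]
  have h : (1 - s) • (x - x₀) + x₀ = (1 - s) • x + s • x₀ := by
    rw [smul_sub, sub_smul, sub_smul, one_smul, one_smul]; abel
  rw [h]
  exact hKc hx hx₀ (by linarith) hs0 (by ring)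

theorem add_mem_of_inn (hKc : Convex ℝ K) {x₀ : E d} {r₀ : ℝ}
    (hball : Metric.closedBall x₀ r₀ ⊆ K) {s : ℝ} (hs0 : 0 < s) (hs1 : s ≤ 1) {x w : E d}
    (hx : x ∈ inn K x₀ s) (hw : ‖w‖ ≤ s * r₀) : x + w ∈ K := by
  obtain ⟨y, hy, rfl⟩ := hx
  rw [AffineMap.homothety_apply, vsub_eq_sub, vadd_eq_add]
  have h : (1 - s) • (y - x₀) + x₀ + w = (1 - s) • y + s • (x₀ + s⁻¹ • w) := by
    rw [smul_sub, sub_smul, sub_smul, one_smul, one_smul, smul_add, smul_smul,
      mul_inv_cancel₀ hs0.ne', one_smul]; abel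
  rw [h]
  refine hKc hy (hball ?_) (by linarith) hs0.le (by ring)
  rw [Metric.mem_closedBall, dist_eq_norm, add_sub_cancel_left, norm_smul, norm_inv,
    Real.norm_of_nonneg hs0.le, inv_mul_le_iff₀ hs0]
  exact hw

theorem real_volume_inn (x₀ : E d) {s : ℝ} (hs1 : s ≤ 1) :
    volume.real (inn K x₀ s) = (1 - s) ^ d * volume.real K := by
  unfold inn
  rw [Measure.real, Measure.addHaar_image_homothety, finrank_euclideanSpace_fin,
    ENNReal.toReal_mul, ENNReal.toReal_ofReal (abs_nonneg _), abs_of_nonneg (by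
      have : 0 ≤ 1 - s := by linarith
      positivity)]
  rfl

theorem volume_diff_inn_le (hK : IsCompact K) (hKc : Convex ℝ K)
    {x₀ : E d} (hx₀ : x₀ ∈ K) {s : ℝ} (hs0 : 0 ≤ s) (hs1 : s ≤ 1) :
    volume.real (K \ inn K x₀ s) ≤ d * s * volume.real K := by
  have hsub := inn_subset hKc hx₀ hs0 hs1
  have hfin : volume (inn K x₀ s) ≠ ∞ := (isCompact_inn hK x₀ s).measure_lt_top.ne
  rw [measureReal_sdiff hsub (isCompact_inn hK x₀ s).measurableSet hK.measure_lt_top.ne]
  rw [real_volume_inn x₀ hs1]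
  have hb := one_add_mul_le_pow (show (-2 : ℝ) ≤ -s by linarith) d
  have h1 : 0 ≤ volume.real K := measureReal_nonneg
  have hb' : 1 - (1 - s) ^ d ≤ d * s := by
    have : (1 + -s) ^ d = (1 - s) ^ d := by ring
    rw [this] at hb
    linarith
  nlinarith

/-- Second difference. -/
def sd (φ : E d → ℝ) (w x : E d) : ℝ := φ (x + w) + φ (x - w) - 2 * φ x

theorem sd_neg (φ : E d → ℝ) (w x : E d) : sd φ (-w) x = sd φ w x := by
  unfold sd
  rw [sub_neg_eq_add, ← sub_eq_add_neg]
  ring

theorem sd_nonneg {φ : E d → ℝ} (hφ : ConvexOn ℝ univ φ) (w x : E d) : 0 ≤ sd φ w x := by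
  have h := hφ.2 (mem_univ (x + w)) (mem_univ (x - w)) (show (0 : ℝ) ≤ 1 / 2 by norm_num)
    (show (0 : ℝ) ≤ 1 / 2 by norm_num) (by norm_num)
  have h1 : (1 / 2 : ℝ) • (x + w) + (1 / 2 : ℝ) • (x - w) = x := by
    rw [← smul_add]
    have : x + w + (x - w) = (2 : ℝ) • x := by rw [two_smul]; abel
    rw [this, smul_smul]
    norm_num
  rw [h1] at h
  simp only [smul_eq_mul] at h
  unfold sd
  linarith

theorem sd_le {φ : E d → ℝ} {R : ℝ} (hL : ∀ x y, |φ x - φ y| ≤ R * ‖x - y‖) (w x : E d) :
    sd φ w x ≤ 2 * R * ‖w‖ := by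
  have h1 := hL (x + w) x
  have h2 := hL (x - w) x
  rw [add_sub_cancel_left] at h1
  rw [show x - w - x = -w by abel, norm_neg] at h2
  have h3 := abs_le.mp h1
  have h4 := abs_le.mp h2
  unfold sd
  linarith

theorem continuous_of_lip {φ : E d → ℝ} {R : ℝ} (hL : ∀ x y, |φ x - φ y| ≤ R * ‖x - y‖) :
    Continuous φ := by
  refine (LipschitzWith.of_dist_le_mul (K := R.toNNReal) fun x y => ?_).continuous
  rw [Real.dist_eq, dist_eq_norm]
  refine (hL x y).trans ?_
  gcongr
  exact Real.le_coe_toNNReal R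

theorem integral_sd_le (hK : IsCompact K) (hKc : Convex ℝ K) (hKi : (interior K).Nonempty)
    {x₀ : E d} {r₀ : ℝ} (hr₀ : 0 < r₀) (hball : Metric.closedBall x₀ r₀ ⊆ K) {φ : E d → ℝ} {R : ℝ}
    (hR : 0 ≤ R) (hL : ∀ x y, |φ x - φ y| ≤ R * ‖x - y‖) {s : ℝ} (hs0 : 0 < s) (hs1 : s ≤ 1)
    {w : E d} (hw : ‖w‖ ≤ s * r₀) :
    ∫ x in inn K x₀ s, sd φ w x ∂unif K ≤ 2 * R * ‖w‖ * (d * s) := by
  have hx₀ : x₀ ∈ K := hball (Metric.mem_closedBall_self hr₀.le)
  have hφc := continuous_of_lip hL
  set A := inn K x₀ s with hA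
  have hAc : IsCompact A := isCompact_inn hK x₀ s
  have hAm : MeasurableSet A := hAc.measurableSet
  have hAK : A ⊆ K := inn_subset hKc hx₀ hs0.le hs1
  set A' := (fun x => x + w) ⁻¹' A with hA'
  have hA'c : IsCompact A' := by
    have : A' = (fun x => x - w) '' A := by
      ext x
      constructor
      · intro hx
        exact ⟨x + w, hx, by simp⟩
      · rintro ⟨y, hy, rfl⟩
        show y - w + w ∈ A
        rwa [sub_add_cancel]
    rw [this]
    exact hAc.image (by fun_prop)
  have hA'm : MeasurableSet A' := hA'c.measurableSet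
  have hA'K : A' ⊆ K := by
    intro x hx
    have hx' : x + w ∈ A := hx
    have := add_mem_of_inn hKc hball hs0 hs1 hx' (w := -w) (by rwa [norm_neg])
    rwa [add_neg_cancel_right] at this
  set g : E d → ℝ := fun x => φ (x + w) - φ x with hg
  have hgc : Continuous g := by fun_prop
  have hgb : ∀ x, ‖g x‖ ≤ R * ‖w‖ := by
    intro x
    have := hL (x + w) x
    rwa [add_sub_cancel_left] at this
  have e1 : ∫ x in A, sd φ w x = (∫ x in A, g x) - ∫ x in A', g x := by
    have h1 : ∫ x in A', g x = ∫ x in A, g (x - w) := by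
      have := (measurePreserving_add_right volume w).setIntegral_preimage_emb
        (MeasurableEquiv.addRight w).measurableEmbedding (fun x => g (x - w)) A
      simp only [add_sub_cancel_right] at this
      exact this
    have hgc' : Continuous (fun x => g (x - w)) := hgc.comp (continuous_id.sub continuous_const)
    rw [h1, ← integral_sub (hgc.continuousOn.integrableOn_compact hAc)
      (hgc'.continuousOn.integrableOn_compact hAc)]
    refine integral_congr_ae (Filter.Eventually.of_forall fun x => ?_)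
    simp only [sd, hg, sub_add_cancel]
    ring
  have hgi : ∀ B : Set (E d), IsCompact B → IntegrableOn g B :=
    fun B hB => hgc.continuousOn.integrableOn_compact hB
  have e2 : (∫ x in A, g x) - ∫ x in A', g x = (∫ x in A \ A', g x) - ∫ x in A' \ A, g x := by
    have h1 := integral_inter_add_sdiff hA'm (hgi A hAc)
    have h2 := integral_inter_add_sdiff hAm (hgi A' hA'c)
    rw [inter_comm] at h2
    linarith
  have hv1 : volume.real (A' \ A) ≤ volume.real (K \ A) :=
    measureReal_mono (sdiff_subset_sdiff_left hA'K)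
      ((measure_mono sdiff_subset).trans_lt hK.measure_lt_top).ne
  have hvA : volume.real A' = volume.real A := by
    rw [Measure.real, Measure.real, hA',
      (measurePreserving_add_right volume w).measure_preimage hAm.nullMeasurableSet]
  have hv2 : volume.real (A \ A') = volume.real (A' \ A) := by
    have h1 := measureReal_inter_add_sdiff (μ := volume) (s := A) hA'm hAc.measure_lt_top.ne
    have h2 := measureReal_inter_add_sdiff (μ := volume) (s := A') hAm hA'c.measure_lt_top.ne
    rw [inter_comm] at h2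
    linarith
  have hv3 := volume_diff_inn_le hK hKc hx₀ hs0.le hs1
  have hb1 : ∫ x in A \ A', g x ≤ R * ‖w‖ * volume.real (A \ A') := by
    refine (le_abs_self _).trans ?_
    exact norm_setIntegral_le_of_norm_le_const
      ((measure_mono sdiff_subset).trans_lt hAc.measure_lt_top) (fun x _ => hgb x)
  have hb2 : -∫ x in A' \ A, g x ≤ R * ‖w‖ * volume.real (A' \ A) := by
    refine (neg_le_abs _).trans ?_
    exact norm_setIntegral_le_of_norm_le_const
      ((measure_mono sdiff_subset).trans_lt hA'c.measure_lt_top) (fun x _ => hgb x)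
  have hvK : 0 < volume.real K := ENNReal.toReal_pos (volume_pos_of_interior hKi) hK.measure_lt_top.ne
  rw [setIntegral_unif hAm hAK, e1, e2]
  have hRw : 0 ≤ R * ‖w‖ := by positivity
  calc (volume K).toReal⁻¹ * ((∫ x in A \ A', g x) - ∫ x in A' \ A, g x)
      ≤ (volume K).toReal⁻¹ * (2 * (R * ‖w‖) * (d * s * volume.real K)) := by
        refine mul_le_mul_of_nonneg_left ?_ (by positivity)
        have h1 : R * ‖w‖ * volume.real (A \ A') ≤ R * ‖w‖ * (d * s * volume.real K) :=
          mul_le_mul_of_nonneg_left (by rw [hv2]; exact hv1.trans hv3) hRw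
        have h2 : R * ‖w‖ * volume.real (A' \ A) ≤ R * ‖w‖ * (d * s * volume.real K) :=
          mul_le_mul_of_nonneg_left (hv1.trans hv3) hRw
        linarith
    _ = 2 * R * ‖w‖ * (d * s) := by
        have : (volume K).toReal = volume.real K := rfl
        rw [this]
        field_simp

end Vale.Agent.P074
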