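import Vale.Agent.Lib.P074.Basic

open MeasureTheory Set Filter Topology
open scoped ENNReal NNReal

namespace Vale.Agent.P074

variable {d : ℕ} {K : Set (E d)}

theorem exists_bound (hK : IsCompact K) : ∃ D : ℝ, 0 < D ∧ ∀ x ∈ K, ‖x‖ ≤ D := by
  obtain ⟨D, hD⟩ := hK.isBounded.exists_norm_le
  exact ⟨max D 1, lt_of_lt_of_le one_pos (le_max_right _ _), fun x hx => (hD x hx).trans (le_max_left _ _)⟩

theorem integrable_of_ae_bound {F : Type*} [NormedAddCommGroup F] [MeasurableSpace F]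
    {ρ : Measure (E d)} [IsFiniteMeasure ρ] {f : E d → F} (hf : AEStronglyMeasurable f ρ) {C : ℝ}
    (hC : ∀ᵐ x ∂ρ, ‖f x‖ ≤ C) : Integrable f ρ :=
  Integrable.of_bound hf C hC

theorem integrable_inner (hK : IsCompact K) (hKi : (interior K).Nonempty) {T : E d → E d}
    (hT : Measurable T) {R : ℝ} (hR : ∀ᵐ x ∂unif K, ‖T x‖ ≤ R) :
    Integrable (fun x => inner ℝ x (T x)) (unif K) := by
  have := unif_prob hK hKi
  obtain ⟨D, hD0, hD⟩ := exists_bound hK
  refine Integrable.of_bound (measurable_id.inner hT).aestronglyMeasurable (D * R) ?_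
  filter_upwards [hR, ae_mem hK] with x hx hxK
  calc ‖inner ℝ x (T x)‖ ≤ ‖x‖ * ‖T x‖ := norm_inner_le_norm x (T x)
    _ ≤ D * R := mul_le_mul (hD x hxK) hx (norm_nonneg _) hD0.le

theorem integrable_normsq_T (hK : IsCompact K) (hKi : (interior K).Nonempty) {T : E d → E d}
    (hT : Measurable T) {R : ℝ} (hR : ∀ᵐ x ∂unif K, ‖T x‖ ≤ R) :
    Integrable (fun x => ‖T x‖ ^ 2) (unif K) := by
  have := unif_prob hK hKi
  refine Integrable.of_bound (hT.norm.pow_const 2).aestronglyMeasurable (R ^ 2) ?_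
  filter_upwards [hR] with x hx
  rw [Real.norm_of_nonneg (by positivity)]
  exact pow_le_pow_left₀ (norm_nonneg _) hx 2

theorem cost_eq (hK : IsCompact K) (hKi : (interior K).Nonempty) {T : E d → E d}
    (hT : Measurable T) {R : ℝ} (hR : ∀ᵐ x ∂unif K, ‖T x‖ ≤ R) :
    ∫⁻ x, ‖x - T x‖ₑ ^ 2 ∂unif K = ENNReal.ofReal ((∫ x, ‖x‖ ^ 2 ∂unif K)
      + (∫ x, ‖T x‖ ^ 2 ∂unif K) - 2 * ∫ x, inner ℝ x (T x) ∂unif K) := by
  have := unif_prob hK hKi
  obtain ⟨D, hD0, hD⟩ := exists_bound hK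
  have h1 : Integrable (fun x => ‖x‖ ^ 2) (unif K) := by
    refine Integrable.of_bound (measurable_norm.pow_const 2).aestronglyMeasurable (D ^ 2) ?_
    filter_upwards [ae_mem hK] with x hx
    rw [Real.norm_of_nonneg (by positivity)]
    exact pow_le_pow_left₀ (norm_nonneg _) (hD x hx) 2
  have h2 := integrable_normsq_T hK hKi hT hR
  have h3 := integrable_inner hK hKi hT hR
  have e1 : (∫ x, ‖x‖ ^ 2 ∂unif K) + (∫ x, ‖T x‖ ^ 2 ∂unif K) - 2 * ∫ x, inner ℝ x (T x) ∂unif K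
      = ∫ x, ‖x - T x‖ ^ 2 ∂unif K := by
    have h12 : Integrable (fun x : E d => ‖x‖ ^ 2 + ‖T x‖ ^ 2) (unif K) := h1.add h2
    rw [← integral_const_mul, ← integral_add h1 h2, ← integral_sub h12 (h3.const_mul 2)]
    refine integral_congr_ae (Filter.Eventually.of_forall fun x => ?_)
    simp only []
    rw [norm_sub_sq_real]
    ring
  rw [e1, integral_eq_lintegral_of_nonneg_ae (Filter.Eventually.of_forall fun x => by positivity)
    (show AEStronglyMeasurable (fun x => ‖x - T x‖ ^ 2) (unif K) from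
      ((measurable_id.sub hT).norm.pow_const 2).aestronglyMeasurable), ENNReal.ofReal_toReal]
  · refine lintegral_congr fun x => ?_
    rw [← ofReal_norm, ← ENNReal.ofReal_pow (norm_nonneg _)]
  · have h4 : Integrable (fun x => ‖x - T x‖ ^ 2) (unif K) := by
      have : (fun x => ‖x - T x‖ ^ 2) = fun x => (‖x‖ ^ 2 + ‖T x‖ ^ 2) - 2 * inner ℝ x (T x) := by
        funext x
        rw [norm_sub_sq_real]
        ring
      rw [this]
      exact (h1.add h2).sub (h3.const_mul 2)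
    exact (h4.lintegral_lt_top).ne

theorem ae_bound_of_law {T T' : E d → E d} (hT : Measurable T) (hT' : Measurable T')
    (hlaw : (unif K).map T' = (unif K).map T) {R : ℝ} (hR : ∀ᵐ x ∂unif K, ‖T x‖ ≤ R) :
    ∀ᵐ x ∂unif K, ‖T' x‖ ≤ R := by
  have hm : MeasurableSet {y : E d | ‖y‖ ≤ R} := measurableSet_le measurable_norm measurable_const
  have h1 : ∀ᵐ y ∂(unif K).map T, ‖y‖ ≤ R := by
    rw [ae_map_iff hT.aemeasurable hm]; exact hR
  rw [← hlaw, ae_map_iff hT'.aemeasurable hm] at h1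
  exact h1

theorem integral_law {T T' : E d → E d} (hT : Measurable T) (hT' : Measurable T')
    (hlaw : (unif K).map T' = (unif K).map T) {g : E d → ℝ}
    (hg : AEStronglyMeasurable g ((unif K).map T)) :
    ∫ x, g (T' x) ∂unif K = ∫ x, g (T x) ∂unif K := by
  have h1 := integral_map (μ := unif K) hT.aemeasurable hg
  have h2 := integral_map (μ := unif K) (φ := T') (f := g) hT'.aemeasurable (by rw [hlaw]; exact hg)
  rw [← h1, ← h2, hlaw]

theorem opt_iff (hK : IsCompact K) (hKi : (interior K).Nonempty) {T T' : E d → E d}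
    (hT : Measurable T) (hT' : Measurable T') (hlaw : (unif K).map T' = (unif K).map T) {R : ℝ}
    (hR : ∀ᵐ x ∂unif K, ‖T x‖ ≤ R) :
    (∫⁻ x, ‖x - T x‖ₑ ^ 2 ∂unif K ≤ ∫⁻ x, ‖x - T' x‖ₑ ^ 2 ∂unif K) ↔
      ∫ x, inner ℝ x (T' x) ∂unif K ≤ ∫ x, inner ℝ x (T x) ∂unif K := by
  have := unif_prob hK hKi
  have hR' := ae_bound_of_law hT hT' hlaw hR
  rw [cost_eq hK hKi hT hR, cost_eq hK hKi hT' hR']
  have e : ∫ x, ‖T' x‖ ^ 2 ∂unif K = ∫ x, ‖T x‖ ^ 2 ∂unif K :=
    integral_law hT hT' hlaw (g := fun y => ‖y‖ ^ 2)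
      (measurable_norm.pow_const 2).aestronglyMeasurable
  rw [e]
  have hnn : 0 ≤ (∫ x, ‖x‖ ^ 2 ∂unif K) + (∫ x, ‖T x‖ ^ 2 ∂unif K)
      - 2 * ∫ x, inner ℝ x (T' x) ∂unif K := by
    obtain ⟨D, hD0, hD⟩ := exists_bound hK
    have h1 : Integrable (fun x => ‖x‖ ^ 2) (unif K) := by
      refine Integrable.of_bound (measurable_norm.pow_const 2).aestronglyMeasurable (D ^ 2) ?_
      filter_upwards [ae_mem hK] with x hx
      rw [Real.norm_of_nonneg (by positivity)]
      exact pow_le_pow_left₀ (norm_nonneg _) (hD x hx) 2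
    have h2 := integrable_normsq_T hK hKi hT' hR'
    have h3 := integrable_inner hK hKi hT' hR'
    have h12 : Integrable (fun x : E d => ‖x‖ ^ 2 + ‖T' x‖ ^ 2) (unif K) := h1.add h2
    rw [← e, ← integral_const_mul, ← integral_add h1 h2, ← integral_sub h12 (h3.const_mul 2)]
    refine integral_nonneg fun x => ?_
    have := norm_sub_sq_real x (T' x)
    simp only [Pi.zero_apply]
    nlinarith [sq_nonneg ‖x - T' x‖]
  rw [ENNReal.ofReal_le_ofReal_iff hnn]
  constructor <;> intro h <;> linarith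

/-- Duality: the correlation of any competitor is at most that of a map with potentials. -/
theorem corr_le_of_potential (hK : IsCompact K) (hKi : (interior K).Nonempty)
    {T T' : E d → E d} (hT : Measurable T) (hT' : Measurable T')
    (hlaw : (unif K).map T' = (unif K).map T) {R : ℝ} (hR : ∀ᵐ x ∂unif K, ‖T x‖ ≤ R)
    {f g : E d → ℝ} (hf : Integrable f (unif K)) (hg : Integrable g ((unif K).map T))
    (heq : ∀ᵐ x ∂unif K, inner ℝ x (T x) = f x + g (T x))
    (hle : ∀ᵐ x ∂unif K, inner ℝ x (T' x) ≤ f x + g (T' x)) :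
    ∫ x, inner ℝ x (T' x) ∂unif K ≤ ∫ x, inner ℝ x (T x) ∂unif K := by
  have := unif_prob hK hKi
  have hR' := ae_bound_of_law hT hT' hlaw hR
  have hgT : Integrable (fun x => g (T x)) (unif K) := hg.comp_measurable hT
  have hgT' : Integrable (fun x => g (T' x)) (unif K) := by
    have := hg
    rw [← hlaw] at this
    exact this.comp_measurable hT'
  calc ∫ x, inner ℝ x (T' x) ∂unif K ≤ ∫ x, f x + g (T' x) ∂unif K :=
        integral_mono_ae (integrable_inner hK hKi hT' hR') (hf.add hgT') hle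
    _ = (∫ x, f x ∂unif K) + ∫ x, g (T' x) ∂unif K := integral_add hf hgT'
    _ = (∫ x, f x ∂unif K) + ∫ x, g (T x) ∂unif K := by
        rw [integral_law hT hT' hlaw hg.aestronglyMeasurable]
    _ = ∫ x, f x + g (T x) ∂unif K := (integral_add hf hgT).symm
    _ = ∫ x, inner ℝ x (T x) ∂unif K := integral_congr_ae (heq.mono fun x hx => hx.symm)

theorem isOptimal_of_potential (hK : IsCompact K) (hKi : (interior K).Nonempty)
    {μ : Measure (E d)} {T : E d → E d} (hT : Measurable T) (hμ : (unif K).map T = μ)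
    {Y : Set (E d)} (hY : MeasurableSet Y) (hμY : μ Yᶜ = 0) {R : ℝ} (hYR : ∀ y ∈ Y, ‖y‖ ≤ R)
    {f g : E d → ℝ} (hf : Integrable f (unif K)) (hg : Integrable g μ)
    (heq : ∀ᵐ x ∂unif K, inner ℝ x (T x) = f x + g (T x))
    (hle : ∀ x ∈ K, ∀ y ∈ Y, inner ℝ x y ≤ f x + g y) :
    IsOptimalMap K μ T := by
  have hmem : ∀ T' : E d → E d, Measurable T' → (unif K).map T' = μ → ∀ᵐ x ∂unif K, T' x ∈ Y := by
    intro T' hT' hlaw'
    have h1 : ∀ᵐ y ∂μ, y ∈ Y := by rw [ae_iff]; exact hμY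
    rw [← hlaw'] at h1
    exact (ae_map_iff (p := fun y => y ∈ Y) hT'.aemeasurable hY).1 h1
  have hR : ∀ᵐ x ∂unif K, ‖T x‖ ≤ R := (hmem T hT hμ).mono fun x hx => hYR _ hx
  refine ⟨hT, hμ, fun T' hT' hlaw' => ?_⟩
  rw [opt_iff hK hKi hT hT' (hlaw'.trans hμ.symm) hR]
  refine corr_le_of_potential hK hKi hT hT' (hlaw'.trans hμ.symm) hR hf (by rw [hμ]; exact hg) heq ?_
  filter_upwards [hmem T' hT' hlaw', ae_mem hK] with x hx hxK
  exact hle x hxK _ hx

end Vale.Agent.P074
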