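import Mathlib

open Set Filter Topology

namespace Vale.Agent.P074

/-- If `G` satisfies `G s' - G s ≤ (s' - s) (C + ω s' - ω s)` for good `s ≤ s'` in `[0, 1]`, all but
finitely many points being good, and `ω` is monotone on good points, then `G 1 - G 0 ≤ C`. -/
theorem riemann_aux {G ω : ℝ → ℝ} {Bad : Set ℝ} (hBad : Bad.Finite) (h0 : (0 : ℝ) ∉ Bad)
    (h1 : (1 : ℝ) ∉ Bad) {C : ℝ}
    (hω : ∀ s ∈ Icc (0 : ℝ) 1, s ∉ Bad → ∀ s' ∈ Icc (0 : ℝ) 1, s' ∉ Bad → s ≤ s' → ω s ≤ ω s')
    (hG : ∀ s ∈ Icc (0 : ℝ) 1, s ∉ Bad → ∀ s' ∈ Icc (0 : ℝ) 1, s' ∉ Bad → s ≤ s' →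
      G s' - G s ≤ (s' - s) * (C + (ω s' - ω s))) :
    G 1 - G 0 ≤ C := by
  have key : ∀ n : ℕ, G 1 - G 0 ≤ C + 2 * (ω 1 - ω 0) * (1 / ((n : ℝ) + 1)) := by
    intro n
    set N : ℝ := (n : ℝ) + 1 with hN
    have hN0 : 0 < N := by positivity
    -- good points near `k / N`
    have hex : ∀ k : ℕ, ∃ s : ℝ, (2 * (k : ℝ) - 1) / (2 * N) < s ∧ s < (2 * (k : ℝ) + 1) / (2 * N) ∧
        s ∉ Bad := by
      intro k
      have hlt : (2 * (k : ℝ) - 1) / (2 * N) < (2 * (k : ℝ) + 1) / (2 * N) := by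
        rw [div_lt_div_iff_of_pos_right (by positivity)]
        linarith
      obtain ⟨s, hs, hs2⟩ := ((Ioo_infinite hlt).sdiff hBad).nonempty
      exact ⟨s, hs.1, hs.2, hs2⟩
    choose t ht1 ht2 ht3 using hex
    let s : ℕ → ℝ := fun k => if k = 0 then 0 else if n + 1 ≤ k then 1 else t k
    have hs0 : s 0 = 0 := by simp [s]
    have hsn : s (n + 1) = 1 := by simp [s]
    have hsk : ∀ k, k ≠ 0 → ¬ (n + 1 ≤ k) → s k = t k := fun k h1 h2 => by
      show (if k = 0 then (0 : ℝ) else if n + 1 ≤ k then 1 else t k) = t k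
      rw [if_neg h1, if_neg h2]
    have hgood : ∀ k, s k ∉ Bad := by
      intro k
      by_cases hk : k = 0
      · rw [hk, hs0]; exact h0
      · by_cases hk2 : n + 1 ≤ k
        · simp only [s, hk, hk2, if_true, if_false]; exact h1
        · rw [hsk k hk hk2]; exact ht3 k
    have hlo : ∀ k, k ≤ n + 1 → (2 * (k : ℝ) - 1) / (2 * N) < s k := by
      intro k hkn
      by_cases hk : k = 0
      · rw [hk, hs0]
        apply div_neg_of_neg_of_pos <;> norm_num
        positivity
      · by_cases hk2 : n + 1 ≤ k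
        · have : k = n + 1 := le_antisymm hkn hk2
          subst this
          rw [hsn, div_lt_one (by positivity)]
          push_cast
          rw [← hN]
          linarith
        · rw [hsk k hk hk2]; exact ht1 k
    have hhi : ∀ k, k ≤ n + 1 → s k < (2 * (k : ℝ) + 1) / (2 * N) := by
      intro k hkn
      by_cases hk : k = 0
      · rw [hk, hs0]
        positivity
      · by_cases hk2 : n + 1 ≤ k
        · have : k = n + 1 := le_antisymm hkn hk2
          subst this
          rw [hsn, one_lt_div (by positivity)]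
          push_cast
          rw [← hN]
          linarith
        · rw [hsk k hk hk2]; exact ht2 k
    have hstep : ∀ k, k < n + 1 → s k < s (k + 1) := by
      intro k hk
      have h1 := hhi k hk.le
      have h2 := hlo (k + 1) hk
      push_cast at h2
      have : (2 * (k : ℝ) + 1) / (2 * N) = (2 * ((k : ℝ) + 1) - 1) / (2 * N) := by ring
      rw [← this] at h2
      linarith
    have hgap : ∀ k, k < n + 1 → s (k + 1) - s k ≤ 2 * (1 / N) := by
      intro k hk
      have h1 := hlo k hk.le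
      have h2 := hhi (k + 1) hk
      push_cast at h2
      have : (2 * ((k : ℝ) + 1) + 1) / (2 * N) - (2 * (k : ℝ) - 1) / (2 * N) = 2 * (1 / N) := by
        field_simp; ring
      linarith
    have hmono : ∀ k, k ≤ n + 1 → 0 ≤ s k := by
      intro k
      induction k with
      | zero => intro _; rw [hs0]
      | succ k ih =>
        intro hk
        have := ih (by omega)
        have := hstep k (by omega)
        linarith
    have hmono' : ∀ j, j ≤ n + 1 → s (n + 1 - j) ≤ 1 := by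
      intro j
      induction j with
      | zero => intro _; rw [Nat.sub_zero, hsn]
      | succ j ih =>
        intro hj
        have h1 := ih (by omega)
        have h2 := hstep (n + 1 - (j + 1)) (by omega)
        rw [show n + 1 - (j + 1) + 1 = n + 1 - j by omega] at h2
        linarith
    have hIcc : ∀ k, k ≤ n + 1 → s k ∈ Icc (0 : ℝ) 1 := by
      intro k hk
      refine ⟨hmono k hk, ?_⟩
      have := hmono' (n + 1 - k) (by omega)
      rwa [show n + 1 - (n + 1 - k) = k by omega] at this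
    have hsum : G 1 - G 0 = ∑ k ∈ Finset.range (n + 1), (G (s (k + 1)) - G (s k)) := by
      rw [Finset.sum_range_sub (fun k => G (s k)), hs0, hsn]
    have hterm : ∀ k ∈ Finset.range (n + 1), G (s (k + 1)) - G (s k) ≤
        C * (s (k + 1) - s k) + 2 * (1 / N) * (ω (s (k + 1)) - ω (s k)) := by
      intro k hk
      have hk' : k < n + 1 := Finset.mem_range.1 hk
      have h1 := hG (s k) (hIcc k hk'.le) (hgood k) (s (k + 1)) (hIcc (k + 1) hk') (hgood (k + 1))
        (hstep k hk').le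
      have h2 := hω (s k) (hIcc k hk'.le) (hgood k) (s (k + 1)) (hIcc (k + 1) hk') (hgood (k + 1))
        (hstep k hk').le
      have h3 := hgap k hk'
      nlinarith
    rw [hsum]
    refine (Finset.sum_le_sum hterm).trans ?_
    rw [Finset.sum_add_distrib, ← Finset.mul_sum, ← Finset.mul_sum,
      Finset.sum_range_sub (fun k => s k), Finset.sum_range_sub (fun k => ω (s k)), hs0, hsn]
    apply le_of_eq
    ring
  have hlim : Tendsto (fun n : ℕ => C + 2 * (ω 1 - ω 0) * (1 / ((n : ℝ) + 1))) atTop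
      (𝓝 (C + 2 * (ω 1 - ω 0) * 0)) :=
    tendsto_const_nhds.add (tendsto_const_nhds.mul tendsto_one_div_add_atTop_nhds_zero_nat)
  rw [mul_zero, add_zero] at hlim
  exact ge_of_tendsto' hlim key

theorem riemann_bad {F0 F1 p0 p1 : ℝ → ℝ} {Bad : Set ℝ} (hBad : Bad.Finite) (h0 : (0 : ℝ) ∉ Bad)
    (h1 : (1 : ℝ) ∉ Bad) {C : ℝ}
    (hF0 : ∀ s ∈ Icc (0 : ℝ) 1, s ∉ Bad → ∀ s' ∈ Icc (0 : ℝ) 1, s' ∉ Bad →
      F0 s + (s' - s) * p0 s ≤ F0 s')
    (hF1 : ∀ s ∈ Icc (0 : ℝ) 1, s ∉ Bad → ∀ s' ∈ Icc (0 : ℝ) 1, s' ∉ Bad →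
      F1 s + (s' - s) * p1 s ≤ F1 s')
    (hC : ∀ s ∈ Icc (0 : ℝ) 1, s ∉ Bad → |p1 s - p0 s| ≤ C) :
    F1 1 - F1 0 - (F0 1 - F0 0) ≤ C := by
  have hmono : ∀ s ∈ Icc (0 : ℝ) 1, s ∉ Bad → ∀ s' ∈ Icc (0 : ℝ) 1, s' ∉ Bad → s ≤ s' →
      p0 s ≤ p0 s' := by
    intro s hs hsb s' hs' hsb' hss
    rcases eq_or_lt_of_le hss with h | h
    · rw [h]
    · have e1 := hF0 s hs hsb s' hs' hsb'
      have e2 := hF0 s' hs' hsb' s hs hsb
      by_contra hlt
      push Not at hlt
      nlinarith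
  have := riemann_aux (G := fun s => F1 s - F0 s) (ω := p0) hBad h0 h1 (C := C) hmono ?_
  · linarith
  · intro s hs hsb s' hs' hsb' hss
    have e1 := hF0 s hs hsb s' hs' hsb'
    have e2 := hF1 s' hs' hsb' s hs hsb
    have e3 := (abs_le.1 (hC s' hs' hsb')).2
    nlinarith

end Vale.Agent.P074
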