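import Vale.Agent.Lib.P074.Stab

open MeasureTheory Set Filter Topology
open scoped ENNReal NNReal

set_option linter.unusedSectionVars false

namespace Vale.Agent.P074

variable {d : ℕ} {K : Set (E d)} {ι : Type*} [Fintype ι] [Nonempty ι]

theorem le_pot (z : ι → E d) (ψ : ι → ℝ) (x : E d) (i : ι) : inner ℝ (z i) x - ψ i ≤ pot z ψ x :=
  Finset.le_sup' (fun i => inner ℝ (z i) x - ψ i) (Finset.mem_univ i)

theorem exists_pot_eq (z : ι → E d) (ψ : ι → ℝ) (x : E d) :
    ∃ i, pot z ψ x = inner ℝ (z i) x - ψ i := by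
  obtain ⟨i, _, hi⟩ := Finset.exists_mem_eq_sup' (Finset.univ_nonempty (α := ι))
    (fun i => inner ℝ (z i) x - ψ i)
  exact ⟨i, hi⟩

theorem pot_eq_of_cell {z : ι → E d} {ψ : ι → ℝ} {x : E d} {i : ι} (hx : x ∈ cell K z ψ i) :
    pot z ψ x = inner ℝ (z i) x - ψ i :=
  le_antisymm (Finset.sup'_le _ _ fun j _ => hx.2 j) (le_pot z ψ x i)

theorem mem_cell_iff {z : ι → E d} {ψ : ι → ℝ} {x : E d} {i : ι} :
    x ∈ cell K z ψ i ↔ x ∈ K ∧ pot z ψ x = inner ℝ (z i) x - ψ i := by
  constructor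
  · intro hx
    exact ⟨hx.1, pot_eq_of_cell hx⟩
  · rintro ⟨h1, h2⟩
    exact ⟨h1, fun j => by rw [← h2]; exact le_pot z ψ x j⟩

theorem convexOn_pot (z : ι → E d) (ψ : ι → ℝ) : ConvexOn ℝ univ (pot z ψ) := by
  refine ⟨convex_univ, fun x _ y _ a b ha hb hab => ?_⟩
  obtain ⟨i, hi⟩ := exists_pot_eq z ψ (a • x + b • y)
  rw [hi, inner_add_right, inner_smul_right, inner_smul_right]
  have h1 := mul_le_mul_of_nonneg_left (le_pot z ψ x i) ha
  have h2 := mul_le_mul_of_nonneg_left (le_pot z ψ y i) hb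
  simp only [smul_eq_mul]
  have : ψ i = a * ψ i + b * ψ i := by rw [← add_mul, hab, one_mul]
  nlinarith

theorem pot_lip {z : ι → E d} {R : ℝ} (hz : ∀ i, ‖z i‖ ≤ R) (ψ : ι → ℝ) (x y : E d) :
    |pot z ψ x - pot z ψ y| ≤ R * ‖x - y‖ := by
  have main : ∀ x y : E d, pot z ψ x - pot z ψ y ≤ R * ‖x - y‖ := by
    intro x y
    obtain ⟨i, hi⟩ := exists_pot_eq z ψ x
    have h1 := le_pot z ψ y i
    have h2 : inner ℝ (z i) (x - y) ≤ R * ‖x - y‖ :=
      (real_inner_le_norm _ _).trans (mul_le_mul_of_nonneg_right (hz i) (norm_nonneg _))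
    rw [inner_sub_right] at h2
    rw [hi]
    linarith
  rw [abs_sub_le_iff]
  refine ⟨main x y, ?_⟩
  rw [norm_sub_rev]
  exact main y x

theorem continuous_pot (z : ι → E d) (ψ : ι → ℝ) : Continuous (pot z ψ) := by
  obtain ⟨R, hR⟩ : ∃ R, ∀ i, ‖z i‖ ≤ R := by
    refine ⟨∑ i, ‖z i‖, fun i => ?_⟩
    exact Finset.single_le_sum (f := fun i => ‖z i‖) (fun j _ => norm_nonneg _) (Finset.mem_univ i)
  exact continuous_of_lip (pot_lip hR ψ)

theorem isCompact_cell (hK : IsCompact K) (z : ι → E d) (ψ : ι → ℝ) (i : ι) :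
    IsCompact (cell K z ψ i) := by
  have h : cell K z ψ i = K ∩ {x | pot z ψ x = inner ℝ (z i) x - ψ i} := by
    ext x
    exact mem_cell_iff
  rw [h]
  refine hK.inter_right (isClosed_eq (continuous_pot z ψ) (by fun_prop))

theorem measurableSet_cell (hK : IsCompact K) (z : ι → E d) (ψ : ι → ℝ) (i : ι) :
    MeasurableSet (cell K z ψ i) := (isCompact_cell hK z ψ i).measurableSet

theorem cell_subset (z : ι → E d) (ψ : ι → ℝ) (i : ι) : cell K z ψ i ⊆ K := fun _ hx => hx.1

theorem exists_mem_cell (z : ι → E d) (ψ : ι → ℝ) {x : E d} (hx : x ∈ K) :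
    ∃ i, x ∈ cell K z ψ i := by
  obtain ⟨i, hi⟩ := exists_pot_eq z ψ x
  exact ⟨i, mem_cell_iff.2 ⟨hx, hi⟩⟩

theorem cell_inter_null {z : ι → E d} (hz : Function.Injective z) (ψ : ι → ℝ) {i j : ι}
    (hij : i ≠ j) : unif K (cell K z ψ i ∩ cell K z ψ j) = 0 := by
  have hv : z i - z j ≠ 0 := sub_ne_zero.2 (fun h => hij (hz h))
  refine measure_mono_null ?_ (unif_hyperplane (K := K) hv (ψ i - ψ j))
  rintro x ⟨h1, h2⟩
  have e1 := pot_eq_of_cell h1
  have e2 := pot_eq_of_cell h2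
  show inner ℝ (z i - z j) x = ψ i - ψ j
  rw [inner_sub_left]
  linarith

theorem ae_unique_cell (hK : IsCompact K) {z : ι → E d} (hz : Function.Injective z) (ψ : ι → ℝ) :
    ∀ᵐ x ∂unif K, ∃ i, x ∈ cell K z ψ i ∧ ∀ j, x ∈ cell K z ψ j → j = i := by
  have h1 : ∀ᵐ x ∂unif K, ∀ i j : ι, i ≠ j → x ∉ cell K z ψ i ∩ cell K z ψ j := by
    rw [ae_all_iff]
    intro i
    rw [ae_all_iff]
    intro j
    by_cases hij : i = j
    · exact Filter.Eventually.of_forall fun x h => absurd hij h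
    · have := cell_inter_null (K := K) hz ψ hij
      filter_upwards [measure_eq_zero_iff_ae_notMem.1 this] with x hx _
      exact hx
  filter_upwards [h1, ae_mem hK] with x hx hxK
  obtain ⟨i, hi⟩ := exists_mem_cell z ψ hxK
  refine ⟨i, hi, fun j hj => ?_⟩
  by_contra hne
  exact hx j i hne ⟨hj, hi⟩

/-- The semi-discrete map. -/
noncomputable def smap (K : Set (E d)) (z : ι → E d) (ψ : ι → ℝ) (x : E d) : E d :=
  ∑ i, (cell K z ψ i).indicator (fun _ => z i) x

theorem measurable_smap (hK : IsCompact K) (z : ι → E d) (ψ : ι → ℝ) :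
    Measurable (smap K z ψ) := by
  unfold smap
  exact Finset.measurable_sum _ fun i _ => measurable_const.indicator (measurableSet_cell hK z ψ i)

theorem smap_eq {z : ι → E d} {ψ : ι → ℝ} {x : E d} {i : ι} (hi : x ∈ cell K z ψ i)
    (hu : ∀ j, x ∈ cell K z ψ j → j = i) : smap K z ψ x = z i := by
  unfold smap
  rw [Finset.sum_eq_single i]
  · rw [indicator_of_mem hi]
  · intro j _ hj
    exact indicator_of_notMem (fun h => hj (hu j h)) _
  · intro h
    exact absurd (Finset.mem_univ i) h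

theorem ae_smap (hK : IsCompact K) {z : ι → E d} (hz : Function.Injective z) (ψ : ι → ℝ) :
    ∀ᵐ x ∂unif K, ∃ i, x ∈ cell K z ψ i ∧ smap K z ψ x = z i := by
  filter_upwards [ae_unique_cell hK hz ψ] with x hx
  obtain ⟨i, hi, hu⟩ := hx
  exact ⟨i, hi, smap_eq hi hu⟩

theorem ae_norm_smap (hK : IsCompact K) {z : ι → E d} (hz : Function.Injective z) (ψ : ι → ℝ)
    {R : ℝ} (hR : ∀ i, ‖z i‖ ≤ R) : ∀ᵐ x ∂unif K, ‖smap K z ψ x‖ ≤ R := by
  filter_upwards [ae_smap hK hz ψ] with x hx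
  obtain ⟨i, _, hi⟩ := hx
  rw [hi]; exact hR i

theorem smap_sub (hK : IsCompact K) {z : ι → E d} (hz : Function.Injective z) (ψ : ι → ℝ) :
    ∀ᵐ x ∂unif K, ∀ y, pot z ψ x + inner ℝ (smap K z ψ x) (y - x) ≤ pot z ψ y := by
  filter_upwards [ae_smap hK hz ψ] with x hx y
  obtain ⟨i, hi, he⟩ := hx
  rw [he, pot_eq_of_cell hi, inner_sub_right]
  have := le_pot z ψ y i
  linarith

/-- Splitting an integral along the cells. -/
theorem integral_cells (hK : IsCompact K) {z : ι → E d} (hz : Function.Injective z) (ψ : ι → ℝ)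
    {F : Type*} [NormedAddCommGroup F] [NormedSpace ℝ F] {f : E d → F}
    (hf : Integrable f (unif K)) :
    ∫ x, f x ∂unif K = ∑ i, ∫ x in cell K z ψ i, f x ∂unif K := by
  have h1 : ∫ x, f x ∂unif K = ∫ x in ⋃ i, cell K z ψ i, f x ∂unif K := by
    rw [← setIntegral_univ]
    refine setIntegral_congr_set ?_
    filter_upwards [ae_mem hK] with x hx
    refine propext ⟨fun _ => ?_, fun _ => mem_univ x⟩
    obtain ⟨i, hi⟩ := exists_mem_cell z ψ hx
    exact mem_iUnion.2 ⟨i, hi⟩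
  rw [h1, integral_iUnion_ae (fun i => (measurableSet_cell hK z ψ i).nullMeasurableSet)
    (fun i j hij => ?_) hf.integrableOn, tsum_fintype]
  exact cell_inter_null hz ψ hij

theorem integral_smap (hK : IsCompact K) {z : ι → E d} (hz : Function.Injective z) (ψ : ι → ℝ)
    {F : Type*} [NormedAddCommGroup F] [NormedSpace ℝ F] {f : E d → E d → F}
    (hf : Integrable (fun x => f x (smap K z ψ x)) (unif K)) :
    ∫ x, f x (smap K z ψ x) ∂unif K = ∑ i, ∫ x in cell K z ψ i, f x (z i) ∂unif K := by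
  rw [integral_cells hK hz ψ hf]
  refine Finset.sum_congr rfl fun i _ => ?_
  refine setIntegral_congr_ae (measurableSet_cell hK z ψ i) ?_
  filter_upwards [ae_unique_cell hK hz ψ] with x hx hxi
  obtain ⟨j, hj, hu⟩ := hx
  have : i = j := hu i hxi
  subst this
  rw [smap_eq hj hu]

/-- The masses of the cells sum to one. -/
theorem sum_mass (hK : IsCompact K) (hKi : (interior K).Nonempty) {z : ι → E d}
    (hz : Function.Injective z) (ψ : ι → ℝ) : ∑ i, (unif K).real (cell K z ψ i) = 1 := by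
  have := unif_prob hK hKi
  have h := integral_cells hK hz ψ (f := fun _ => (1 : ℝ)) (integrable_const _)
  simp only [integral_const, probReal_univ, smul_eq_mul, mul_one, measureReal_restrict_apply_univ]
    at h
  exact h.symm

theorem integral_comp_smap (hK : IsCompact K) (hKi : (interior K).Nonempty) {z : ι → E d}
    (hz : Function.Injective z) (ψ : ι → ℝ) {g : E d → ℝ} (hg : Continuous g) :
    ∫ x, g (smap K z ψ x) ∂unif K = ∑ i, (unif K).real (cell K z ψ i) * g (z i) := by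
  have := unif_prob hK hKi
  have hi : Integrable (fun x => g (smap K z ψ x)) (unif K) := by
    refine Integrable.of_bound (hg.measurable.comp (measurable_smap hK z ψ)).aestronglyMeasurable
      (∑ i, |g (z i)|) ?_
    filter_upwards [ae_smap hK hz ψ] with x hx
    obtain ⟨i, _, hi⟩ := hx
    rw [hi]
    exact Finset.single_le_sum (f := fun i => |g (z i)|) (fun j _ => abs_nonneg _)
      (Finset.mem_univ i)
  rw [integral_smap (f := fun _ y => g y) hK hz ψ hi]
  simp only [setIntegral_const, smul_eq_mul]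

/-- The conjugate of `φ` relative to `K`. -/
noncomputable def conj (K : Set (E d)) (φ : E d → ℝ) (y : E d) : ℝ :=
  sSup ((fun x => inner ℝ x y - φ x) '' K)

theorem bddAbove_conj (hK : IsCompact K) {φ : E d → ℝ} (hφ : Continuous φ) (y : E d) :
    BddAbove ((fun x => inner ℝ x y - φ x) '' K) :=
  (hK.image (by fun_prop : Continuous fun x => inner ℝ x y - φ x)).bddAbove

theorem le_conj (hK : IsCompact K) {φ : E d → ℝ} (hφ : Continuous φ) {x y : E d} (hx : x ∈ K) :
    inner ℝ x y ≤ φ x + conj K φ y := by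
  have : inner ℝ x y - φ x ≤ conj K φ y :=
    le_csSup (bddAbove_conj hK hφ y) (mem_image_of_mem (fun x => inner ℝ x y - φ x) hx)
  linarith

theorem conj_le (hKn : K.Nonempty) {φ : E d → ℝ} {y : E d} {c : ℝ}
    (h : ∀ x ∈ K, inner ℝ x y - φ x ≤ c) : conj K φ y ≤ c := by
  unfold conj
  refine csSup_le (hKn.image _) ?_
  rintro _ ⟨x, hx, rfl⟩
  exact h x hx

theorem conj_lip (hK : IsCompact K) (hKn : K.Nonempty) {D : ℝ} (hD : ∀ x ∈ K, ‖x‖ ≤ D)
    {φ : E d → ℝ} (hφ : Continuous φ) (y y' : E d) :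
    |conj K φ y - conj K φ y'| ≤ D * ‖y - y'‖ := by
  have main : ∀ y y' : E d, conj K φ y ≤ conj K φ y' + D * ‖y - y'‖ := by
    intro y y'
    refine conj_le hKn fun x hx => ?_
    have h1 := le_conj hK hφ (y := y') hx
    have h2 : inner ℝ x (y - y') ≤ D * ‖y - y'‖ :=
      (real_inner_le_norm _ _).trans (mul_le_mul_of_nonneg_right (hD x hx) (norm_nonneg _))
    rw [inner_sub_right] at h2
    linarith
  rw [abs_sub_le_iff]
  constructor
  · have := main y y'; linarith
  · have := main y' y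
    rw [norm_sub_rev] at this
    linarith

theorem conj_eq (hK : IsCompact K) {φ : E d → ℝ} (hφ : Continuous φ) {x y : E d} (hx : x ∈ K)
    (hsub : ∀ x' ∈ K, φ x + inner ℝ y (x' - x) ≤ φ x') :
    φ x + conj K φ y = inner ℝ x y := by
  refine le_antisymm ?_ (le_conj hK hφ hx)
  have : conj K φ y ≤ inner ℝ x y - φ x := by
    refine conj_le ⟨x, hx⟩ fun x' hx' => ?_
    have h1 := hsub x' hx'
    rw [inner_sub_right, real_inner_comm, real_inner_comm x y] at h1
    linarith
  linarith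

end Vale.Agent.P074
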