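import Vale.Agent.Lib.P074.Inner

open MeasureTheory Set Filter Topology
open scoped ENNReal NNReal

namespace Vale.Agent.P074

variable {d : ℕ} {K : Set (E d)}

theorem unif_compl_inn_le (hK : IsCompact K) (hKc : Convex ℝ K) (hKi : (interior K).Nonempty)
    {x₀ : E d} (hx₀ : x₀ ∈ K) {s : ℝ} (hs0 : 0 ≤ s) (hs1 : s ≤ 1) :
    (unif K).real (inn K x₀ s)ᶜ ≤ d * s := by
  have hvK : 0 < volume.real K := ENNReal.toReal_pos (volume_pos_of_interior hKi) hK.measure_lt_top.ne
  have hAm := (isCompact_inn hK x₀ s).measurableSet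
  have h1 : (unif K).real (inn K x₀ s)ᶜ = (volume.real K)⁻¹ * volume.real (K \ inn K x₀ s) := by
    unfold unif
    rw [Measure.real, Measure.smul_apply, Measure.restrict_apply hAm.compl, smul_eq_mul,
      ENNReal.toReal_mul, ENNReal.toReal_inv, inter_comm, ← sdiff_eq]
    rfl
  rw [h1, inv_mul_le_iff₀ hvK]
  have := volume_diff_inn_le hK hKc hx₀ hs0 hs1
  linarith

/-- The `i`-th unit vector. -/
noncomputable def eb (i : Fin d) : E d := EuclideanSpace.single i 1

theorem norm_eb (i : Fin d) : ‖eb i‖ = 1 := by unfold eb; simp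

theorem inner_eb (i : Fin d) (v : E d) : inner ℝ (eb i) v = v i := by
  unfold eb
  rw [EuclideanSpace.inner_single_left]
  simp

theorem norm_le_sum_abs (v : E d) : ‖v‖ ≤ ∑ i, |v i| := by
  have h1 : ‖v‖ ^ 2 ≤ (∑ i, |v i|) ^ 2 := by
    rw [EuclideanSpace.norm_sq_eq]
    simp only [Real.norm_eq_abs]
    rw [sq (∑ i, |v i|), Finset.sum_mul]
    refine Finset.sum_le_sum fun i _ => ?_
    rw [sq]
    exact mul_le_mul_of_nonneg_left
      (Finset.single_le_sum (f := fun j => |v j|) (fun j _ => abs_nonneg _) (Finset.mem_univ i))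
      (abs_nonneg _)
  exact le_of_sq_le_sq h1 (Finset.sum_nonneg fun i _ => abs_nonneg _)

/-- pointwise estimate -/
theorem pointwise_gap (hKc : Convex ℝ K) {x₀ : E d} {r₀ : ℝ}
    (hball : Metric.closedBall x₀ r₀ ⊆ K) {φ : E d → ℝ} {g : E d → ℝ} {Tx Sx x : E d} {s h : ℝ}
    (hs0 : 0 < s) (hs1 : s ≤ 1) (hh0 : 0 < h) (hh : h ≤ s * r₀) (hx : x ∈ inn K x₀ s)
    (hsub : ∀ y ∈ K, φ x + inner ℝ Sx (y - x) ≤ φ y)
    (hg : ∀ y ∈ K, inner ℝ y Tx ≤ φ y + g Tx) (i : Fin d) :
    h * |(Tx - Sx) i| ≤ (φ x + g Tx - inner ℝ x Tx) + sd φ (h • eb i) x := by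
  have main : ∀ w : E d, ‖w‖ ≤ s * r₀ →
      inner ℝ w (Tx - Sx) ≤ (φ x + g Tx - inner ℝ x Tx) + sd φ w x := by
    intro w hw
    have h1 : x + w ∈ K := add_mem_of_inn hKc hball hs0 hs1 hx hw
    have h2 : x - w ∈ K := by
      rw [sub_eq_add_neg]
      exact add_mem_of_inn hKc hball hs0 hs1 hx (by rwa [norm_neg])
    have h3 := hg _ h1
    have h4 := hsub _ h2
    rw [show x - w - x = -w by abel, inner_neg_right, real_inner_comm] at h4
    rw [inner_add_left] at h3
    rw [inner_sub_right]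
    unfold sd
    linarith
  have hn : ‖h • eb i‖ ≤ s * r₀ := by
    rw [norm_smul, norm_eb, mul_one, Real.norm_of_nonneg hh0.le]; exact hh
  have h1 := main (h • eb i) hn
  have h2 := main (-(h • eb i)) (by rwa [norm_neg])
  rw [sd_neg, inner_neg_left] at h2
  rw [inner_smul_left, inner_eb] at h1 h2
  simp only [conj_trivial] at h1 h2
  rw [← abs_of_pos hh0, ← abs_mul, abs_of_pos hh0]
  exact abs_le.mpr ⟨by linarith, h1⟩

theorem l1_bound (hK : IsCompact K) (hKc : Convex ℝ K) (hKi : (interior K).Nonempty)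
    {x₀ : E d} {r₀ : ℝ} (hr₀ : 0 < r₀) (hball : Metric.closedBall x₀ r₀ ⊆ K) {φ : E d → ℝ} {R : ℝ}
    (hR : 0 ≤ R) (hL : ∀ x y, |φ x - φ y| ≤ R * ‖x - y‖) {g : E d → ℝ} {T S : E d → E d}
    (hT : Measurable T) (hS : Measurable S) (hTR : ∀ᵐ x ∂unif K, ‖T x‖ ≤ R)
    (hSR : ∀ᵐ x ∂unif K, ‖S x‖ ≤ R)
    (hsub : ∀ᵐ x ∂unif K, ∀ y ∈ K, φ x + inner ℝ (S x) (y - x) ≤ φ y)
    (hg : ∀ᵐ x ∂unif K, ∀ y ∈ K, inner ℝ y (T x) ≤ φ y + g (T x))
    (hgi : Integrable (fun x => g (T x)) (unif K)) {h : ℝ} (hh0 : 0 < h) (hh : h ≤ r₀) :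
    ∫ x, ‖T x - S x‖ ∂unif K ≤
      d * (∫ x, (φ x + g (T x) - inner ℝ x (T x)) ∂unif K) / h
        + (2 * R * d ^ 2 + 2 * R * d) * h / r₀ := by
  have := unif_prob hK hKi
  have hx₀ : x₀ ∈ K := hball (Metric.mem_closedBall_self hr₀.le)
  have hφc := continuous_of_lip hL
  obtain ⟨D, hD0, hD⟩ := exists_bound hK
  set s := h / r₀ with hs
  have hs0 : 0 < s := div_pos hh0 hr₀
  have hs1 : s ≤ 1 := (div_le_one hr₀).mpr hh
  have hsr : s * r₀ = h := by rw [hs]; field_simp
  set A := inn K x₀ s with hA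
  have hAc : IsCompact A := isCompact_inn hK x₀ s
  have hAm : MeasurableSet A := hAc.measurableSet
  have hAK : A ⊆ K := inn_subset hKc hx₀ hs0.le hs1
  have hφi : Integrable φ (unif K) := by
    obtain ⟨B, hB⟩ := hK.exists_bound_of_continuousOn hφc.continuousOn
    refine Integrable.of_bound hφc.aestronglyMeasurable B ?_
    filter_upwards [ae_mem hK] with x hx
    exact hB x hx
  have hTi := integrable_inner hK hKi hT hTR
  set gap : E d → ℝ := fun x => φ x + g (T x) - inner ℝ x (T x) with hgap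
  have hgapi : Integrable gap (unif K) := (hφi.add hgi).sub hTi
  have hgap0 : ∀ᵐ x ∂unif K, 0 ≤ gap x := by
    filter_upwards [hg, ae_mem hK] with x hx hxK
    have := hx x hxK
    simp only [hgap]
    linarith
  have hDi : Integrable (fun x => ‖T x - S x‖) (unif K) := by
    refine Integrable.of_bound (hT.sub hS).norm.aestronglyMeasurable (R + R) ?_
    filter_upwards [hTR, hSR] with x h1 h2
    rw [norm_norm]
    exact (norm_sub_le _ _).trans (add_le_add h1 h2)
  have hsdi : ∀ i, Integrable (fun x => sd φ (h • eb i) x) (unif K) := by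
    intro i
    have hc : Continuous (fun x => sd φ (h • eb i) x) := by unfold sd; fun_prop
    obtain ⟨B, hB⟩ := hK.exists_bound_of_continuousOn hc.continuousOn
    refine Integrable.of_bound hc.aestronglyMeasurable B ?_
    filter_upwards [ae_mem hK] with x hx
    exact hB x hx
  have hinner : h * ∫ x in A, ‖T x - S x‖ ∂unif K ≤
      d * (∫ x, gap x ∂unif K) + d * (2 * R * h * (d * s)) := by
    calc h * ∫ x in A, ‖T x - S x‖ ∂unif K = ∫ x in A, h * ‖T x - S x‖ ∂unif K := by
          rw [integral_const_mul]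
      _ ≤ ∫ x in A, (d * gap x + ∑ i, sd φ (h • eb i) x) ∂unif K := by
          refine setIntegral_mono_ae_restrict (hDi.const_mul h).integrableOn
            ((hgapi.const_mul _).add (integrable_finsetSum _ fun i _ => hsdi i)).integrableOn ?_
          have h1 := ae_restrict_of_ae (s := A) (hg.and hsub)
          filter_upwards [h1, ae_restrict_mem hAm] with x hx hxA
          calc h * ‖T x - S x‖ ≤ h * ∑ i, |(T x - S x) i| :=
                mul_le_mul_of_nonneg_left (norm_le_sum_abs _) hh0.le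
            _ = ∑ i, h * |(T x - S x) i| := Finset.mul_sum _ _ _
            _ ≤ ∑ i : Fin d, (gap x + sd φ (h • eb i) x) := by
                refine Finset.sum_le_sum fun i _ => ?_
                exact pointwise_gap hKc hball hs0 hs1 hh0 hsr.ge hxA hx.2 hx.1 i
            _ = d * gap x + ∑ i, sd φ (h • eb i) x := by
                rw [Finset.sum_add_distrib]
                simp
      _ = d * (∫ x in A, gap x ∂unif K) + ∑ i, ∫ x in A, sd φ (h • eb i) x ∂unif K := by
          rw [integral_add (hgapi.const_mul _).integrableOn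
            (integrable_finsetSum _ fun i _ => (hsdi i).integrableOn), integral_const_mul,
            integral_finsetSum _ fun i _ => (hsdi i).integrableOn]
      _ ≤ d * (∫ x, gap x ∂unif K) + ∑ i : Fin d, 2 * R * h * (d * s) := by
          refine add_le_add ?_ (Finset.sum_le_sum fun i _ => ?_)
          · refine mul_le_mul_of_nonneg_left ?_ (Nat.cast_nonneg _)
            exact setIntegral_le_integral hgapi hgap0
          · have h1 := integral_sd_le hK hKc hKi hr₀ hball hR hL hs0 hs1 (w := h • eb i)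
              (by rw [norm_smul, norm_eb, mul_one, Real.norm_of_nonneg hh0.le]; exact hsr.ge)
            rwa [norm_smul, norm_eb, mul_one, Real.norm_of_nonneg hh0.le] at h1
      _ = d * (∫ x, gap x ∂unif K) + d * (2 * R * h * (d * s)) := by simp
  have houter : ∫ x in Aᶜ, ‖T x - S x‖ ∂unif K ≤ 2 * R * (d * s) := by
    calc ∫ x in Aᶜ, ‖T x - S x‖ ∂unif K ≤ ∫ x in Aᶜ, 2 * R ∂unif K := by
          refine setIntegral_mono_ae_restrict hDi.integrableOn (integrable_const _).integrableOn ?_
          filter_upwards [ae_restrict_of_ae (s := Aᶜ) (hTR.and hSR)] with x hx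
          exact (norm_sub_le _ _).trans (by linarith [hx.1, hx.2])
      _ = 2 * R * (unif K).real Aᶜ := by
          rw [setIntegral_const, smul_eq_mul, mul_comm]
      _ ≤ 2 * R * (d * s) :=
          mul_le_mul_of_nonneg_left (unif_compl_inn_le hK hKc hKi hx₀ hs0.le hs1) (by positivity)
  have htot := integral_add_compl hAm hDi
  rw [← htot]
  have h2 : ∫ x in A, ‖T x - S x‖ ∂unif K ≤
      (d * (∫ x, gap x ∂unif K) + d * (2 * R * h * (d * s))) / h := by
    rw [le_div_iff₀ hh0, mul_comm]; exact hinner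
  calc (∫ x in A, ‖T x - S x‖ ∂unif K) + ∫ x in Aᶜ, ‖T x - S x‖ ∂unif K
      ≤ (d * (∫ x, gap x ∂unif K) + d * (2 * R * h * (d * s))) / h + 2 * R * (d * s) :=
        add_le_add h2 houter
    _ = _ := by
        rw [hs]
        field_simp
        ring

/-- pointwise estimate, two potentials -/
theorem pointwise_two (hKc : Convex ℝ K) {x₀ : E d} {r₀ : ℝ}
    (hball : Metric.closedBall x₀ r₀ ⊆ K) {φ ψ : E d → ℝ} {c : ℝ} {Tx Sx x : E d} {s h : ℝ}
    (hs0 : 0 < s) (hs1 : s ≤ 1) (hh0 : 0 < h) (hh : h ≤ s * r₀) (hx : x ∈ inn K x₀ s)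
    (hsub : ∀ y ∈ K, φ x + inner ℝ Sx (y - x) ≤ φ y)
    (hsub' : ∀ y ∈ K, ψ x + inner ℝ Tx (y - x) ≤ ψ y) (i : Fin d) :
    h * |(Tx - Sx) i| ≤ sd φ (h • eb i) x + |φ x - ψ x - c|
      + |φ (x + h • eb i) - ψ (x + h • eb i) - c| + |φ (x - h • eb i) - ψ (x - h • eb i) - c| := by
  have main : ∀ w : E d, ‖w‖ ≤ s * r₀ →
      inner ℝ w (Tx - Sx) ≤ sd φ w x + |φ x - ψ x - c| + |φ (x + w) - ψ (x + w) - c| := by
    intro w hw
    have h1 : x + w ∈ K := add_mem_of_inn hKc hball hs0 hs1 hx hw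
    have h2 : x - w ∈ K := by
      rw [sub_eq_add_neg]
      exact add_mem_of_inn hKc hball hs0 hs1 hx (by rwa [norm_neg])
    have h3 := hsub' _ h1
    have h4 := hsub _ h2
    rw [show x - w - x = -w by abel, inner_neg_right, real_inner_comm] at h4
    rw [add_sub_cancel_left, real_inner_comm] at h3
    rw [inner_sub_right]
    have h5 := neg_abs_le (φ (x + w) - ψ (x + w) - c)
    have h6 := le_abs_self (φ x - ψ x - c)
    unfold sd
    linarith
  have hn : ‖h • eb i‖ ≤ s * r₀ := by
    rw [norm_smul, norm_eb, mul_one, Real.norm_of_nonneg hh0.le]; exact hh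
  have h1 := main (h • eb i) hn
  have h2 := main (-(h • eb i)) (by rwa [norm_neg])
  rw [sd_neg, inner_neg_left, ← sub_eq_add_neg] at h2
  rw [inner_smul_left, inner_eb] at h1 h2
  simp only [conj_trivial] at h1 h2
  rw [← abs_of_pos hh0, ← abs_mul, abs_of_pos hh0]
  have h3 := abs_nonneg (φ (x + h • eb i) - ψ (x + h • eb i) - c)
  have h4 := abs_nonneg (φ (x - h • eb i) - ψ (x - h • eb i) - c)
  exact abs_le.mpr ⟨by linarith, by linarith⟩

/-- Translation estimate. -/
theorem integral_translate_le (hK : IsCompact K) (hKc : Convex ℝ K)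
    {x₀ : E d} {r₀ : ℝ} (hr₀ : 0 < r₀) (hball : Metric.closedBall x₀ r₀ ⊆ K) {f : E d → ℝ}
    (hf : Continuous f) (hf0 : ∀ x, 0 ≤ f x) {s : ℝ} (hs0 : 0 < s) (hs1 : s ≤ 1)
    {w : E d} (hw : ‖w‖ ≤ s * r₀) :
    ∫ x in inn K x₀ s, f (x + w) ∂unif K ≤ ∫ x, f x ∂unif K := by
  have hx₀ : x₀ ∈ K := hball (Metric.mem_closedBall_self hr₀.le)
  set A := inn K x₀ s with hA
  have hAc : IsCompact A := isCompact_inn hK x₀ s
  have hAm : MeasurableSet A := hAc.measurableSet
  have hAK : A ⊆ K := inn_subset hKc hx₀ hs0.le hs1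
  set A' := (fun x => x - w) ⁻¹' A with hA'
  have hA'm : MeasurableSet A' := hAm.preimage (measurable_id.sub measurable_const)
  have hA'K : A' ⊆ K := by
    intro x hx
    have hx' : x - w ∈ A := hx
    have := add_mem_of_inn hKc hball hs0 hs1 hx' hw
    rwa [sub_add_cancel] at this
  rw [integral_unif_eq hK f, setIntegral_unif hAm hAK, setIntegral_unif hK.measurableSet subset_rfl]
  refine mul_le_mul_of_nonneg_left ?_ (by positivity)
  have h1 : ∫ x in A, f (x + w) = ∫ x in A', f x := by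
    have := (measurePreserving_sub_right volume w).setIntegral_preimage_emb
      (MeasurableEquiv.subRight w).measurableEmbedding (fun x => f (x + w)) A
    simp only [sub_add_cancel] at this
    exact this.symm
  rw [h1]
  exact setIntegral_mono_set (hf.continuousOn.integrableOn_compact hK)
    (Filter.Eventually.of_forall hf0) (LE.le.eventuallyLE hA'K)

theorem l2_bound (hK : IsCompact K) (hKc : Convex ℝ K) (hKi : (interior K).Nonempty)
    {x₀ : E d} {r₀ : ℝ} (hr₀ : 0 < r₀) (hball : Metric.closedBall x₀ r₀ ⊆ K) {φ ψ : E d → ℝ} {R : ℝ}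
    (hR : 0 ≤ R) (hφ : ConvexOn ℝ univ φ) (hL : ∀ x y, |φ x - φ y| ≤ R * ‖x - y‖)
    (hLψ : ∀ x y, |ψ x - ψ y| ≤ R * ‖x - y‖) {T S : E d → E d}
    (hT : Measurable T) (hS : Measurable S) (hTR : ∀ᵐ x ∂unif K, ‖T x‖ ≤ R)
    (hSR : ∀ᵐ x ∂unif K, ‖S x‖ ≤ R)
    (hsub : ∀ᵐ x ∂unif K, ∀ y ∈ K, φ x + inner ℝ (S x) (y - x) ≤ φ y)
    (hsub' : ∀ᵐ x ∂unif K, ∀ y ∈ K, ψ x + inner ℝ (T x) (y - x) ≤ ψ y) (c : ℝ)
    {h : ℝ} (hh0 : 0 < h) (hh : h ≤ r₀) :
    ∫ x, ‖T x - S x‖ ^ 2 ∂unif K ≤
      12 * d * (∫ x, (φ x - ψ x - c) ^ 2 ∂unif K) / h ^ 2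
        + (16 * R ^ 2 * d ^ 2 + 4 * R ^ 2 * d) * h / r₀ := by
  have := unif_prob hK hKi
  have hx₀ : x₀ ∈ K := hball (Metric.mem_closedBall_self hr₀.le)
  have hφc := continuous_of_lip hL
  have hψc := continuous_of_lip hLψ
  set s := h / r₀ with hs
  have hs0 : 0 < s := div_pos hh0 hr₀
  have hs1 : s ≤ 1 := (div_le_one hr₀).mpr hh
  have hsr : s * r₀ = h := by rw [hs]; field_simp
  set A := inn K x₀ s with hA
  have hAc : IsCompact A := isCompact_inn hK x₀ s
  have hAm : MeasurableSet A := hAc.measurableSet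
  have hAK : A ⊆ K := inn_subset hKc hx₀ hs0.le hs1
  have hci : ∀ f : E d → ℝ, Continuous f → Integrable f (unif K) := by
    intro f hf
    obtain ⟨B, hB⟩ := hK.exists_bound_of_continuousOn hf.continuousOn
    refine Integrable.of_bound hf.aestronglyMeasurable B ?_
    filter_upwards [ae_mem hK] with x hx
    exact hB x hx
  set u : E d → ℝ := fun x => (φ x - ψ x - c) ^ 2 with hu
  have huc : Continuous u := by fun_prop
  have hu0 : ∀ x, 0 ≤ u x := fun x => sq_nonneg _
  have hDi : Integrable (fun x => ‖T x - S x‖ ^ 2) (unif K) := by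
    refine Integrable.of_bound ((hT.sub hS).norm.pow_const 2).aestronglyMeasurable ((R + R) ^ 2) ?_
    filter_upwards [hTR, hSR] with x h1 h2
    rw [Real.norm_of_nonneg (by positivity)]
    exact pow_le_pow_left₀ (norm_nonneg _) ((norm_sub_le _ _).trans (add_le_add h1 h2)) 2
  have hsdc : ∀ i, Continuous (fun x => sd φ (h • eb i) x) := by
    intro i; unfold sd; fun_prop
  have hnw : ∀ i : Fin d, ‖h • eb i‖ = h := by
    intro i
    rw [norm_smul, norm_eb, mul_one, Real.norm_of_nonneg hh0.le]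
  have hpt : ∀ i : Fin d, ∀ᵐ x ∂(unif K).restrict A, h ^ 2 * ((T x - S x) i) ^ 2 ≤
      4 * (2 * R * h * sd φ (h • eb i) x + u x + u (x + h • eb i) + u (x - h • eb i)) := by
    intro i
    have h1 := ae_restrict_of_ae (s := A) (hsub.and hsub')
    filter_upwards [h1, ae_restrict_mem hAm] with x hx hxA
    have h2 := pointwise_two (c := c) hKc hball hs0 hs1 hh0 hsr.ge hxA hx.1 hx.2 i
    have h3 := sd_nonneg hφ (h • eb i) x
    have h4 := sd_le hL (h • eb i) x
    rw [hnw] at h4
    set a1 := sd φ (h • eb i) x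
    set a2 := |φ x - ψ x - c| with ha2
    set a3 := |φ (x + h • eb i) - ψ (x + h • eb i) - c| with ha3
    set a4 := |φ (x - h • eb i) - ψ (x - h • eb i) - c| with ha4
    have e2 : u x = a2 ^ 2 := by rw [ha2, sq_abs]
    have e3 : u (x + h • eb i) = a3 ^ 2 := by rw [ha3, sq_abs]
    have e4 : u (x - h • eb i) = a4 ^ 2 := by rw [ha4, sq_abs]
    rw [e2, e3, e4]
    have h5 : (h * |(T x - S x) i|) ^ 2 ≤ (a1 + a2 + a3 + a4) ^ 2 :=
      pow_le_pow_left₀ (by positivity) h2 2
    rw [mul_pow, sq_abs] at h5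
    have h6 : a1 ^ 2 ≤ 2 * R * h * a1 := by nlinarith
    have h7 : (a1 + a2 + a3 + a4) ^ 2 ≤ 4 * (a1 ^ 2 + a2 ^ 2 + a3 ^ 2 + a4 ^ 2) := by
      nlinarith [sq_nonneg (a1 - a2), sq_nonneg (a1 - a3), sq_nonneg (a1 - a4),
        sq_nonneg (a2 - a3), sq_nonneg (a2 - a4), sq_nonneg (a3 - a4)]
    linarith
  have hcoord : ∀ i : Fin d, Integrable (fun x => ((T x - S x) i) ^ 2) (unif K) := by
    intro i
    refine Integrable.mono' hDi ?_ (Filter.Eventually.of_forall fun x => ?_)
    · have hm : Measurable (fun x => (T x - S x) i) :=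
        (PiLp.continuous_apply 2 _ i).measurable.comp (hT.sub hS)
      exact (hm.pow_const 2).aestronglyMeasurable
    · rw [Real.norm_of_nonneg (sq_nonneg _), EuclideanSpace.norm_sq_eq]
      simp only [Real.norm_eq_abs, sq_abs]
      exact Finset.single_le_sum (f := fun j => ((T x - S x) j) ^ 2) (fun j _ => sq_nonneg _)
        (Finset.mem_univ i)
  have hinner : h ^ 2 * ∫ x in A, ‖T x - S x‖ ^ 2 ∂unif K ≤
      d * (4 * (2 * R * h * (2 * R * h * (d * s)) + 3 * ∫ x, u x ∂unif K)) := by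
    have e1 : ∫ x in A, ‖T x - S x‖ ^ 2 ∂unif K = ∑ i, ∫ x in A, ((T x - S x) i) ^ 2 ∂unif K := by
      rw [← integral_finsetSum _ fun i _ => (hcoord i).integrableOn]
      refine integral_congr_ae (Filter.Eventually.of_forall fun x => ?_)
      simp only [EuclideanSpace.norm_sq_eq, Real.norm_eq_abs, sq_abs]
    rw [e1, Finset.mul_sum]
    calc ∑ i : Fin d, h ^ 2 * ∫ x in A, ((T x - S x) i) ^ 2 ∂unif K
        ≤ ∑ i : Fin d, (4 * (2 * R * h * (2 * R * h * (d * s)) + 3 * ∫ x, u x ∂unif K)) := by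
          refine Finset.sum_le_sum fun i _ => ?_
          rw [← integral_const_mul]
          have hi1 : Integrable (fun x => sd φ (h • eb i) x) (unif K) := hci _ (hsdc i)
          have hi2 : Integrable u (unif K) := hci _ huc
          have hi3 : Integrable (fun x => u (x + h • eb i)) (unif K) :=
            hci _ (huc.comp (continuous_id.add continuous_const))
          have hi4 : Integrable (fun x => u (x - h • eb i)) (unif K) :=
            hci _ (huc.comp (continuous_id.sub continuous_const))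
          calc ∫ x in A, h ^ 2 * ((T x - S x) i) ^ 2 ∂unif K
              ≤ ∫ x in A, 4 * (2 * R * h * sd φ (h • eb i) x + u x + u (x + h • eb i)
                  + u (x - h • eb i)) ∂unif K :=
                setIntegral_mono_ae_restrict ((hcoord i).const_mul _).integrableOn
                  (((((hi1.const_mul _).add hi2).add hi3).add hi4).const_mul _).integrableOn (hpt i)
            _ = 4 * (2 * R * h * (∫ x in A, sd φ (h • eb i) x ∂unif K) + (∫ x in A, u x ∂unif K)
                + (∫ x in A, u (x + h • eb i) ∂unif K)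
                + ∫ x in A, u (x - h • eb i) ∂unif K) := by
                have j1 : IntegrableOn (fun x => 2 * R * h * sd φ (h • eb i) x) A (unif K) :=
                  (hi1.const_mul (2 * R * h)).integrableOn
                have j2 : IntegrableOn (fun x => 2 * R * h * sd φ (h • eb i) x + u x) A (unif K) :=
                  ((hi1.const_mul (2 * R * h)).add hi2).integrableOn
                have j3 : IntegrableOn (fun x => 2 * R * h * sd φ (h • eb i) x + u x
                    + u (x + h • eb i)) A (unif K) :=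
                  (((hi1.const_mul (2 * R * h)).add hi2).add hi3).integrableOn
                rw [integral_const_mul, integral_add j3 hi4.integrableOn,
                  integral_add j2 hi3.integrableOn, integral_add j1 hi2.integrableOn,
                  integral_const_mul]
            _ ≤ _ := by
                have b1 := integral_sd_le hK hKc hKi hr₀ hball hR hL hs0 hs1 (w := h • eb i)
                  (by rw [hnw]; exact hsr.ge)
                rw [hnw] at b1
                have b2 : ∫ x in A, u x ∂unif K ≤ ∫ x, u x ∂unif K :=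
                  setIntegral_le_integral hi2 (Filter.Eventually.of_forall hu0)
                have b3 := integral_translate_le hK hKc hr₀ hball huc hu0 hs0 hs1
                  (w := h • eb i) (by rw [hnw]; exact hsr.ge)
                have b4 := integral_translate_le hK hKc hr₀ hball huc hu0 hs0 hs1
                  (w := -(h • eb i)) (by rw [norm_neg, hnw]; exact hsr.ge)
                simp only [← sub_eq_add_neg] at b4
                have b5 := mul_le_mul_of_nonneg_left b1 (show 0 ≤ 2 * R * h by positivity)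
                linarith
      _ = _ := by simp
  have houter : ∫ x in Aᶜ, ‖T x - S x‖ ^ 2 ∂unif K ≤ 4 * R ^ 2 * (d * s) := by
    calc ∫ x in Aᶜ, ‖T x - S x‖ ^ 2 ∂unif K ≤ ∫ x in Aᶜ, 4 * R ^ 2 ∂unif K := by
          refine setIntegral_mono_ae_restrict hDi.integrableOn (integrable_const _).integrableOn ?_
          filter_upwards [ae_restrict_of_ae (s := Aᶜ) (hTR.and hSR)] with x hx
          have h1 : ‖T x - S x‖ ≤ 2 * R := (norm_sub_le _ _).trans (by linarith [hx.1, hx.2])
          calc ‖T x - S x‖ ^ 2 ≤ (2 * R) ^ 2 := pow_le_pow_left₀ (norm_nonneg _) h1 2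
            _ = 4 * R ^ 2 := by ring
      _ = 4 * R ^ 2 * (unif K).real Aᶜ := by
          rw [setIntegral_const, smul_eq_mul, mul_comm]
      _ ≤ 4 * R ^ 2 * (d * s) :=
          mul_le_mul_of_nonneg_left (unif_compl_inn_le hK hKc hKi hx₀ hs0.le hs1) (by positivity)
  have htot := integral_add_compl hAm hDi
  rw [← htot]
  have h2 : ∫ x in A, ‖T x - S x‖ ^ 2 ∂unif K ≤
      (d * (4 * (2 * R * h * (2 * R * h * (d * s)) + 3 * ∫ x, u x ∂unif K))) / h ^ 2 := by
    rw [le_div_iff₀ (by positivity), mul_comm]; exact hinner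
  calc (∫ x in A, ‖T x - S x‖ ^ 2 ∂unif K) + ∫ x in Aᶜ, ‖T x - S x‖ ^ 2 ∂unif K
      ≤ (d * (4 * (2 * R * h * (2 * R * h * (d * s)) + 3 * ∫ x, u x ∂unif K))) / h ^ 2
          + 4 * R ^ 2 * (d * s) := add_le_add h2 houter
    _ = _ := by
        rw [hs]
        field_simp
        ring

end Vale.Agent.P074
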