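import Mathlib

open MeasureTheory Set
open scoped ENNReal NNReal

namespace Vale.Agent.P074

/-- Euclidean space of dimension `d`. -/
abbrev E (d : ℕ) := EuclideanSpace ℝ (Fin d)

/-- The uniform probability measure on `K`. -/
noncomputable def unif {d : ℕ} (K : Set (E d)) : Measure (E d) :=
  (volume K)⁻¹ • volume.restrict K

/-- `μ` is a Borel probability measure supported in `Y`. -/
def IsProbOn {d : ℕ} (Y : Set (E d)) (μ : Measure (E d)) : Prop :=
  IsProbabilityMeasure μ ∧ μ Yᶜ = 0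

/-- `π` is a coupling of `μ` and `ν`. -/
def IsCoupling {d : ℕ} (μ ν : Measure (E d)) (π : Measure (E d × E d)) : Prop :=
  π.map Prod.fst = μ ∧ π.map Prod.snd = ν

/-- The quadratic Wasserstein distance: the infimum over couplings `π` of `μ` and `ν` of
`(∫ |y - z|^2 dπ(y,z))^(1/2)`. -/
noncomputable def W2 {d : ℕ} (μ ν : Measure (E d)) : ℝ≥0∞ :=
  ⨅ (π : Measure (E d × E d)) (_ : IsCoupling μ ν π), (∫⁻ p, ‖p.1 - p.2‖ₑ ^ 2 ∂π) ^ (1 / 2 : ℝ)

/-- `T` is a quadratic optimal transport map from the uniform probability measure on `K` to `μ`: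
a Borel map pushing the former to the latter which minimizes `∫ |x - T x|^2`. -/
def IsOptimalMap {d : ℕ} (K : Set (E d)) (μ : Measure (E d)) (T : E d → E d) : Prop :=
  Measurable T ∧ (unif K).map T = μ ∧
    ∀ T' : E d → E d, Measurable T' → (unif K).map T' = μ →
      ∫⁻ x, ‖x - T x‖ₑ ^ 2 ∂unif K ≤ ∫⁻ x, ‖x - T' x‖ₑ ^ 2 ∂unif K

/-- The exponent `α ∈ (0, 1]` is admissible in dimension `d`: for every compact convex `K` with
nonempty interior and every nonempty compact `Y` there is a finite `C` such that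
`‖T_μ - T_ν‖_{L^2(ρ)} ≤ C W_2(μ, ν)^α` for all probability measures `μ, ν` on `Y`. -/
def Admissible (d : ℕ) (α : ℝ) : Prop :=
  0 < α ∧ α ≤ 1 ∧
    ∀ K : Set (E d), IsCompact K → Convex ℝ K → (interior K).Nonempty →
      ∀ Y : Set (E d), IsCompact Y → Y.Nonempty →
        ∃ C : ℝ≥0, ∀ μ ν : Measure (E d), IsProbOn Y μ → IsProbOn Y ν →
          ∀ T S : E d → E d, IsOptimalMap K μ T → IsOptimalMap K ν S →
            eLpNorm (fun x => T x - S x) 2 (unif K) ≤ C * W2 μ ν ^ α

end Vale.Agent.P074
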