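import Mathlib

/-!
Real inequalities for the tessellation inequality.
-/

namespace Vale.Agent.P074.Tess

/-- geometric mean is at least the harmonic mean, in the form used below -/
theorem stage1 {P Q W : ℝ} (hP : 0 < P) (hQ : 0 < Q) (hW : 0 ≤ W) (h : P * Q ≤ W ^ 2) :
    (P + Q) / 2 - (P - Q) ^ 2 / (2 * (P + Q)) ≤ W := by
  have hs : 0 < P + Q := by positivity
  have e : (P + Q) / 2 - (P - Q) ^ 2 / (2 * (P + Q)) = 2 * (P * Q) / (P + Q) := by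
    field_simp
    ring
  rw [e]
  have hPQ : 0 < P * Q := by positivity
  have h2 : (2 * (P * Q) / (P + Q)) ^ 2 ≤ W ^ 2 := by
    refine le_trans ?_ h
    rw [div_pow, div_le_iff₀ (by positivity)]
    nlinarith [sq_nonneg (P - Q), mul_nonneg hPQ.le (sq_nonneg (P - Q))]
  exact (sq_le_sq₀ (by positivity) hW).1 h2

/-- The `τ`-part. `a = D² m`. -/
theorem stage2_tau {a τ N0 N1 : ℝ} (ha : 0 < a) (hτ : |τ| ≤ 1 / 4)
    (hN1' : N1 ≤ 2 * a) (hN : N1 - N0 = 8 * a * τ) :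
    a * τ ^ 2 / 3 ≤ τ / 16 * (N1 / (1 + τ) - N0) := by
  obtain ⟨h1, h2⟩ := abs_le.1 hτ
  have h3 : 0 < 1 + τ := by linarith
  have e : N1 / (1 + τ) - N0 = 8 * a * τ - τ * (N1 / (1 + τ)) := by
    have : N0 = N1 - 8 * a * τ := by linarith
    rw [this]
    field_simp
    ring
  rw [e]
  have h4 : N1 / (1 + τ) ≤ 8 / 3 * a := by
    rw [div_le_iff₀ h3]
    nlinarith
  nlinarith [mul_nonneg (sq_nonneg τ) (sub_nonneg.2 h4)]

/-- lower bound for the arithmetic mean; `G = g² / (72 m²)`, `κ` arbitrary -/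
theorem stage2 {κ m m' N0 N1 n g p0 p1 τ P Q t : ℝ} (hm : 0 < m)
    (hhi : m' ≤ 2 * m)
    (hp : p1 - p0 = 2 * g ^ 2 / (3 * m))
    (hP : P = κ * m - N0 / 2 - p0 / 4 - g ^ 2 / (36 * m ^ 2) * m - τ / 8 * N0)
    (hQ : Q = κ * m' - N1 / 2 + p1 / 4 - g ^ 2 / (36 * m ^ 2) * m' + τ / 8 * n)
    (ht : t ≤ τ / 16 * (n - N0)) :
    (κ * m - N0 / 2 + (κ * m' - N1 / 2)) / 2 + g ^ 2 / (24 * m) + t ≤ (P + Q) / 2 := by
  set G := g ^ 2 / (36 * m ^ 2) with hG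
  have hG0 : 0 ≤ G := by positivity
  have e1 : (P + Q) / 2 = (κ * m - N0 / 2 + (κ * m' - N1 / 2)) / 2
      + (p1 - p0) / 8 - G / 2 * (m + m') + τ / 16 * (n - N0) := by
    rw [hP, hQ]
    ring
  have h3 : G / 2 * (m + m') ≤ G / 2 * (3 * m) :=
    mul_le_mul_of_nonneg_left (by linarith) (by positivity)
  have h4 : G / 2 * (3 * m) = g ^ 2 / (24 * m) := by
    rw [hG]
    field_simp
    ring
  have h5 : (p1 - p0) / 8 = g ^ 2 / (24 * m) + g ^ 2 / (24 * m) := by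
    rw [hp]
    field_simp
    ring
  rw [e1, h5]
  linarith

/-- bound for the difference -/
theorem stage3 {b a m m' N0 N1 n g G p0 p1 τ P Q : ℝ} (ha : 0 < a)
    (hN0 : 0 ≤ N0) (hN0' : N0 ≤ a) (hn0 : 0 ≤ n) (hn1 : n ≤ 8 / 3 * a)
    (hG0 : 0 ≤ G) (hG : G ≤ b / 4) (hb : 0 < b)
    (hp' : |p0 + p1| ≤ 2 * g)
    (hNN : N1 - N0 = 8 * a * τ)
    (hP : P = 500 * b * m - N0 / 2 - p0 / 4 - G * m - τ / 8 * N0)
    (hQ : Q = 500 * b * m' - N1 / 2 + p1 / 4 - G * m' + τ / 8 * n) :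
    |P - Q| ≤ 501 * b * |m' - m| + 5 * a * |τ| + g / 2 := by
  have e : P - Q = (-(500 * b) + G) * (m' - m)
      + (4 * a - (N0 + n) / 8) * τ - (p0 + p1) / 4 := by
    have h1 : (N1 - N0) / 2 = 4 * a * τ := by linarith
    have e2 : P - Q
      = (-(500 * b) + G) * (m' - m) + (N1 - N0) / 2
        - (N0 + n) / 8 * τ - (p0 + p1) / 4 := by
      rw [hP, hQ]
      ring
    rw [e2, h1]
    ring
  have b1 : |(-(500 * b) + G) * (m' - m)| ≤ 501 * b * |m' - m| := by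
    rw [abs_mul]
    refine mul_le_mul_of_nonneg_right ?_ (abs_nonneg _)
    rw [abs_le]
    constructor <;> linarith
  have b2 : |(4 * a - (N0 + n) / 8) * τ| ≤ 5 * a * |τ| := by
    rw [abs_mul]
    refine mul_le_mul_of_nonneg_right ?_ (abs_nonneg _)
    rw [abs_le]
    constructor <;> linarith
  have b3 : |(p0 + p1) / 4| ≤ g / 2 := by
    rw [abs_div, abs_of_pos (by norm_num : (0:ℝ) < 4)]
    linarith
  rw [e]
  have c1 := abs_sub ((-(500 * b) + G) * (m' - m) + (4 * a - (N0 + n) / 8) * τ) ((p0 + p1) / 4)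
  have c2 := abs_add_le ((-(500 * b) + G) * (m' - m)) ((4 * a - (N0 + n) / 8) * τ)
  linarith

theorem sq_add3 (x y z : ℝ) : (x + y + z) ^ 2 ≤ 3 * (x ^ 2 + y ^ 2 + z ^ 2) := by
  nlinarith [sq_nonneg (x - y), sq_nonneg (y - z), sq_nonneg (x - z)]

theorem stage4 {b a m δ g τ P Q S : ℝ} (hm : 0 < m) (hb : 0 < b) (ha : a = b * m)
    (hS : 375 * a ≤ S)
    (h3 : |P - Q| ≤ 501 * b * |δ| + 5 * a * |τ| + g / 2) :
    (P - Q) ^ 2 / (2 * S) ≤ 1005 * (b * δ ^ 2 / m) + a * τ ^ 2 / 10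
      + g ^ 2 / (1000 * a) := by
  have ha0 : 0 < a := by rw [ha]; positivity
  have h4 : (P - Q) ^ 2 / (2 * S) ≤ (P - Q) ^ 2 / (750 * a) :=
    div_le_div_of_nonneg_left (sq_nonneg _) (by positivity) (by linarith)
  refine h4.trans ?_
  rw [div_le_iff₀ (by positivity)]
  have hx : (P - Q) ^ 2 ≤ (501 * b * |δ| + 5 * a * |τ| + g / 2) ^ 2 := by
    rw [← sq_abs (P - Q)]
    exact pow_le_pow_left₀ (abs_nonneg _) h3 2
  refine hx.trans ((sq_add3 _ _ _).trans ?_)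
  have e1 : (501 * b * |δ|) ^ 2 = (501 * b) ^ 2 * δ ^ 2 := by
    rw [mul_pow, sq_abs]
  have e2 : (5 * a * |τ|) ^ 2 = 25 * a ^ 2 * τ ^ 2 := by
    rw [mul_pow, sq_abs]; ring
  rw [e1, e2]
  have e : (1005 * (b * δ ^ 2 / m) + a * τ ^ 2 / 10 + g ^ 2 / (1000 * a)) * (750 * a)
      = 753750 * (b ^ 2 * δ ^ 2) + 75 * a ^ 2 * τ ^ 2 + 3 / 4 * g ^ 2 := by
    have e3 : b * δ ^ 2 / m * a = b ^ 2 * δ ^ 2 := by
      rw [ha]
      field_simp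
    have e4 : g ^ 2 / (1000 * a) * (750 * a) = 3 / 4 * g ^ 2 := by
      field_simp
      ring
    calc (1005 * (b * δ ^ 2 / m) + a * τ ^ 2 / 10 + g ^ 2 / (1000 * a)) * (750 * a)
        = 753750 * (b * δ ^ 2 / m * a) + 75 * a ^ 2 * τ ^ 2
          + g ^ 2 / (1000 * a) * (750 * a) := by ring
      _ = _ := by rw [e3, e4]
  rw [e]
  have h5 : 0 ≤ b ^ 2 * δ ^ 2 := by positivity
  nlinarith [h5]

theorem tau_bound {a τ N0 N1 : ℝ} (ha : 0 < a) (hN0 : 0 ≤ N0) (hN0' : N0 ≤ a) (hN1 : 0 ≤ N1)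
    (hN1' : N1 ≤ 2 * a) (hNN : N1 - N0 = 8 * a * τ) : |τ| ≤ 1 / 4 := by
  rw [abs_le]
  constructor
  · by_contra hc
    push Not at hc
    nlinarith
  · by_contra hc
    push Not at hc
    nlinarith

theorem n_bound {a τ N1 : ℝ} (ha : 0 < a) (hτ : |τ| ≤ 1 / 4) (hN1 : 0 ≤ N1)
    (hN1' : N1 ≤ 2 * a) : 0 ≤ N1 / (1 + τ) ∧ N1 / (1 + τ) ≤ 8 / 3 * a := by
  obtain ⟨ht1, ht2⟩ := abs_le.1 hτ
  have ht3 : 0 < 1 + τ := by linarith
  refine ⟨by positivity, ?_⟩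
  rw [div_le_iff₀ ht3]
  nlinarith

theorem G_bound {D m g : ℝ} (hm : 0 < m) (hg : 0 ≤ g) (hg' : g ≤ 3 * D * m) :
    g ^ 2 / (36 * m ^ 2) ≤ D ^ 2 / 4 := by
  rw [div_le_iff₀ (by positivity)]
  have : g ^ 2 ≤ (3 * D * m) ^ 2 := pow_le_pow_left₀ hg hg' 2
  nlinarith

theorem g_bound {D m g : ℝ} (hm : 0 < m) (hD : 0 < D) :
    (g * D) ^ 2 / (1000 * (D ^ 2 * m)) ≤ g ^ 2 / (48 * m) := by
  have e : (g * D) ^ 2 / (1000 * (D ^ 2 * m)) = g ^ 2 / (1000 * m) := by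
    field_simp
  rw [e]
  exact div_le_div_of_nonneg_left (sq_nonneg _) (by positivity) (by linarith)

theorem core {D m m' N0 N1 g p0 p1 τ P Q W : ℝ} (hD : 0 < D) (hm : 0 < m)
    (hlo : m / 2 ≤ m') (hhi : m' ≤ 2 * m) (hN0 : 0 ≤ N0) (hN0' : N0 ≤ D ^ 2 * m) (hN1 : 0 ≤ N1)
    (hN1' : N1 ≤ D ^ 2 * m') (hg : 0 ≤ g) (hg' : g ≤ 3 * D * m)
    (hp : p1 - p0 = 2 * g ^ 2 / (3 * m)) (hp' : |p0 + p1| ≤ 2 * (g * D))
    (hτ : τ = (N1 - N0) / (8 * D ^ 2 * m))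
    (hP : P = 500 * D ^ 2 * m - N0 / 2 - p0 / 4 - g ^ 2 / (36 * m ^ 2) * m - τ / 8 * N0)
    (hQ : Q = 500 * D ^ 2 * m' - N1 / 2 + p1 / 4 - g ^ 2 / (36 * m ^ 2) * m'
      + τ / 8 * (N1 / (1 + τ)))
    (hPp : 250 * D ^ 2 * m ≤ P) (hQp : 250 * D ^ 2 * m' ≤ Q) (hW : 0 ≤ W) (h : P * Q ≤ W ^ 2) :
    (500 * D ^ 2 * m - N0 / 2 + (500 * D ^ 2 * m' - N1 / 2)) / 2 + g ^ 2 / (48 * m)
      - 6000 * (D ^ 2 * (m' - m) ^ 2 / m) ≤ W := by
  have hD2 : 0 < D ^ 2 := by positivity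
  have hmm : D ^ 2 * m' ≤ D ^ 2 * (2 * m) := mul_le_mul_of_nonneg_left hhi hD2.le
  have hmm2 : D ^ 2 * (m / 2) ≤ D ^ 2 * m' := mul_le_mul_of_nonneg_left hlo hD2.le
  obtain ⟨a, ha⟩ : ∃ a, a = D ^ 2 * m := ⟨_, rfl⟩
  have ha0 : 0 < a := by rw [ha]; positivity
  have hN1a : N1 ≤ 2 * a := by rw [ha]; linarith
  have hN0a : N0 ≤ a := by rw [ha]; exact hN0'
  have hNN : N1 - N0 = 8 * a * τ := by
    rw [hτ, ha]
    field_simp
  have hτ4 := tau_bound ha0 hN0 hN0a hN1 hN1a hNN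
  have h2t := stage2_tau ha0 hτ4 hN1a hNN
  obtain ⟨hn0, hn1⟩ := n_bound ha0 hτ4 hN1 hN1a
  have hm' : 0 < m' := by linarith
  have hPpos : 0 < P := lt_of_lt_of_le (by positivity) hPp
  have hQpos : 0 < Q := lt_of_lt_of_le (by positivity) hQp
  have hS := stage1 hPpos hQpos hW h
  have h2 := stage2 hm hhi hp hP hQ h2t
  have h3 := stage3 (g := g * D) ha0 hN0 hN0a hn0 hn1 (by positivity) (G_bound hm hg hg') hD2 hp'
    hNN hP hQ
  have hsum : 375 * a ≤ P + Q := by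
    have h1 : 125 * a ≤ 250 * D ^ 2 * m' := by rw [ha]; linarith
    have h2 : 250 * D ^ 2 * m = 250 * a := by rw [ha]; ring
    linarith
  have h4 := stage4 hm hD2 ha hsum h3
  have h6 : 0 ≤ D ^ 2 * (m' - m) ^ 2 / m := by positivity
  have h9 : g ^ 2 / (24 * m) = 2 * (g ^ 2 / (48 * m)) := by
    field_simp
    ring
  have h10 := g_bound (g := g) hm hD
  rw [← ha] at h10
  have h11 : 0 ≤ a * τ ^ 2 := by positivity
  clear hP hQ hp hp' hτ hNN hN1' hN0' h h3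
  linarith

end Vale.Agent.P074.Tess
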