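import Vale.Agent.Lib.P074.Defs

/-!
Basic facts on power cells used for the tessellation inequality.
-/

open MeasureTheory Set Filter Topology Function
open scoped ENNReal NNReal

namespace Vale.Agent.P074.Tess

variable {d : ℕ} {ι : Type*} {K : Set (E d)}

theorem cell_subset (z : ι → E d) (ψ : ι → ℝ) (i : ι) : cell K z ψ i ⊆ K := fun _ hx => hx.1

theorem isClosed_half (v : E d) (c : ℝ) : IsClosed {x : E d | inner ℝ v x ≤ c} :=
  isClosed_le (by fun_prop) continuous_const

theorem cell_eq (z : ι → E d) (ψ : ι → ℝ) (i : ι) :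
    cell K z ψ i = K ∩ ⋂ j, {x | inner ℝ (z j) x - ψ j ≤ inner ℝ (z i) x - ψ i} := by
  ext x
  simp [cell]

theorem isClosed_cell (hK : IsClosed K) (z : ι → E d) (ψ : ι → ℝ) (i : ι) :
    IsClosed (cell K z ψ i) := by
  rw [cell_eq]
  refine hK.inter (isClosed_iInter fun j => ?_)
  exact isClosed_le (by fun_prop) (by fun_prop)

theorem measurableSet_cell (hK : IsCompact K) (z : ι → E d) (ψ : ι → ℝ) (i : ι) :
    MeasurableSet (cell K z ψ i) := (isClosed_cell hK.isClosed z ψ i).measurableSet

/-- A hyperplane is a null set. -/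
theorem volume_hyperplane {v : E d} (hv : v ≠ 0) (c : ℝ) :
    volume {x : E d | inner ℝ v x = c} = 0 := by
  by_cases h : ∃ x0 : E d, inner ℝ v x0 = c
  · obtain ⟨x0, hx0⟩ := h
    let s : Submodule ℝ (E d) := LinearMap.ker (innerSL ℝ v).toLinearMap
    have hs : s ≠ ⊤ := by
      intro hs
      have : v ∈ s := by rw [hs]; trivial
      have h2 : inner ℝ v v = (0 : ℝ) := by simpa [s] using this
      exact hv (inner_self_eq_zero.1 h2)
    have h0 := Measure.addHaar_submodule volume s hs
    have h1 : {x : E d | inner ℝ v x = c} = (fun x => x + (-x0)) ⁻¹' (s : Set (E d)) := by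
      ext x
      simp [s, inner_add_right, hx0]
      constructor
      · intro h; linarith
      · intro h; linarith
    rw [h1, measure_preimage_add_right, h0]
  · push Not at h
    have : {x : E d | inner ℝ v x = c} = ∅ := by
      ext x
      simp [h x]
    rw [this, measure_empty]

theorem cell_inter_subset (z : ι → E d) (ψ : ι → ℝ) (i j : ι) :
    cell K z ψ i ∩ cell K z ψ j ⊆ {x | inner ℝ (z i - z j) x = ψ i - ψ j} := by
  rintro x ⟨hi, hj⟩
  have h1 := hi.2 j
  have h2 := hj.2 i
  simp only [mem_ofPred_eq, inner_sub_left]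
  linarith

theorem aedisjoint_cell {z : ι → E d} (hz : Injective z) (ψ : ι → ℝ) :
    Pairwise (AEDisjoint volume on (cell K z ψ)) := by
  intro i j hij
  have hne : z i - z j ≠ 0 := sub_ne_zero.2 (fun h => hij (hz h))
  exact measure_mono_null (cell_inter_subset z ψ i j) (volume_hyperplane hne _)

theorem iUnion_cell [Fintype ι] [Nonempty ι] (z : ι → E d) (ψ : ι → ℝ) :
    ⋃ i, cell K z ψ i = K := by
  refine subset_antisymm (iUnion_subset fun i => cell_subset z ψ i) ?_
  intro x hx
  obtain ⟨i, -, hi⟩ := Finset.exists_max_image (Finset.univ : Finset ι)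
    (fun i => inner ℝ (z i) x - ψ i) Finset.univ_nonempty
  exact mem_iUnion.2 ⟨i, hx, fun j => hi j (Finset.mem_univ j)⟩

theorem midpoint_mem_cell (hKc : Convex ℝ K) {z : ι → E d} {ψ ψ' : ι → ℝ} {i : ι} {x y : E d}
    (hx : x ∈ cell K z ψ i) (hy : y ∈ cell K z ψ' i) :
    (1 / 2 : ℝ) • (x + y) ∈ cell K z (fun j => (ψ j + ψ' j) / 2) i := by
  constructor
  · have := hKc hx.1 hy.1 (by norm_num : (0:ℝ) ≤ 1/2) (by norm_num : (0:ℝ) ≤ 1/2) (by norm_num)
    rwa [← smul_add] at this
  · intro j
    have h1 := hx.2 j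
    have h2 := hy.2 j
    simp only [inner_smul_right, inner_add_right]
    linarith

/-- Integrals over subsets of `K` against `unif K` in terms of Lebesgue measure. -/
theorem restrict_unif {A : Set (E d)} (hA : MeasurableSet A) (hAK : A ⊆ K) :
    (unif K).restrict A = (volume K)⁻¹ • volume.restrict A := by
  unfold unif
  rw [Measure.restrict_smul, Measure.restrict_restrict hA, inter_eq_left.2 hAK]

theorem setIntegral_unif {F : Type*} [NormedAddCommGroup F] [NormedSpace ℝ F]
    {A : Set (E d)} (hA : MeasurableSet A) (hAK : A ⊆ K) (f : E d → F) :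
    ∫ x in A, f x ∂unif K = (volume K)⁻¹.toReal • ∫ x in A, f x := by
  rw [restrict_unif hA hAK, integral_smul_measure]

theorem integrableOn_of_continuous {F : Type*} [NormedAddCommGroup F] [NormedSpace ℝ F]
    (hK : IsCompact K) {f : E d → F} (hf : Continuous f)
    {A : Set (E d)} (hAK : A ⊆ K) : IntegrableOn f A volume :=
  (hf.continuousOn.integrableOn_compact hK).mono_set hAK

theorem volume_pos (hKi : (interior K).Nonempty) : volume K ≠ 0 :=
  (MeasureTheory.Measure.measure_pos_of_nonempty_interior volume hKi).ne'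

theorem integrableOn_unif {F : Type*} [NormedAddCommGroup F] [NormedSpace ℝ F]
    (hK : IsCompact K) (hKi : (interior K).Nonempty) {f : E d → F} (hf : Continuous f)
    {A : Set (E d)} (hA : MeasurableSet A) (hAK : A ⊆ K) : IntegrableOn f A (unif K) := by
  unfold IntegrableOn
  rw [restrict_unif hA hAK]
  refine (integrableOn_of_continuous hK hf hAK).smul_measure ?_
  rw [ENNReal.inv_ne_top]
  exact volume_pos hKi

theorem sum_cell_integral [Fintype ι] [Nonempty ι] (hK : IsCompact K)
    {z : ι → E d} (hz : Injective z) (ψ : ι → ℝ) {g : E d → ℝ} (hg : Continuous g) :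
    ∑ i, ∫ x in cell K z ψ i, g x ∂unif K = ∫ x in K, g x ∂unif K := by
  have h1 : ∀ i, ∫ x in cell K z ψ i, g x ∂unif K
      = (volume K)⁻¹.toReal * ∫ x in cell K z ψ i, g x := fun i => by
    rw [setIntegral_unif (measurableSet_cell hK z ψ i) (cell_subset z ψ i), smul_eq_mul]
  simp only [h1]
  rw [← Finset.mul_sum, setIntegral_unif hK.measurableSet subset_rfl, smul_eq_mul]
  congr 1
  have h2 := integral_iUnion_ae (μ := volume) (f := g)
    (fun i => (measurableSet_cell hK z ψ i).nullMeasurableSet)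
    (aedisjoint_cell (K := K) hz ψ) (by
      rw [iUnion_cell]
      exact integrableOn_of_continuous hK hg subset_rfl)
  rw [iUnion_cell, tsum_fintype] at h2
  exact h2.symm

/-- The Prekopa-Leindler inequality with parameter one half. -/
def PLhalf (d : ℕ) : Prop :=
  ∀ f g h : E d → ℝ≥0∞, Measurable f → Measurable g → Measurable h →
    (∀ x y, f x * g y ≤ (h ((1 / 2 : ℝ) • (x + y))) ^ 2) →
    (∫⁻ x, f x) * (∫⁻ x, g x) ≤ (∫⁻ x, h x) ^ 2

theorem lintegral_indicator_ofReal (hK : IsCompact K) {A : Set (E d)} (hA : MeasurableSet A)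
    (hAK : A ⊆ K) {f : E d → ℝ} (hf : Continuous f) (hf0 : ∀ x ∈ A, 0 ≤ f x) :
    ∫⁻ x, A.indicator (fun x => ENNReal.ofReal (f x)) x = ENNReal.ofReal (∫ x in A, f x) := by
  rw [lintegral_indicator hA, ofReal_integral_eq_lintegral_ofReal
    (integrableOn_of_continuous hK hf hAK)]
  exact (ae_restrict_iff' hA).2 (Filter.Eventually.of_forall hf0)

theorem pl_real (PL : PLhalf d) (hK : IsCompact K)
    {A B C : Set (E d)} (hA : MeasurableSet A) (hB : MeasurableSet B) (hC : MeasurableSet C)
    (hAK : A ⊆ K) (hBK : B ⊆ K) (hCK : C ⊆ K) {f g h : E d → ℝ} (hf : Continuous f)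
    (hg : Continuous g) (hh : Continuous h) (hf0 : ∀ x ∈ A, 0 ≤ f x) (hg0 : ∀ x ∈ B, 0 ≤ g x)
    (hh0 : ∀ x ∈ C, 0 ≤ h x)
    (H : ∀ x ∈ A, ∀ y ∈ B, (1 / 2 : ℝ) • (x + y) ∈ C ∧
      f x * g y ≤ h ((1 / 2 : ℝ) • (x + y)) ^ 2) :
    (∫ x in A, f x ∂unif K) * (∫ x in B, g x ∂unif K) ≤ (∫ x in C, h x ∂unif K) ^ 2 := by
  have h1 := PL (A.indicator (fun x => ENNReal.ofReal (f x)))
    (B.indicator (fun x => ENNReal.ofReal (g x))) (C.indicator (fun x => ENNReal.ofReal (h x)))
    ((by fun_prop : Measurable fun x => ENNReal.ofReal (f x)).indicator hA)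
    ((by fun_prop : Measurable fun x => ENNReal.ofReal (g x)).indicator hB)
    ((by fun_prop : Measurable fun x => ENNReal.ofReal (h x)).indicator hC)
    (by
      intro x y
      by_cases hx : x ∈ A
      · by_cases hy : y ∈ B
        · obtain ⟨h2, h3⟩ := H x hx y hy
          rw [indicator_of_mem hx, indicator_of_mem hy, indicator_of_mem h2,
            ← ENNReal.ofReal_mul (hf0 x hx), ← ENNReal.ofReal_pow (hh0 _ h2)]
          exact ENNReal.ofReal_le_ofReal h3
        · rw [indicator_of_notMem hy]; simp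
      · rw [indicator_of_notMem hx]; simp)
  rw [lintegral_indicator_ofReal hK hA hAK hf hf0, lintegral_indicator_ofReal hK hB hBK hg hg0,
    lintegral_indicator_ofReal hK hC hCK hh hh0] at h1
  have hIf : 0 ≤ ∫ x in A, f x := setIntegral_nonneg hA hf0
  have hIg : 0 ≤ ∫ x in B, g x := setIntegral_nonneg hB hg0
  have hIh : 0 ≤ ∫ x in C, h x := setIntegral_nonneg hC hh0
  rw [← ENNReal.ofReal_mul hIf, ← ENNReal.ofReal_pow hIh,
    ENNReal.ofReal_le_ofReal_iff (by positivity)] at h1
  rw [setIntegral_unif hA hAK, setIntegral_unif hB hBK, setIntegral_unif hC hCK]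
  simp only [smul_eq_mul]
  have hc : 0 ≤ (volume K)⁻¹.toReal := ENNReal.toReal_nonneg
  calc (volume K)⁻¹.toReal * (∫ x in A, f x) * ((volume K)⁻¹.toReal * ∫ x in B, g x)
      = (volume K)⁻¹.toReal ^ 2 * ((∫ x in A, f x) * ∫ x in B, g x) := by ring
    _ ≤ (volume K)⁻¹.toReal ^ 2 * (∫ x in C, h x) ^ 2 :=
        mul_le_mul_of_nonneg_left h1 (by positivity)
    _ = _ := by ring

end Vale.Agent.P074.Tess
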