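import Vale.Agent.Lib.P074.TessBase
import Vale.Agent.Lib.P074.TessAlg

/-!
The one-cell estimate for the tessellation inequality.
-/

open MeasureTheory Set Filter Topology Function
open scoped ENNReal NNReal

namespace Vale.Agent.P074.Tess

variable {d : ℕ} {K : Set (E d)}

theorem isFinite_unif (hK : IsCompact K) (hKi : (interior K).Nonempty) :
    IsFiniteMeasure (unif K) := by
  unfold unif
  have h1 : volume K ≠ 0 := volume_pos hKi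
  have h2 : volume K ≠ ∞ := hK.measure_lt_top.ne
  refine ⟨?_⟩
  rw [Measure.smul_apply, Measure.restrict_apply MeasurableSet.univ, univ_inter, smul_eq_mul,
    ENNReal.inv_mul_cancel h1 h2]
  exact ENNReal.one_lt_top

theorem int_quad (hK : IsCompact K) (hKi : (interior K).Nonempty) {S : Set (E d)}
    (hS : MeasurableSet S) (hSK : S ⊆ K) (α β : ℝ) (v : E d) :
    ∫ x in S, (α + inner ℝ v x + β * ‖x‖ ^ 2) ∂unif K
      = α * (unif K).real S + inner ℝ v (∫ x in S, x ∂unif K)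
        + β * ∫ x in S, ‖x‖ ^ 2 ∂unif K := by
  have i1 : IntegrableOn (fun _ : E d => α) S (unif K) :=
    integrableOn_unif hK hKi continuous_const hS hSK
  have i2 : IntegrableOn (fun x : E d => inner ℝ v x) S (unif K) :=
    integrableOn_unif hK hKi (by fun_prop) hS hSK
  have i3 : IntegrableOn (fun x : E d => β * ‖x‖ ^ 2) S (unif K) :=
    integrableOn_unif hK hKi (by fun_prop) hS hSK
  have i4 : IntegrableOn (fun x : E d => x) S (unif K) :=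
    integrableOn_unif hK hKi continuous_id hS hSK
  have i5 : IntegrableOn (fun x : E d => α + inner ℝ v x) S (unif K) :=
    integrableOn_unif hK hKi (by fun_prop) hS hSK
  have e1 : ∫ x in S, (α + inner ℝ v x + β * ‖x‖ ^ 2) ∂unif K
      = (∫ x in S, (α + inner ℝ v x) ∂unif K) + ∫ x in S, β * ‖x‖ ^ 2 ∂unif K :=
    integral_add i5 i3
  have e2 : ∫ x in S, (α + inner ℝ v x) ∂unif K
      = (∫ _x in S, α ∂unif K) + ∫ x in S, inner ℝ v x ∂unif K :=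
    integral_add i1 i2
  have e3 : ∫ x in S, inner ℝ v x ∂unif K = inner ℝ v (∫ x in S, x ∂unif K) :=
    integral_inner i4 v
  rw [e1, e2, e3, setIntegral_const, integral_const_mul, smul_eq_mul, mul_comm]

theorem norm_moment_le (hK : IsCompact K) (hKi : (interior K).Nonempty) {D : ℝ}
    (hDK : ∀ x ∈ K, ‖x‖ ≤ D) {S : Set (E d)} (hSK : S ⊆ K) :
    ‖∫ x in S, x ∂unif K‖ ≤ D * (unif K).real S := by
  have := isFinite_unif hK hKi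
  exact norm_setIntegral_le_of_norm_le_const (measure_lt_top _ _) fun x hx => hDK x (hSK hx)

theorem moment2_nonneg {S : Set (E d)} :
    0 ≤ ∫ x in S, ‖x‖ ^ 2 ∂unif K := integral_nonneg fun x => by positivity

theorem moment2_le (hK : IsCompact K) (hKi : (interior K).Nonempty) {D : ℝ}
    (hDK : ∀ x ∈ K, ‖x‖ ≤ D) {S : Set (E d)} (hSK : S ⊆ K) :
    ∫ x in S, ‖x‖ ^ 2 ∂unif K ≤ D ^ 2 * (unif K).real S := by
  have := isFinite_unif hK hKi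
  have h := norm_setIntegral_le_of_norm_le_const (μ := unif K) (s := S)
    (f := fun x : E d => ‖x‖ ^ 2) (C := D ^ 2) (measure_lt_top _ _) fun x hx => by
      rw [norm_pow, norm_norm]
      exact pow_le_pow_left₀ (norm_nonneg _) (hDK x (hSK hx)) 2
  exact (le_abs_self _).trans h

/-- pointwise inequality at midpoints -/
theorem pointwise (D τ : ℝ) (hτ : 0 < 1 + τ) (u x y : E d) :
    (((500 * D ^ 2 - ‖u‖ ^ 2 / 16) + inner ℝ (-(1 / 4 : ℝ) • u) x + (-1 / 2 - τ / 8) * ‖x‖ ^ 2)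
      + ((500 * D ^ 2 - ‖u‖ ^ 2 / 16) + inner ℝ ((1 / 4 : ℝ) • u) y
        + (-1 / 2 + τ / (8 * (1 + τ))) * ‖y‖ ^ 2)) / 2
      ≤ 500 * D ^ 2 + inner ℝ (0 : E d) ((1 / 2 : ℝ) • (x + y))
        + (-1 / 2) * ‖(1 / 2 : ℝ) • (x + y)‖ ^ 2 := by
  have h1 : 0 ≤ ‖x - y + u‖ ^ 2 := by positivity
  have h2 : 0 ≤ ‖(1 + τ) • x - y‖ ^ 2 / (1 + τ) := by positivity
  have e1 : ‖x - y + u‖ ^ 2 = ‖x‖ ^ 2 + ‖y‖ ^ 2 + ‖u‖ ^ 2 - 2 * inner ℝ x y + 2 * inner ℝ u x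
      - 2 * inner ℝ u y := by
    rw [norm_add_sq_real, norm_sub_sq_real, inner_sub_left, real_inner_comm u x,
      real_inner_comm u y]
    ring
  have e2 : ‖(1 + τ) • x - y‖ ^ 2 / (1 + τ)
      = (1 + τ) * ‖x‖ ^ 2 - 2 * inner ℝ x y + ‖y‖ ^ 2 / (1 + τ) := by
    rw [norm_sub_sq_real, norm_smul, inner_smul_left]
    simp only [conj_trivial, Real.norm_eq_abs, abs_of_pos hτ]
    field_simp
  have e3 : ‖(1 / 2 : ℝ) • (x + y)‖ ^ 2 = (‖x‖ ^ 2 + 2 * inner ℝ x y + ‖y‖ ^ 2) / 4 := by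
    rw [norm_smul, mul_pow, norm_add_sq_real]
    norm_num
    ring
  have e4 : τ / (8 * (1 + τ)) = 1 / 8 - 1 / (8 * (1 + τ)) := by
    field_simp
    ring
  have e5 : 1 / (8 * (1 + τ)) * ‖y‖ ^ 2 = ‖y‖ ^ 2 / (1 + τ) / 8 := by
    field_simp
  rw [e3, e4, inner_zero_left]
  simp only [inner_smul_left, conj_trivial]
  rw [e1] at h1
  rw [e2] at h2
  have e6 : (-1 / 2 + (1 / 8 - 1 / (8 * (1 + τ)))) * ‖y‖ ^ 2
      = -3 / 8 * ‖y‖ ^ 2 - ‖y‖ ^ 2 / (1 + τ) / 8 := by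
    rw [← e5]; ring
  rw [e6]
  have e7 : (-1 / 2 - τ / 8) * ‖x‖ ^ 2 = -3 / 8 * ‖x‖ ^ 2 - (1 + τ) * ‖x‖ ^ 2 / 8 := by ring
  rw [e7]
  linarith

theorem lower_a {D τ : ℝ} (hD : 0 < D) (hτ : |τ| ≤ 1 / 4) {u x : E d} (hu : ‖u‖ ≤ 2 * D)
    (hx : ‖x‖ ≤ D) :
    250 * D ^ 2 ≤ (500 * D ^ 2 - ‖u‖ ^ 2 / 16) + inner ℝ (-(1 / 4 : ℝ) • u) x
      + (-1 / 2 - τ / 8) * ‖x‖ ^ 2 := by
  obtain ⟨h1, h2⟩ := abs_le.1 hτ
  have h3 : ‖u‖ ^ 2 ≤ 4 * D ^ 2 := by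
    have := pow_le_pow_left₀ (norm_nonneg _) hu 2
    nlinarith
  have h4 : ‖x‖ ^ 2 ≤ D ^ 2 := pow_le_pow_left₀ (norm_nonneg _) hx 2
  have h5 : inner ℝ u x ≤ 2 * D * D :=
    (real_inner_le_norm u x).trans (mul_le_mul hu hx (norm_nonneg _) (by positivity))
  have h6 : inner ℝ (-(1 / 4 : ℝ) • u) x = -(1 / 4) * inner ℝ u x := by
    rw [inner_smul_left]; simp
  rw [h6]
  have h7 : (1 / 2 + τ / 8) * ‖x‖ ^ 2 ≤ 1 * ‖x‖ ^ 2 :=
    mul_le_mul_of_nonneg_right (by linarith) (by positivity)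
  nlinarith

theorem lower_b {D τ : ℝ} (hD : 0 < D) (hτ : |τ| ≤ 1 / 4) {u x : E d} (hu : ‖u‖ ≤ 2 * D)
    (hx : ‖x‖ ≤ D) :
    250 * D ^ 2 ≤ (500 * D ^ 2 - ‖u‖ ^ 2 / 16) + inner ℝ ((1 / 4 : ℝ) • u) x
      + (-1 / 2 + τ / (8 * (1 + τ))) * ‖x‖ ^ 2 := by
  obtain ⟨h1, h2⟩ := abs_le.1 hτ
  have h3 : ‖u‖ ^ 2 ≤ 4 * D ^ 2 := by
    have := pow_le_pow_left₀ (norm_nonneg _) hu 2
    nlinarith
  have h4 : ‖x‖ ^ 2 ≤ D ^ 2 := pow_le_pow_left₀ (norm_nonneg _) hx 2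
  have h5 : -(2 * D * D) ≤ inner ℝ u x := by
    have := abs_real_inner_le_norm u x
    have h8 : ‖u‖ * ‖x‖ ≤ 2 * D * D := mul_le_mul hu hx (norm_nonneg _) (by positivity)
    linarith [(abs_le.1 this).1]
  have h6 : inner ℝ ((1 / 4 : ℝ) • u) x = (1 / 4) * inner ℝ u x := by
    rw [inner_smul_left]; simp
  rw [h6]
  have h9 : -1 / 2 ≤ τ / (8 * (1 + τ)) := by
    rw [le_div_iff₀ (by linarith)]
    nlinarith
  have h7 : -1 * ‖x‖ ^ 2 ≤ (-1 / 2 + τ / (8 * (1 + τ))) * ‖x‖ ^ 2 :=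
    mul_le_mul_of_nonneg_right (by linarith) (by positivity)
  nlinarith

theorem pl_step (PL : PLhalf d) (hK : IsCompact K) (hKi : (interior K).Nonempty)
    {D : ℝ} (hD : 0 < D) (hDK : ∀ x ∈ K, ‖x‖ ≤ D)
    {A B C : Set (E d)} (hA : MeasurableSet A) (hB : MeasurableSet B) (hC : MeasurableSet C)
    (hAK : A ⊆ K) (hBK : B ⊆ K) (hCK : C ⊆ K)
    (hmid : ∀ x ∈ A, ∀ y ∈ B, (1 / 2 : ℝ) • (x + y) ∈ C)
    {u : E d} {τ : ℝ} (hu2 : ‖u‖ ≤ 2 * D) (hτ4 : |τ| ≤ 1 / 4) :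
    ((500 * D ^ 2 - ‖u‖ ^ 2 / 16) * (unif K).real A
        + inner ℝ (-(1 / 4 : ℝ) • u) (∫ x in A, x ∂unif K)
        + (-1 / 2 - τ / 8) * ∫ x in A, ‖x‖ ^ 2 ∂unif K)
      * ((500 * D ^ 2 - ‖u‖ ^ 2 / 16) * (unif K).real B
        + inner ℝ ((1 / 4 : ℝ) • u) (∫ x in B, x ∂unif K)
        + (-1 / 2 + τ / (8 * (1 + τ))) * ∫ x in B, ‖x‖ ^ 2 ∂unif K)
      ≤ (∫ x in C, (500 * D ^ 2 + inner ℝ (0 : E d) x + (-1 / 2) * ‖x‖ ^ 2) ∂unif K) ^ 2 := by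
  obtain ⟨ht1, ht2⟩ := abs_le.1 hτ4
  have ht3 : 0 < 1 + τ := by linarith
  have hpl := pl_real PL hK hA hB hC hAK hBK hCK
    (f := fun x => (500 * D ^ 2 - ‖u‖ ^ 2 / 16) + inner ℝ (-(1 / 4 : ℝ) • u) x
      + (-1 / 2 - τ / 8) * ‖x‖ ^ 2)
    (g := fun x => (500 * D ^ 2 - ‖u‖ ^ 2 / 16) + inner ℝ ((1 / 4 : ℝ) • u) x
      + (-1 / 2 + τ / (8 * (1 + τ))) * ‖x‖ ^ 2)
    (h := fun x => 500 * D ^ 2 + inner ℝ (0 : E d) x + (-1 / 2) * ‖x‖ ^ 2)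
    (by fun_prop) (by fun_prop) (by fun_prop)
    (fun x hx => (by positivity : (0:ℝ) ≤ 250 * D ^ 2).trans
      (lower_a hD hτ4 hu2 (hDK x (hAK hx))))
    (fun x hx => (by positivity : (0:ℝ) ≤ 250 * D ^ 2).trans
      (lower_b hD hτ4 hu2 (hDK x (hBK hx))))
    (fun x hx => by
      have h4 : ‖x‖ ^ 2 ≤ D ^ 2 := pow_le_pow_left₀ (norm_nonneg _) (hDK x (hCK hx)) 2
      rw [inner_zero_left]
      nlinarith)
    (by
      intro x hx y hy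
      refine ⟨hmid x hx y hy, ?_⟩
      have h1 := lower_a hD hτ4 hu2 (hDK x (hAK hx))
      have h2 := lower_b hD hτ4 hu2 (hDK y (hBK hy))
      have h3 := pointwise D τ ht3 u x y
      have h0 : (0:ℝ) ≤ 250 * D ^ 2 := by positivity
      generalize (500 * D ^ 2 - ‖u‖ ^ 2 / 16) + inner ℝ (-(1 / 4 : ℝ) • u) x
        + (-1 / 2 - τ / 8) * ‖x‖ ^ 2 = P at h1 h3 ⊢
      generalize (500 * D ^ 2 - ‖u‖ ^ 2 / 16) + inner ℝ ((1 / 4 : ℝ) • u) y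
        + (-1 / 2 + τ / (8 * (1 + τ))) * ‖y‖ ^ 2 = Q at h2 h3 ⊢
      have h5 : ((P + Q) / 2) ^ 2 ≤ (500 * D ^ 2 + inner ℝ (0 : E d) ((1 / 2 : ℝ) • (x + y))
        + (-1 / 2) * ‖(1 / 2 : ℝ) • (x + y)‖ ^ 2) ^ 2 :=
        pow_le_pow_left₀ (by linarith) h3 2
      refine le_trans ?_ h5
      nlinarith [sq_nonneg (P - Q)])
  rw [int_quad hK hKi hA hAK, int_quad hK hKi hB hBK] at hpl
  exact hpl

theorem lower_P (hK : IsCompact K) (hKi : (interior K).Nonempty)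
    {D : ℝ} (hD : 0 < D) (hDK : ∀ x ∈ K, ‖x‖ ≤ D)
    {A : Set (E d)} (hA : MeasurableSet A) (hAK : A ⊆ K)
    {u : E d} {τ : ℝ} (hu2 : ‖u‖ ≤ 2 * D) (hτ4 : |τ| ≤ 1 / 4) :
    250 * D ^ 2 * (unif K).real A ≤ (500 * D ^ 2 - ‖u‖ ^ 2 / 16) * (unif K).real A
        + inner ℝ (-(1 / 4 : ℝ) • u) (∫ x in A, x ∂unif K)
        + (-1 / 2 - τ / 8) * ∫ x in A, ‖x‖ ^ 2 ∂unif K := by
  rw [← int_quad hK hKi hA hAK]
  have h1 : ∫ _x in A, (250 * D ^ 2 : ℝ) ∂unif K = 250 * D ^ 2 * (unif K).real A := by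
    rw [setIntegral_const, smul_eq_mul, mul_comm]
  rw [← h1]
  refine setIntegral_mono_on (integrableOn_unif hK hKi continuous_const hA hAK)
    (integrableOn_unif hK hKi (by fun_prop) hA hAK) hA fun x hx => ?_
  exact lower_a hD hτ4 hu2 (hDK x (hAK hx))

theorem lower_Q (hK : IsCompact K) (hKi : (interior K).Nonempty)
    {D : ℝ} (hD : 0 < D) (hDK : ∀ x ∈ K, ‖x‖ ≤ D)
    {A : Set (E d)} (hA : MeasurableSet A) (hAK : A ⊆ K)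
    {u : E d} {τ : ℝ} (hu2 : ‖u‖ ≤ 2 * D) (hτ4 : |τ| ≤ 1 / 4) :
    250 * D ^ 2 * (unif K).real A ≤ (500 * D ^ 2 - ‖u‖ ^ 2 / 16) * (unif K).real A
        + inner ℝ ((1 / 4 : ℝ) • u) (∫ x in A, x ∂unif K)
        + (-1 / 2 + τ / (8 * (1 + τ))) * ∫ x in A, ‖x‖ ^ 2 ∂unif K := by
  rw [← int_quad hK hKi hA hAK]
  have h1 : ∫ _x in A, (250 * D ^ 2 : ℝ) ∂unif K = 250 * D ^ 2 * (unif K).real A := by
    rw [setIntegral_const, smul_eq_mul, mul_comm]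
  rw [← h1]
  refine setIntegral_mono_on (integrableOn_unif hK hKi continuous_const hA hAK)
    (integrableOn_unif hK hKi (by fun_prop) hA hAK) hA fun x hx => ?_
  exact lower_b hD hτ4 hu2 (hDK x (hAK hx))

theorem omega_nonneg {D : ℝ} (hDK : ∀ x ∈ K, ‖x‖ ≤ D)
    {C : Set (E d)} (hC : MeasurableSet C) (hCK : C ⊆ K) :
    0 ≤ ∫ x in C, (500 * D ^ 2 + inner ℝ (0 : E d) x + (-1 / 2) * ‖x‖ ^ 2) ∂unif K := by
  refine setIntegral_nonneg hC fun x hx => ?_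
  have h4 : ‖x‖ ^ 2 ≤ D ^ 2 := pow_le_pow_left₀ (norm_nonneg _) (hDK x (hCK hx)) 2
  rw [inner_zero_left]
  nlinarith [sq_nonneg D]

/-- algebraic assembly with vectors -/
theorem vec_core {D m m' N0 N1 W : ℝ} {M0 M1 : E d} (hD : 0 < D) (hm : 0 < m)
    (hlo : m / 2 ≤ m') (hhi : m' ≤ 2 * m) (hN0 : 0 ≤ N0) (hN0' : N0 ≤ D ^ 2 * m) (hN1 : 0 ≤ N1)
    (hN1' : N1 ≤ D ^ 2 * m') (hM0' : ‖M0‖ ≤ D * m) (hM1' : ‖M1‖ ≤ D * m') (hW : 0 ≤ W)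
    (H : ∀ (u : E d) (τ : ℝ), ‖u‖ ≤ 2 * D → |τ| ≤ 1 / 4 →
      250 * D ^ 2 * m ≤ (500 * D ^ 2 - ‖u‖ ^ 2 / 16) * m + inner ℝ (-(1 / 4 : ℝ) • u) M0
        + (-1 / 2 - τ / 8) * N0 ∧
      250 * D ^ 2 * m' ≤ (500 * D ^ 2 - ‖u‖ ^ 2 / 16) * m' + inner ℝ ((1 / 4 : ℝ) • u) M1
        + (-1 / 2 + τ / (8 * (1 + τ))) * N1 ∧
      ((500 * D ^ 2 - ‖u‖ ^ 2 / 16) * m + inner ℝ (-(1 / 4 : ℝ) • u) M0
        + (-1 / 2 - τ / 8) * N0) *
      ((500 * D ^ 2 - ‖u‖ ^ 2 / 16) * m' + inner ℝ ((1 / 4 : ℝ) • u) M1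
        + (-1 / 2 + τ / (8 * (1 + τ))) * N1) ≤ W ^ 2) :
    (500 * D ^ 2 * m - N0 / 2 + (500 * D ^ 2 * m' - N1 / 2)) / 2 + ‖M1 - M0‖ ^ 2 / (48 * m)
      - 6000 * (D ^ 2 * (m' - m) ^ 2 / m) ≤ W := by
  have hD2 : 0 < D ^ 2 := by positivity
  obtain ⟨g, hg⟩ : ∃ g, g = ‖M1 - M0‖ := ⟨_, rfl⟩
  have hg0 : 0 ≤ g := by rw [hg]; exact norm_nonneg _
  have h2D : D * m' ≤ D * (2 * m) := mul_le_mul_of_nonneg_left hhi hD.le
  have hg' : g ≤ 3 * D * m := by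
    rw [hg]
    have h1 := norm_sub_le M1 M0
    linarith
  have hs : ‖M0 + M1‖ ≤ 3 * D * m := by
    have h1 := norm_add_le M0 M1
    linarith
  obtain ⟨u, hu⟩ : ∃ u, u = (2 / (3 * m)) • (M1 - M0) := ⟨_, rfl⟩
  have hun : ‖u‖ = 2 * g / (3 * m) := by
    rw [hu, norm_smul, ← hg, Real.norm_eq_abs, abs_of_pos (by positivity)]
    ring
  have hu2 : ‖u‖ ≤ 2 * D := by
    rw [hun, div_le_iff₀ (by positivity)]
    linarith
  have hp : inner ℝ u M1 - inner ℝ u M0 = 2 * g ^ 2 / (3 * m) := by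
    rw [← inner_sub_right, hu, inner_smul_left, real_inner_self_eq_norm_sq, ← hg]
    simp only [conj_trivial]
    ring
  have hp' : |inner ℝ u M0 + inner ℝ u M1| ≤ 2 * (g * D) := by
    rw [← inner_add_right]
    refine (abs_real_inner_le_norm _ _).trans ?_
    calc ‖u‖ * ‖M0 + M1‖ ≤ ‖u‖ * (3 * D * m) := mul_le_mul_of_nonneg_left hs (norm_nonneg _)
      _ = 2 * (g * D) := by
        rw [hun]
        field_simp
  obtain ⟨τ, hτ⟩ : ∃ τ, τ = (N1 - N0) / (8 * D ^ 2 * m) := ⟨_, rfl⟩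
  have hNN : N1 - N0 = 8 * (D ^ 2 * m) * τ := by
    rw [hτ]
    field_simp
  have hmm : D ^ 2 * m' ≤ D ^ 2 * (2 * m) := mul_le_mul_of_nonneg_left hhi hD2.le
  have hτ4 : |τ| ≤ 1 / 4 :=
    tau_bound (by positivity) hN0 hN0' hN1 (by linarith) hNN
  obtain ⟨ht1, ht2⟩ := abs_le.1 hτ4
  have ht3 : 0 < 1 + τ := by linarith
  have hu16 : ‖u‖ ^ 2 / 16 = g ^ 2 / (36 * m ^ 2) := by
    rw [hun]
    field_simp
    ring
  obtain ⟨hPp, hQp, hpl⟩ := H u τ hu2 hτ4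
  rw [← hg]
  refine core hD hm hlo hhi hN0 hN0' hN1 hN1' hg0 hg' hp hp' hτ ?_ ?_ hPp hQp hW hpl
  · rw [hu16, inner_smul_left]
    simp only [conj_trivial]
    ring
  · rw [hu16, inner_smul_left]
    simp only [conj_trivial]
    have e4 : τ / (8 * (1 + τ)) * N1 = τ / 8 * (N1 / (1 + τ)) := by
      field_simp
    have e5 : (-1 / 2 + τ / (8 * (1 + τ))) * N1 = -1 / 2 * N1 + τ / (8 * (1 + τ)) * N1 := by
      ring
    rw [e5, e4]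
    ring

theorem single_cell (PL : PLhalf d) (hK : IsCompact K) (hKi : (interior K).Nonempty)
    {D : ℝ} (hD : 0 < D) (hDK : ∀ x ∈ K, ‖x‖ ≤ D)
    {A B C : Set (E d)} (hA : MeasurableSet A) (hB : MeasurableSet B) (hC : MeasurableSet C)
    (hAK : A ⊆ K) (hBK : B ⊆ K) (hCK : C ⊆ K)
    (hmid : ∀ x ∈ A, ∀ y ∈ B, (1 / 2 : ℝ) • (x + y) ∈ C)
    {m m' : ℝ} (hm : 0 < m) (hlo : m / 2 ≤ m') (hhi : m' ≤ 2 * m)
    (hAm : (unif K).real A = m) (hBm : (unif K).real B = m') :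
    ((∫ x in A, (500 * D ^ 2 + inner ℝ (0 : E d) x + (-1 / 2) * ‖x‖ ^ 2) ∂unif K)
      + ∫ x in B, (500 * D ^ 2 + inner ℝ (0 : E d) x + (-1 / 2) * ‖x‖ ^ 2) ∂unif K) / 2
      + ‖(∫ x in B, x ∂unif K) - ∫ x in A, x ∂unif K‖ ^ 2 / (48 * m)
      - 6000 * (D ^ 2 * (m' - m) ^ 2 / m)
      ≤ ∫ x in C, (500 * D ^ 2 + inner ℝ (0 : E d) x + (-1 / 2) * ‖x‖ ^ 2) ∂unif K := by
  have hM0' := norm_moment_le hK hKi hDK hAK
  have hM1' := norm_moment_le hK hKi hDK hBK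
  have hN0' := moment2_le hK hKi hDK hAK
  have hN1' := moment2_le hK hKi hDK hBK
  have hN0 := moment2_nonneg (K := K) (S := A)
  have hN1 := moment2_nonneg (K := K) (S := B)
  rw [hAm] at hM0' hN0'
  rw [hBm] at hM1' hN1'
  have h1 := vec_core hD hm hlo hhi hN0 hN0' hN1 hN1' hM0' hM1' (omega_nonneg hDK hC hCK)
    (by
      intro u τ hu hτ
      have h1 := lower_P hK hKi hD hDK hA hAK hu hτ
      have h2 := lower_Q hK hKi hD hDK hB hBK hu hτ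
      have h3 := pl_step PL hK hKi hD hDK hA hB hC hAK hBK hCK hmid hu hτ
      rw [hAm] at h1 h3
      rw [hBm] at h2 h3
      exact ⟨h1, h2, h3⟩)
  refine le_trans (le_of_eq ?_) h1
  have e1 := int_quad hK hKi hA hAK (500 * D ^ 2) (-1 / 2) 0
  have e2 := int_quad hK hKi hB hBK (500 * D ^ 2) (-1 / 2) 0
  rw [hAm] at e1
  rw [hBm] at e2
  rw [e1, e2, inner_zero_left, inner_zero_left]
  ring

end Vale.Agent.P074.Tess
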