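import Vale.Agent.Lib.P074.TessCell

/-!
The tessellation inequality, from the Prekopa-Leindler inequality.
-/

open MeasureTheory Set Filter Topology Function
open scoped ENNReal NNReal

namespace Vale.Agent.P074.Tess

variable {d : ℕ} {ι : Type*} [Fintype ι] [Nonempty ι] {K : Set (E d)}

theorem tessellation_of_pl (PL : PLhalf d)
    (hKc : Convex ℝ K) (hK : IsCompact K) (hKi : (interior K).Nonempty)
    {D : ℝ} (hD : 0 < D) (hDK : ∀ x ∈ K, ‖x‖ ≤ D)
    {z : ι → E d} (hz : Function.Injective z) {m m' : ι → ℝ} (hm : ∀ i, 0 < m i)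
    (hlo : ∀ i, m i / 2 ≤ m' i) (hhi : ∀ i, m' i ≤ 2 * m i)
    {ψ ψ' : ι → ℝ}
    (h : ∀ i, (unif K).real (cell K z ψ i) = m i)
    (h' : ∀ i, (unif K).real (cell K z ψ' i) = m' i) :
    ∑ i, ‖(∫ x in cell K z ψ' i, x ∂unif K) - ∫ x in cell K z ψ i, x ∂unif K‖ ^ 2 / m i
      ≤ 288000 * D ^ 2 * ∑ i, (m' i - m i) ^ 2 / m i := by
  have hω : Continuous (fun x : E d =>
      (500 * D ^ 2 + inner ℝ (0 : E d) x + (-1 / 2) * ‖x‖ ^ 2 : ℝ)) := by fun_prop
  have s1 := sum_cell_integral hK hz ψ hω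
  have s2 := sum_cell_integral hK hz ψ' hω
  have s3 := sum_cell_integral hK hz (fun j => (ψ j + ψ' j) / 2) hω
  have hsingle := fun i => single_cell PL hK hKi hD hDK (measurableSet_cell hK z ψ i)
    (measurableSet_cell hK z ψ' i) (measurableSet_cell hK z (fun j => (ψ j + ψ' j) / 2) i)
    (cell_subset z ψ i) (cell_subset z ψ' i) (cell_subset z _ i)
    (fun x hx y hy => midpoint_mem_cell hKc hx hy) (hm i) (hlo i) (hhi i) (h i) (h' i)
  have hsum := Finset.sum_le_sum fun i (_ : i ∈ Finset.univ) => hsingle i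
  rw [s3, Finset.sum_sub_distrib, Finset.sum_add_distrib, ← Finset.sum_div,
    Finset.sum_add_distrib, s1, s2] at hsum
  have e1 : ∑ i, ‖(∫ x in cell K z ψ' i, x ∂unif K) - ∫ x in cell K z ψ i, x ∂unif K‖ ^ 2
      / (48 * m i)
      = (∑ i, ‖(∫ x in cell K z ψ' i, x ∂unif K) - ∫ x in cell K z ψ i, x ∂unif K‖ ^ 2
        / m i) / 48 := by
    rw [Finset.sum_div]
    refine Finset.sum_congr rfl fun i _ => ?_
    rw [div_div, mul_comm]
  have e2 : ∑ i, 6000 * (D ^ 2 * (m' i - m i) ^ 2 / m i)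
      = 6000 * D ^ 2 * ∑ i, (m' i - m i) ^ 2 / m i := by
    rw [Finset.mul_sum]
    refine Finset.sum_congr rfl fun i _ => ?_
    ring
  rw [e1, e2] at hsum
  linarith

end Vale.Agent.P074.Tess
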